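import Mathlib

/-! # Definitions for problem P358

Channels act on square complex matrices.  The state space of one qubit is `Matrix (Fin 2) (Fin 2) ℂ`
(index `0` is the ground state, index `1` the excited state) and the state space of `n` qubits is
`Matrix (Fin n → Fin 2) (Fin n → Fin 2) ℂ`, the basis vectors being the bit strings
`x : Fin n → Fin 2`. -/

open Matrix
open scoped ComplexOrder

namespace Vale.Agent.P358

/-- Density matrices (states): positive semidefinite matrices of trace one. -/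
def IsState {d : Type*} [Fintype d] (ρ : Matrix d d ℂ) : Prop :=
  ρ.PosSemidef ∧ ρ.trace = 1

/-- The von Neumann entropy in bits, `S(ρ) = -∑ λᵢ log₂ λᵢ` over the eigenvalues `λᵢ` (counted with
multiplicity) of a Hermitian matrix `ρ`, with `0 log₂ 0 = 0`. (Value `0` if `ρ` is not
Hermitian; it is only applied to density matrices.) -/
noncomputable def entropy {d : Type*} [Fintype d] [DecidableEq d] (ρ : Matrix d d ℂ) : ℝ :=
  open Classical in
  if h : ρ.IsHermitian then ∑ i, -(h.eigenvalues i * Real.logb 2 (h.eigenvalues i)) else 0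

/-- The generalized amplitude-damping channel with damping strength `γ` and stationary excited-state
population `ν`, as a linear map on `2 × 2` matrices.  On a density matrix with entries
`1 - q, z; conj z, q` its value has entries `1 - t, √(1-γ) z; √(1-γ) conj z, t`, where
`t = (1-γ) q + γ ν`. -/
noncomputable def gadc (γ ν : ℝ) : Matrix (Fin 2) (Fin 2) ℂ →ₗ[ℂ] Matrix (Fin 2) (Fin 2) ℂ where
  toFun ρ :=
    !![ρ.trace - ((1 - γ) * ρ 1 1 + γ * ν * ρ.trace), √(1 - γ) * ρ 0 1;
      √(1 - γ) * ρ 1 0, (1 - γ) * ρ 1 1 + γ * ν * ρ.trace]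
  map_add' ρ σ := by
    ext i j
    fin_cases i <;> fin_cases j <;> simp [Matrix.trace_add] <;> ring
  map_smul' c ρ := by
    ext i j
    fin_cases i <;> fin_cases j <;> simp [Matrix.trace_smul] <;> ring

/-- The `n`-fold tensor power `N^{⊗n}` of a linear map `N` on `2 × 2` matrices.  It is the linear map
sending the matrix unit `E_{x' y'} = ⨂ᵢ E_{x'ᵢ y'ᵢ}` to `⨂ᵢ N (E_{x'ᵢ y'ᵢ})`. -/
noncomputable def tensorPower (N : Matrix (Fin 2) (Fin 2) ℂ →ₗ[ℂ] Matrix (Fin 2) (Fin 2) ℂ) (n : ℕ) :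
    Matrix (Fin n → Fin 2) (Fin n → Fin 2) ℂ →ₗ[ℂ] Matrix (Fin n → Fin 2) (Fin n → Fin 2) ℂ where
  toFun ρ := Matrix.of fun x y => ∑ x' : Fin n → Fin 2, ∑ y' : Fin n → Fin 2,
    (∏ i, N (Matrix.single (x' i) (y' i) 1) (x i) (y i)) * ρ x' y'
  map_add' ρ σ := by
    ext x y
    simp [mul_add, Finset.sum_add_distrib]
  map_smul' c ρ := by
    ext x y
    simp only [Matrix.smul_apply, smul_eq_mul, RingHom.id_apply, Finset.mul_sum, Matrix.of_apply]
    refine Finset.sum_congr rfl fun x' _ => Finset.sum_congr rfl fun y' _ => ?_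
    ring

/-- The set of all values of the Holevo information
`S(∑ₐ qₐ Φ(ρₐ)) - ∑ₐ qₐ S(Φ(ρₐ))` over finite ensembles `{qₐ, ρₐ}` of input states. -/
def holevoValues {d : Type*} [Fintype d] [DecidableEq d]
    (Φ : Matrix d d ℂ →ₗ[ℂ] Matrix d d ℂ) : Set ℝ :=
  {v | ∃ (k : ℕ) (q : Fin k → ℝ) (ρ : Fin k → Matrix d d ℂ),
    (∀ a, 0 ≤ q a) ∧ ∑ a, q a = 1 ∧ (∀ a, IsState (ρ a)) ∧
    v = entropy (∑ a, (q a : ℂ) • Φ (ρ a)) - ∑ a, q a * entropy (Φ (ρ a))}

/-- The Holevo capacity `χ(Φ)`: the supremum of the Holevo information. -/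
noncomputable def holevoCapacity {d : Type*} [Fintype d] [DecidableEq d]
    (Φ : Matrix d d ℂ →ₗ[ℂ] Matrix d d ℂ) : ℝ :=
  sSup (holevoValues Φ)

/-- The unassisted classical capacity `C(N) = sup_{n ≥ 1} χ(N^{⊗n}) / n` of a qubit channel. -/
noncomputable def classicalCapacity
    (N : Matrix (Fin 2) (Fin 2) ℂ →ₗ[ℂ] Matrix (Fin 2) (Fin 2) ℂ) : ℝ :=
  ⨆ n : ℕ+, holevoCapacity (tensorPower N n) / n

end Vale.Agent.P358
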