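import Vale.Agent.P358.Tensor
import Vale.Agent.P358.Defs

/-! # P358: the generalized amplitude-damping channel and its tensor powers are channels. -/

open Matrix
open scoped ComplexOrder

namespace Vale.Agent.P358

/-- Kraus operators of the generalized amplitude-damping channel -/
noncomputable def gadcK (γ ν : ℝ) : Fin 4 → Matrix (Fin 2) (Fin 2) ℂ :=
  ![!![(√(1 - ν) : ℂ), 0; 0, (√(1 - ν) : ℂ) * √(1 - γ)],
    !![0, (√(γ * (1 - ν)) : ℂ); 0, 0],
    !![(√ν : ℂ) * √(1 - γ), 0; 0, (√ν : ℂ)],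
    !![0, 0; (√(γ * ν) : ℂ), 0]]

theorem gadc_kraus {γ ν : ℝ} (hγ : 0 ≤ γ) (hγ1 : γ ≤ 1) (hν : 0 ≤ ν) (hν1 : ν ≤ 1)
    (M : Matrix (Fin 2) (Fin 2) ℂ) :
    gadc γ ν M = ∑ k, gadcK γ ν k * M * (gadcK γ ν k)ᴴ := by
  have s1 : (√(1 - ν) : ℂ) * √(1 - ν) = 1 - ν := by
    rw [← Complex.ofReal_mul, Real.mul_self_sqrt (by linarith)]; push_cast; ring
  have s2 : (√(1 - γ) : ℂ) * √(1 - γ) = 1 - γ := by
    rw [← Complex.ofReal_mul, Real.mul_self_sqrt (by linarith)]; push_cast; ring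
  have s3 : (√ν : ℂ) * √ν = ν := by
    rw [← Complex.ofReal_mul, Real.mul_self_sqrt hν]
  have s4 : (√(γ * ν) : ℂ) * √(γ * ν) = γ * ν := by
    rw [← Complex.ofReal_mul, Real.mul_self_sqrt (by positivity)]; push_cast; ring
  have s5 : (√(γ * (1 - ν)) : ℂ) * √(γ * (1 - ν)) = γ * (1 - ν) := by
    rw [← Complex.ofReal_mul, Real.mul_self_sqrt (mul_nonneg hγ (by linarith))]; push_cast; ring
  have key : ∀ (K M : Matrix (Fin 2) (Fin 2) ℂ) (i j : Fin 2), (K * M * Kᴴ) i j =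
      (K i 0 * M 0 0 + K i 1 * M 1 0) * star (K j 0) +
        (K i 0 * M 0 1 + K i 1 * M 1 1) * star (K j 1) := by
    intro K M i j
    simp [Matrix.mul_apply, Fin.sum_univ_two, Matrix.conjTranspose_apply]
  have hs : ∀ r : ℝ, (starRingEnd ℂ) ((r : ℂ)) = (r : ℂ) := fun r => Complex.conj_ofReal r
  ext i j
  rw [Matrix.sum_apply, Fin.sum_univ_four, key, key, key, key]
  fin_cases i <;> fin_cases j <;>
    simp [gadc, gadcK, Matrix.trace, Fin.sum_univ_two]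
  · linear_combination (-M 0 0) * s1 - (M 1 1) * s5 - (M 0 0) * (√(1 - γ) : ℂ) * √(1 - γ) * s3 -
      (M 0 0) * ν * s2
  · linear_combination (-M 0 1) * (√(1 - γ) : ℂ) * s1 - (M 0 1) * (√(1 - γ) : ℂ) * s3
  · linear_combination (-M 1 0) * (√(1 - γ) : ℂ) * s1 - (M 1 0) * (√(1 - γ) : ℂ) * s3
  · linear_combination (-M 1 1) * (√(1 - γ) : ℂ) * √(1 - γ) * s1 - (M 1 1) * (1 - ν) * s2 -
      (M 1 1) * s3 - (M 0 0) * s4

theorem isCh_gadc {γ ν : ℝ} (hγ : 0 ≤ γ) (hγ1 : γ ≤ 1) (hν : 0 ≤ ν) (hν1 : ν ≤ 1) :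
    IsCh (gadc γ ν) := by
  refine ⟨⟨Fin 4, inferInstance, gadcK γ ν, gadc_kraus hγ hγ1 hν hν1⟩, ?_⟩
  intro M
  simp [gadc, Matrix.trace, Fin.sum_univ_two]

/-- tensor powers of channels are channels -/
theorem IsCh.tensorPower {N : Matrix (Fin 2) (Fin 2) ℂ →ₗ[ℂ] Matrix (Fin 2) (Fin 2) ℂ}
    (h : IsCh N) (n : ℕ) : IsCh (tensorPower N n) := by
  obtain ⟨κ, hκ, K, hK⟩ := h.kraus
  refine ⟨⟨Fin n → κ, inferInstance, _, fun ρ => tensorPower_kraus N K hK n ρ⟩, ?_⟩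
  intro ρ
  have htr : ∀ a b : Fin 2, ∑ c, N (Matrix.single a b 1) c c = if a = b then 1 else 0 := by
    intro a b
    have h1 := h.tp (Matrix.single a b 1)
    rw [Matrix.trace] at h1
    simp only [Matrix.diag_apply] at h1
    rw [h1]
    by_cases hab : a = b
    · subst hab; simp
    · rw [if_neg hab, Matrix.trace_single_eq_of_ne _ _ _ hab]
  have hx : ∀ x' y' : Fin n → Fin 2,
      ∑ x : Fin n → Fin 2, ∏ i, N (Matrix.single (x' i) (y' i) 1) (x i) (x i) =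
      if x' = y' then 1 else 0 := by
    intro x' y'
    have h1 := (Finset.prod_univ_sum (fun _ : Fin n => (Finset.univ : Finset (Fin 2)))
      (fun i c => N (Matrix.single (x' i) (y' i) 1) c c)).symm
    rw [Fintype.piFinset_univ] at h1
    rw [h1]
    simp only [htr]
    by_cases hxy : x' = y'
    · subst hxy; simp
    · rw [if_neg hxy]
      obtain ⟨i, hi⟩ := Function.ne_iff.mp hxy
      exact Finset.prod_eq_zero (Finset.mem_univ i) (if_neg hi)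
  unfold Matrix.trace
  simp only [Matrix.diag_apply, tensorPower_apply]
  rw [Finset.sum_comm]
  refine Finset.sum_congr rfl (fun x' _ => ?_)
  rw [Finset.sum_comm]
  simp only [← Finset.sum_mul, hx]
  simp

theorem isCh_tensorPower {γ ν : ℝ} (hγ : 0 ≤ γ) (hγ1 : γ ≤ 1) (hν : 0 ≤ ν) (hν1 : ν ≤ 1)
    (n : ℕ) : IsCh (tensorPower (gadc γ ν) n) :=
  (isCh_gadc hγ hγ1 hν hν1).tensorPower n

end Vale.Agent.P358
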