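import Vale.Agent.P358.MatAux

/-! # P358: the determinant inequality. -/

open Matrix
open scoped MatrixOrder ComplexOrder

namespace Vale.Agent.P358

variable {n : Type*} [Fintype n] [DecidableEq n]

/-- The statement of Lemma K (to be proved in `LemK.lean`). -/
def LemKStatement (n : Type*) [Fintype n] [DecidableEq n] : Prop :=
  ∀ G D : Matrix n n ℂ, G.PosDef → D.PosDef →
    G.det.re * ∏ k, (1 + 1 / ((D⁻¹ k k).re * (G k k).re)) ≤ (G + D).det.re

lemma posDef_smul_one_add {M : Matrix n n ℂ} (hM : M.PosSemidef) {l : ℝ} (hl : 0 < l) :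
    ((l : ℂ) • (1 : Matrix n n ℂ) + M).PosDef := by
  apply Matrix.PosDef.add_posSemidef _ hM
  exact Matrix.PosDef.one.smul (by simpa using hl)

lemma push_through (Y : Matrix n n ℂ) {l : ℝ} (hl : 0 < l) :
    Y * ((l : ℂ) • (1 : Matrix n n ℂ) + Yᴴ * Y)⁻¹ * Yᴴ =
      1 - (l : ℂ) • ((l : ℂ) • (1 : Matrix n n ℂ) + Y * Yᴴ)⁻¹ := by
  have h1 := posDef_smul_one_add (posSemidef_conjTranspose_mul_self Y) hl
  have h2 := posDef_smul_one_add (posSemidef_self_mul_conjTranspose Y) hl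
  set P := (l : ℂ) • (1 : Matrix n n ℂ) + Yᴴ * Y with hP
  set Q := (l : ℂ) • (1 : Matrix n n ℂ) + Y * Yᴴ with hQ
  have hPu : IsUnit P.det := (Matrix.isUnit_iff_isUnit_det P).mp h1.isUnit
  have hQu : IsUnit Q.det := (Matrix.isUnit_iff_isUnit_det Q).mp h2.isUnit
  have h3 : Q * Y = Y * P := by
    rw [hP, hQ, Matrix.add_mul, Matrix.mul_add, Matrix.smul_mul, Matrix.mul_smul, Matrix.one_mul,
      Matrix.mul_one, Matrix.mul_assoc]
  have h4 : Y * P⁻¹ = Q⁻¹ * Y := by
    calc Y * P⁻¹ = (Q⁻¹ * Q) * Y * P⁻¹ := by rw [Matrix.nonsing_inv_mul _ hQu, Matrix.one_mul]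
      _ = Q⁻¹ * (Q * Y) * P⁻¹ := by simp only [Matrix.mul_assoc]
      _ = Q⁻¹ * Y * (P * P⁻¹) := by rw [h3]; simp only [Matrix.mul_assoc]
      _ = Q⁻¹ * Y := by rw [Matrix.mul_nonsing_inv _ hPu, Matrix.mul_one]
  rw [h4, Matrix.mul_assoc]
  have h5 : Y * Yᴴ = Q - (l : ℂ) • (1 : Matrix n n ℂ) := by rw [hQ]; abel
  rw [h5, Matrix.mul_sub, Matrix.nonsing_inv_mul _ hQu, Matrix.mul_smul, Matrix.mul_one]

section diag

variable {b : n → ℝ} {X01 X11 Z : Matrix n n ℂ}

/-- diagonal matrix with entries `√b` -/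
noncomputable def sqD (b : n → ℝ) : Matrix n n ℂ := diagonal (fun k => ((√(b k) : ℝ) : ℂ))
/-- diagonal matrix with entries `1/√b` -/
noncomputable def sqDi (b : n → ℝ) : Matrix n n ℂ := diagonal (fun k => ((1 / √(b k) : ℝ) : ℂ))

lemma sqD_mul_sqDi (hb : ∀ k, 0 < b k) : sqD b * sqDi b = 1 := by
  unfold sqD sqDi
  rw [diagonal_mul_diagonal, ← diagonal_one]
  congr 1
  funext k
  have := Real.sqrt_pos.mpr (hb k)
  rw [← Complex.ofReal_mul, mul_one_div_cancel this.ne', Complex.ofReal_one]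

lemma sqDi_mul_sqD (hb : ∀ k, 0 < b k) : sqDi b * sqD b = 1 := by
  unfold sqD sqDi
  rw [diagonal_mul_diagonal, ← diagonal_one]
  congr 1
  funext k
  have := Real.sqrt_pos.mpr (hb k)
  rw [← Complex.ofReal_mul, one_div_mul_cancel this.ne', Complex.ofReal_one]

lemma sqD_mul_sqD (hb : ∀ k, 0 < b k) : sqD b * sqD b = diagonal (fun k => ((b k : ℝ) : ℂ)) := by
  unfold sqD
  rw [diagonal_mul_diagonal]
  congr 1
  funext k
  rw [← Complex.ofReal_mul, Real.mul_self_sqrt (hb k).le]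

lemma sqDi_mul_sqDi (hb : ∀ k, 0 < b k) :
    sqDi b * sqDi b = (diagonal (fun k => ((b k : ℝ) : ℂ)))⁻¹ := by
  symm
  apply Matrix.inv_eq_right_inv
  rw [← sqD_mul_sqD hb]
  calc sqD b * sqD b * (sqDi b * sqDi b) = sqD b * (sqD b * sqDi b) * sqDi b := by
        simp only [Matrix.mul_assoc]
    _ = 1 := by rw [sqD_mul_sqDi hb, Matrix.mul_one, sqD_mul_sqDi hb]

lemma sqD_conj (b : n → ℝ) : (sqD b)ᴴ = sqD b := by
  unfold sqD
  rw [diagonal_conjTranspose]
  congr 1
  funext k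
  simp

lemma sqDi_conj (b : n → ℝ) : (sqDi b)ᴴ = sqDi b := by
  unfold sqDi
  rw [diagonal_conjTranspose]
  congr 1
  funext k
  simp

/-- the matrix `Y = B^{-1/2} X01` -/
noncomputable def Ymat (b : n → ℝ) (X01 : Matrix n n ℂ) : Matrix n n ℂ := sqDi b * X01

/-- its row masses -/
noncomputable def cvec (b : n → ℝ) (X01 : Matrix n n ℂ) (k : n) : ℝ :=
  ((Ymat b X01 * (Ymat b X01)ᴴ) k k).re

lemma cvec_nonneg (b : n → ℝ) (X01 : Matrix n n ℂ) (k : n) : 0 ≤ cvec b X01 k := by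
  have := (posSemidef_self_mul_conjTranspose (Ymat b X01)).diag_nonneg (i := k)
  rw [Complex.nonneg_iff] at this
  exact this.1

lemma schur_psd (hb : ∀ k, 0 < b k)
    (hX : (fromBlocks (diagonal (fun k => ((b k : ℝ) : ℂ))) X01 X01ᴴ X11).PosSemidef) :
    (X11 - (Ymat b X01)ᴴ * Ymat b X01).PosSemidef := by
  have hA : (diagonal (fun k => ((b k : ℝ) : ℂ)) : Matrix n n ℂ).PosDef := by
    rw [Matrix.posDef_diagonal_iff]
    intro k
    simpa using hb k
  have : Invertible (diagonal (fun k => ((b k : ℝ) : ℂ)) : Matrix n n ℂ) := hA.isUnit.invertible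
  rw [Matrix.PosDef.fromBlocks₁₁ X01 X11 hA] at hX
  have e : (Ymat b X01)ᴴ * Ymat b X01 =
      X01ᴴ * (diagonal (fun k => ((b k : ℝ) : ℂ)))⁻¹ * X01 := by
    unfold Ymat
    rw [conjTranspose_mul, sqDi_conj, ← sqDi_mul_sqDi hb]
    simp only [Matrix.mul_assoc]
  rw [e]
  exact hX

lemma cvec_sum (hb : ∀ k, 0 < b k)
    (hX : (fromBlocks (diagonal (fun k => ((b k : ℝ) : ℂ))) X01 X01ᴴ X11).PosSemidef) :
    ∑ k, cvec b X01 k ≤ X11.trace.re := by
  have h1 : ∑ k, cvec b X01 k = ((Ymat b X01)ᴴ * Ymat b X01).trace.re := by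
    rw [Matrix.trace_mul_comm]
    unfold cvec Matrix.trace
    simp [Matrix.diag]
  have h2 := (schur_psd hb hX).trace_nonneg
  rw [Matrix.trace_sub, Complex.nonneg_iff] at h2
  rw [h1]
  have := h2.1
  rw [Complex.sub_re] at this
  linarith

/-- **determinant inequality**, `X00` diagonal -/
theorem det_lower_diag (hK : LemKStatement n) (hb : ∀ k, 0 < b k) (hZ : Z.PosSemidef)
    (hX : (fromBlocks (diagonal (fun k => ((b k : ℝ) : ℂ))) X01 X01ᴴ X11).PosSemidef)
    {l : ℝ} (hl : 0 < l) :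
    ((l : ℂ) • (1 : Matrix n n ℂ) + Z).det.re * ((l : ℂ) • (1 : Matrix n n ℂ) + X11).det.re *
      ∏ k, (1 + l * b k / ((l + (Z k k).re) * (l + cvec b X01 k))) ≤
    ((l : ℂ) • (1 : Matrix (n ⊕ n) (n ⊕ n) ℂ) +
      fromBlocks (diagonal (fun k => ((b k : ℝ) : ℂ)) + Z) X01 X01ᴴ X11).det.re := by
  have hX11 : X11.PosSemidef := by
    have h1 := hX.submatrix (Sum.inr : n → n ⊕ n)
    have h2 : (fromBlocks (diagonal (fun k => ((b k : ℝ) : ℂ))) X01 X01ᴴ X11).submatrix
        (Sum.inr : n → n ⊕ n) Sum.inr = X11 := by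
      ext i j; simp
    rwa [h2] at h1
  set Y := Ymat b X01 with hYdef
  have hS := schur_psd hb hX
  rw [← hYdef] at hS
  have hX01 : X01 = sqD b * Y := by
    rw [hYdef]; unfold Ymat
    rw [← Matrix.mul_assoc, sqD_mul_sqDi hb, Matrix.one_mul]
  -- notation
  set L : Matrix n n ℂ := (l : ℂ) • (1 : Matrix n n ℂ) with hL
  have hLX : (L + X11).PosDef := posDef_smul_one_add hX11 hl
  have hLZ : (L + Z).PosDef := posDef_smul_one_add hZ hl
  have hLY : (L + Yᴴ * Y).PosDef := posDef_smul_one_add (posSemidef_conjTranspose_mul_self Y) hl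
  have hLC : (L + Y * Yᴴ).PosDef := posDef_smul_one_add (posSemidef_self_mul_conjTranspose Y) hl
  have hinv : Invertible (L + X11) := hLX.isUnit.invertible
  -- block determinant
  have hblock : ((l : ℂ) • (1 : Matrix (n ⊕ n) (n ⊕ n) ℂ) +
      fromBlocks (diagonal (fun k => ((b k : ℝ) : ℂ)) + Z) X01 X01ᴴ X11) =
      fromBlocks (L + (diagonal (fun k => ((b k : ℝ) : ℂ)) + Z)) X01 X01ᴴ (L + X11) := by
    rw [← fromBlocks_one, fromBlocks_smul, fromBlocks_add]
    simp [hL]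
  set E := L + (diagonal (fun k => ((b k : ℝ) : ℂ)) + Z) - X01 * (L + X11)⁻¹ * X01ᴴ with hE
  set E' := (L + Z) + sqD b * ((l : ℂ) • (L + Y * Yᴴ)⁻¹) * sqD b with hE'
  have hdet : ((l : ℂ) • (1 : Matrix (n ⊕ n) (n ⊕ n) ℂ) +
      fromBlocks (diagonal (fun k => ((b k : ℝ) : ℂ)) + Z) X01 X01ᴴ X11).det =
      (L + X11).det * E.det := by
    rw [hblock, det_fromBlocks₂₂, invOf_eq_nonsing_inv]
  have hEE' : E = E' + sqD b * Y * ((L + Yᴴ * Y)⁻¹ - (L + X11)⁻¹) * (sqD b * Y)ᴴ := by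
    have hp := push_through Y hl
    rw [← hL] at hp
    have hp2 : sqD b * Y * (L + Yᴴ * Y)⁻¹ * (sqD b * Y)ᴴ =
        diagonal (fun k => ((b k : ℝ) : ℂ)) - sqD b * ((l : ℂ) • (L + Y * Yᴴ)⁻¹) * sqD b := by
      rw [conjTranspose_mul, sqD_conj]
      calc sqD b * Y * (L + Yᴴ * Y)⁻¹ * (Yᴴ * sqD b)
          = sqD b * (Y * (L + Yᴴ * Y)⁻¹ * Yᴴ) * sqD b := by simp only [Matrix.mul_assoc]
        _ = _ := by rw [hp, Matrix.mul_sub, Matrix.sub_mul, Matrix.mul_one, sqD_mul_sqD hb]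
    rw [Matrix.mul_sub, Matrix.sub_mul, hp2, ← hX01, hE, hE']
    abel
  have hE'pd : E'.PosDef := by
    rw [hE']
    apply hLZ.add_posSemidef
    have h1 : ((l : ℂ) • (L + Y * Yᴴ)⁻¹).PosSemidef :=
      (hLC.inv.posSemidef).smul (by simpa using hl.le)
    have := h1.mul_mul_conjTranspose_same (sqD b)
    rwa [sqD_conj] at this
  have hdiff : (sqD b * Y * ((L + Yᴴ * Y)⁻¹ - (L + X11)⁻¹) * (sqD b * Y)ᴴ).PosSemidef := by
    apply Matrix.PosSemidef.mul_mul_conjTranspose_same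
    apply inv_sub_inv_posSemidef hLY
    have : L + X11 - (L + Yᴴ * Y) = X11 - Yᴴ * Y := by abel
    rw [this]
    exact hS
  have hdetE : E'.det.re ≤ E.det.re := by
    rw [hEE']
    exact det_le_det_add hE'pd hdiff
  -- Lemma K
  set G := sqDi b * (L + Z) * sqDi b with hG
  have hGpd : G.PosDef := by
    have h1 : IsUnit (sqDi b) := by
      refine ⟨⟨sqDi b, sqD b, sqDi_mul_sqD hb, sqD_mul_sqDi hb⟩, rfl⟩
    have := (Matrix.IsUnit.posDef_star_left_conjugate_iff (x := L + Z) h1).mpr hLZ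
    rwa [star_eq_conjTranspose, sqDi_conj] at this
  set D' := (l : ℂ) • (L + Y * Yᴴ)⁻¹ with hD'
  have hD'pd : D'.PosDef := hLC.inv.smul (by simpa using hl)
  have hEG : E' = sqD b * (G + D') * sqD b := by
    rw [hE', hG, Matrix.mul_add, Matrix.add_mul]
    congr 1
    calc L + Z = (sqD b * sqDi b) * (L + Z) * (sqDi b * sqD b) := by
          rw [sqD_mul_sqDi hb, sqDi_mul_sqD hb]; simp
      _ = _ := by simp only [Matrix.mul_assoc]
  have hGdet : (L + Z).det = (sqD b).det * G.det * (sqD b).det := by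
    rw [← det_mul, ← det_mul]
    congr 1
    rw [hG]
    calc L + Z = (sqD b * sqDi b) * (L + Z) * (sqDi b * sqD b) := by
          rw [sqD_mul_sqDi hb, sqDi_mul_sqD hb]; simp
      _ = _ := by simp only [Matrix.mul_assoc]
  have hsq : (sqD b).det * (sqD b).det = ((∏ k, b k : ℝ) : ℂ) := by
    rw [← det_mul, sqD_mul_sqD hb, det_diagonal]
    push_cast; rfl
  have hbprod : 0 < ∏ k, b k := Finset.prod_pos (fun k _ => hb k)
  have hE're : E'.det.re = (∏ k, b k) * (G + D').det.re := by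
    rw [hEG, det_mul, det_mul]
    have : (sqD b).det * (G + D').det * (sqD b).det = ((∏ k, b k : ℝ) : ℂ) * (G + D').det := by
      rw [← hsq]; ring
    rw [this, Complex.re_ofReal_mul]
  have hLZre : (L + Z).det.re = (∏ k, b k) * G.det.re := by
    rw [hGdet]
    have : (sqD b).det * G.det * (sqD b).det = ((∏ k, b k : ℝ) : ℂ) * G.det := by
      rw [← hsq]; ring
    rw [this, Complex.re_ofReal_mul]
  have hKK := hK G D' hGpd hD'pd
  have hfac : ∀ k, 1 + 1 / ((D'⁻¹ k k).re * (G k k).re) =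
      1 + l * b k / ((l + (Z k k).re) * (l + cvec b X01 k)) := by
    intro k
    have h1 : (D'⁻¹ k k).re = (l + cvec b X01 k) / l := by
      have : D'⁻¹ = ((l:ℂ)⁻¹) • (L + Y * Yᴴ) := by
        apply Matrix.inv_eq_left_inv
        rw [hD', Matrix.smul_mul, Matrix.mul_smul, smul_smul, Matrix.mul_nonsing_inv _
          ((Matrix.isUnit_iff_isUnit_det _).mp hLC.isUnit),
          inv_mul_cancel₀ (by exact_mod_cast hl.ne'), one_smul]
      rw [this, Matrix.smul_apply, Matrix.add_apply, hL, Matrix.smul_apply, Matrix.one_apply_eq]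
      unfold cvec
      rw [← hYdef, smul_eq_mul, smul_eq_mul, mul_one, ← Complex.ofReal_inv, Complex.re_ofReal_mul,
        Complex.add_re, Complex.ofReal_re]
      field_simp
    have h2 : (G k k).re = (l + (Z k k).re) / b k := by
      rw [hG]
      unfold sqDi
      rw [Matrix.mul_diagonal, Matrix.diagonal_mul, Matrix.add_apply, hL, Matrix.smul_apply,
        Matrix.one_apply_eq, smul_eq_mul, mul_one]
      have hs : (1 / √(b k)) * (1 / √(b k)) = 1 / b k := by
        rw [div_mul_div_comm, one_mul, Real.mul_self_sqrt (hb k).le]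
      have : (((1 / √(b k) : ℝ) : ℂ)) * ((l : ℂ) + Z k k) * (((1 / √(b k) : ℝ) : ℂ)) =
          ((1 / b k : ℝ) : ℂ) * ((l : ℂ) + Z k k) := by
        rw [← hs]; push_cast; ring
      rw [this, Complex.re_ofReal_mul, Complex.add_re, Complex.ofReal_re]
      ring
    rw [h1, h2]
    have h3 : 0 ≤ (Z k k).re := by
      have := hZ.diag_nonneg (i := k)
      rw [Complex.nonneg_iff] at this
      exact this.1
    have h4 := cvec_nonneg b X01 k
    have h5 := hb k
    field_simp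
  rw [Finset.prod_congr rfl (fun k _ => hfac k)] at hKK
  -- conclusion
  have hre : ((L + X11).det * E.det).re = (L + X11).det.re * E.det.re := by
    rw [Complex.mul_re, posSemidef_det_im hLX.posSemidef, zero_mul, sub_zero]
  rw [hdet, hre, hLZre]
  have hpos := posDef_det_re_pos hLX
  calc (∏ k, b k) * G.det.re * (L + X11).det.re *
        ∏ k, (1 + l * b k / ((l + (Z k k).re) * (l + cvec b X01 k)))
      = (L + X11).det.re * ((∏ k, b k) * (G.det.re *
        ∏ k, (1 + l * b k / ((l + (Z k k).re) * (l + cvec b X01 k))))) := by ring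
    _ ≤ (L + X11).det.re * ((∏ k, b k) * (G + D').det.re) := by
        apply mul_le_mul_of_nonneg_left _ hpos.le
        exact mul_le_mul_of_nonneg_left hKK hbprod.le
    _ = (L + X11).det.re * E'.det.re := by rw [hE're]
    _ ≤ (L + X11).det.re * E.det.re := mul_le_mul_of_nonneg_left hdetE hpos.le

end diag

end Vale.Agent.P358
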