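import Mathlib

/-! # Entropy of Hermitian matrices: basic facts -/

open Matrix
open scoped ComplexOrder

namespace Vale.Agent.P358

/-- (Unnormalised) von Neumann entropy `-Tr M log M` in nats of a Hermitian matrix, computed
from its eigenvalues (`0` for matrices which are not Hermitian). -/
noncomputable def vnS {n : Type*} [Fintype n] [DecidableEq n] (M : Matrix n n ℂ) : ℝ :=
  open Classical in
  if h : M.IsHermitian then ∑ i, Real.negMulLog (h.eigenvalues i) else 0

variable {n m : Type*} [Fintype n] [DecidableEq n] [Fintype m] [DecidableEq m]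

theorem vnS_eq {M : Matrix n n ℂ} (h : M.IsHermitian) :
    vnS M = ∑ i, Real.negMulLog (h.eigenvalues i) := by
  unfold vnS; rw [dif_pos h]

theorem vnS_eq_roots {M : Matrix n n ℂ} (h : M.IsHermitian) :
    vnS M = (M.charpoly.roots.map (fun z : ℂ => Real.negMulLog z.re)).sum := by
  rw [vnS_eq h, h.roots_charpoly_eq_eigenvalues, Multiset.map_map]
  simp [Function.comp_def]

theorem vnS_congr_charpoly {M : Matrix n n ℂ} {M' : Matrix m m ℂ} (h : M.IsHermitian)
    (h' : M'.IsHermitian) (hc : M.charpoly = M'.charpoly) : vnS M = vnS M' := by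
  rw [vnS_eq_roots h, vnS_eq_roots h', hc]

theorem vnS_reindex (e : n ≃ m) (M : Matrix n n ℂ) : vnS (M.submatrix e.symm e.symm) = vnS M := by
  by_cases h : M.IsHermitian
  · have h' : (M.submatrix e.symm e.symm).IsHermitian := h.submatrix _
    refine vnS_congr_charpoly h' h ?_
    have := charpoly_reindex e M
    simpa [reindex_apply] using this
  · have h' : ¬ (M.submatrix e.symm e.symm).IsHermitian := by
      intro h'
      apply h
      have := h'.submatrix (e : n → m)
      simpa [submatrix_submatrix] using this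
    unfold vnS
    rw [dif_neg h, dif_neg h']

theorem vnS_submatrix (e : m ≃ n) (M : Matrix n n ℂ) : vnS (M.submatrix e e) = vnS M := by
  simpa using vnS_reindex e.symm M

/-- invariance under unitary conjugation -/
theorem vnS_unitary_conj (U : Matrix n n ℂ) (hU : Uᴴ * U = 1) {M : Matrix n n ℂ}
    (h : M.IsHermitian) : vnS (U * M * Uᴴ) = vnS M := by
  have h' : (U * M * Uᴴ).IsHermitian := by
    unfold Matrix.IsHermitian
    simp [Matrix.mul_assoc, h.eq]
  refine vnS_congr_charpoly h' h ?_
  rw [charpoly_mul_comm, ← Matrix.mul_assoc, hU, Matrix.one_mul]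

theorem vnS_unitary_conj' (U : Matrix n n ℂ) (hU : Uᴴ * U = 1) {M : Matrix n n ℂ}
    (h : M.IsHermitian) : vnS (Uᴴ * M * U) = vnS M := by
  have hU' : U * Uᴴ = 1 := mul_eq_one_comm.mp hU
  have := vnS_unitary_conj Uᴴ (by simpa using hU') h
  simpa using this

theorem vnS_diagonal (d : n → ℝ) :
    vnS (diagonal (fun i => (d i : ℂ))) = ∑ i, Real.negMulLog (d i) := by
  have h : (diagonal (fun i => (d i : ℂ))).IsHermitian := by
    unfold Matrix.IsHermitian
    rw [diagonal_conjTranspose]
    congr 1
    ext i
    simp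
  rw [vnS_eq_roots h, charpoly_diagonal, Polynomial.roots_prod]
  · simp
  · simp [Finset.prod_ne_zero_iff, Polynomial.X_sub_C_ne_zero]

theorem vnS_fromBlocks_diag {A : Matrix n n ℂ} {D : Matrix m m ℂ} (hA : A.IsHermitian)
    (hD : D.IsHermitian) : vnS (fromBlocks A 0 0 D) = vnS A + vnS D := by
  have h : (fromBlocks A 0 0 D).IsHermitian := IsHermitian.fromBlocks hA (by simp) hD
  rw [vnS_eq_roots h, vnS_eq_roots hA, vnS_eq_roots hD, charpoly_fromBlocks_zero₁₂,
    Polynomial.roots_mul, Multiset.map_add, Multiset.sum_add]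
  exact mul_ne_zero (A.charpoly_monic.ne_zero) (D.charpoly_monic.ne_zero)

end Vale.Agent.P358
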