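import Vale.Agent.P358.Scalar

/-! # P358: superadditivity of the scalar entropy gain function `F`. -/

open Real Set Filter Topology MeasureTheory

namespace Vale.Agent.P358

private lemma G_convex {l : ℝ} (hl : 0 < l) :
    ConvexOn ℝ univ (fun s : ℝ => Real.log (1 + l * Real.exp s)) := by
  have hd : ∀ s : ℝ, HasDerivAt (fun s : ℝ => Real.log (1 + l * Real.exp s))
      (1 - 1 / (1 + l * Real.exp s)) s := by
    intro s
    have hpos : 1 + l * Real.exp s ≠ 0 := by positivity
    have h := (((Real.hasDerivAt_exp s).const_mul l).const_add 1).log hpos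
    refine h.congr_deriv ?_
    field_simp
    ring
  apply Monotone.convexOn_univ_of_deriv
  · exact fun s => (hd s).differentiableAt
  · have : deriv (fun s : ℝ => Real.log (1 + l * Real.exp s)) =
        fun s => 1 - 1 / (1 + l * Real.exp s) := by
      funext s; exact (hd s).deriv
    rw [this]
    intro s t hst
    have := Real.exp_le_exp.mpr hst
    have h1 : 1 + l * Real.exp s ≤ 1 + l * Real.exp t := by nlinarith
    have h2 : 0 < 1 + l * Real.exp s := by positivity
    have := one_div_le_one_div_of_le h2 h1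
    simp only
    linarith

private lemma G_mono {l : ℝ} (hl : 0 < l) :
    Monotone (fun s : ℝ => Real.log (1 + l * Real.exp s)) := by
  intro s t hst
  have := Real.exp_le_exp.mpr hst
  simp only
  apply Real.log_le_log (by positivity)
  nlinarith

private lemma inner_convex {l : ℝ} (hl : 0 < l) :
    ConvexOn ℝ {p : ℝ × ℝ | 0 ≤ p.1 ∧ 0 ≤ p.2}
      (fun p : ℝ × ℝ => -Real.log (l + p.1) - Real.log (l + p.2)) := by
  have hconv : Convex ℝ {p : ℝ × ℝ | 0 ≤ p.1 ∧ 0 ≤ p.2} := by
    intro p hp q hq α β hα hβ hαβ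
    obtain ⟨hp1, hp2⟩ := hp
    obtain ⟨hq1, hq2⟩ := hq
    constructor
    · simp only [Prod.fst_add, Prod.smul_fst, smul_eq_mul]; positivity
    · simp only [Prod.snd_add, Prod.smul_snd, smul_eq_mul]; positivity
  refine ⟨hconv, ?_⟩
  intro p hp q hq α β hα hβ hαβ
  obtain ⟨hp1, hp2⟩ := hp
  obtain ⟨hq1, hq2⟩ := hq
  have hlog := strictConcaveOn_log_Ioi.concaveOn
  have h1 := hlog.2 (show l + p.1 ∈ Ioi 0 from by simp only [mem_Ioi]; positivity)
    (show l + q.1 ∈ Ioi 0 from by simp only [mem_Ioi]; positivity) hα hβ hαβ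
  have h2 := hlog.2 (show l + p.2 ∈ Ioi 0 from by simp only [mem_Ioi]; positivity)
    (show l + q.2 ∈ Ioi 0 from by simp only [mem_Ioi]; positivity) hα hβ hαβ
  simp only [smul_eq_mul] at h1 h2
  simp only [Prod.fst_add, Prod.smul_fst, Prod.snd_add, Prod.smul_snd, smul_eq_mul]
  have e1 : α * (l + p.1) + β * (l + q.1) = l + (α * p.1 + β * q.1) := by
    have : α = 1 - β := by linarith
    rw [this]; ring
  have e2 : α * (l + p.2) + β * (l + q.2) = l + (α * p.2 + β * q.2) := by
    have : α = 1 - β := by linarith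
    rw [this]; ring
  rw [e1] at h1
  rw [e2] at h2
  linarith

private lemma psi_convex {l : ℝ} (hl : 0 < l) :
    ConvexOn ℝ {p : ℝ × ℝ | 0 ≤ p.1 ∧ 0 ≤ p.2}
      (fun p : ℝ × ℝ => kernF p.1 1 p.2 l) := by
  have h := ((G_convex hl).subset (subset_univ _) ?_).comp (inner_convex hl)
    ((G_mono hl).monotoneOn _)
  · have h2 := h.add_const (-Real.log (1 + 1 / l))
    refine h2.congr ?_
    intro p hp
    obtain ⟨hp1, hp2⟩ := hp
    simp only [Function.comp, Pi.add_apply, kernF]
    have : l * Real.exp (-Real.log (l + p.1) - Real.log (l + p.2)) =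
        l * 1 / ((l + p.1) * (l + p.2)) := by
      rw [Real.exp_sub, Real.exp_neg, Real.exp_log (by positivity), Real.exp_log (by positivity)]
      field_simp
    rw [this]
    ring
  · exact ((inner_convex hl).1.isPreconnected.image _ (by
      apply ContinuousOn.sub
      · apply ContinuousOn.neg
        apply ContinuousOn.log (by fun_prop)
        intro p hp
        have := hp.1
        positivity
      · apply ContinuousOn.log (by fun_prop)
        intro p hp
        have := hp.2
        positivity)).ordConnected.convex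

lemma kernF_anti {a a' b c c' l : ℝ} (ha : 0 ≤ a) (hb : 0 ≤ b) (hc : 0 ≤ c) (hl : 0 < l)
    (haa : a ≤ a') (hcc : c ≤ c') : kernF a' b c' l ≤ kernF a b c l := by
  unfold kernF
  apply sub_le_sub_right
  have ha' : 0 ≤ a' := ha.trans haa
  have hc' : 0 ≤ c' := hc.trans hcc
  apply Real.log_le_log (by positivity)
  gcongr

theorem F_anti {a a' b c c' : ℝ} (ha : 0 ≤ a) (hb : 0 ≤ b) (hc : 0 ≤ c)
    (haa : a ≤ a') (hcc : c ≤ c') : F a' b c' ≤ F a b c := by
  rw [← integral_kernF ha hb hc, ← integral_kernF (ha.trans haa) hb (hc.trans hcc)]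
  apply setIntegral_mono_on (kernF_integrableOn (ha.trans haa) hb (hc.trans hcc))
    (kernF_integrableOn ha hb hc) measurableSet_Ioi
  intro l hl
  exact kernF_anti ha hb hc hl haa hcc

lemma F_zero_mid {a c : ℝ} (ha : 0 ≤ a) (hc : 0 ≤ c) : F a 0 c = 0 := by
  rw [← integral_kernF ha le_rfl hc]
  simp [kernF]

lemma F_smul {s a b c : ℝ} (hs : 0 ≤ s) (ha : 0 ≤ a) (hb : 0 ≤ b) (hc : 0 ≤ c) :
    F (s * a) (s * b) (s * c) = s * F a b c := by
  have e : √((s * a + s * b + s * c) ^ 2 - 4 * (s * a * (s * c))) =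
      s * √((a + b + c) ^ 2 - 4 * (a * c)) := by
    have : (s * a + s * b + s * c) ^ 2 - 4 * (s * a * (s * c)) =
        s ^ 2 * ((a + b + c) ^ 2 - 4 * (a * c)) := by ring
    rw [this, Real.sqrt_mul (sq_nonneg s), Real.sqrt_sq hs]
  have eP : lamP (s * a) (s * b) (s * c) = s * lamP a b c := by
    unfold lamP; rw [e]; ring
  have eM : lamM (s * a) (s * b) (s * c) = s * lamM a b c := by
    unfold lamM; rw [e]; ring
  unfold F
  rw [eP, eM]
  simp only [Real.negMulLog_mul]
  have := lam_add a b c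
  have h2 : lamP a b c * Real.negMulLog s + lamM a b c * Real.negMulLog s =
      a * Real.negMulLog s + b * Real.negMulLog s + c * Real.negMulLog s := by
    rw [← add_mul, ← add_mul, ← add_mul, this]
  linarith

/-- `F` in terms of any pair of roots of `t² - (a+b+c) t + a c`. -/
theorem F_eq_of_roots {a b c m₁ m₂ : ℝ} (ha : 0 ≤ a) (hb : 0 ≤ b) (hc : 0 ≤ c)
    (hadd : m₁ + m₂ = a + b + c) (hmul : m₁ * m₂ = a * c) :
    F a b c = Real.negMulLog m₁ + Real.negMulLog m₂
      - Real.negMulLog a - Real.negMulLog b - Real.negMulLog c := by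
  have h1 := lam_add a b c
  have h2 := lam_mul ha hb hc
  have h3 : (m₁ - lamP a b c) * (m₁ - lamM a b c) = 0 := by
    have e1 : lamM a b c = a + b + c - lamP a b c := by linarith
    have e2 : m₂ = a + b + c - m₁ := by linarith
    rw [e2] at hmul
    rw [e1] at h2 ⊢
    nlinarith
  unfold F
  rcases mul_eq_zero.mp h3 with h | h
  · have e1 : m₁ = lamP a b c := by linarith
    have e2 : m₂ = lamM a b c := by linarith
    rw [e1, e2]
  · have e1 : m₁ = lamM a b c := by linarith
    have e2 : m₂ = lamP a b c := by linarith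
    rw [e1, e2]; ring

/-- **Superadditivity lemma**: `F (∑ a) (∑ b) (∑ c) ≤ ∑ F a b c`. -/
theorem F_superadd {ι : Type*} [Fintype ι] {a b c : ι → ℝ} (ha : ∀ i, 0 ≤ a i)
    (hb : ∀ i, 0 ≤ b i) (hc : ∀ i, 0 ≤ c i) :
    F (∑ i, a i) (∑ i, b i) (∑ i, c i) ≤ ∑ i, F (a i) (b i) (c i) := by
  have hA : 0 ≤ ∑ i, a i := Finset.sum_nonneg (fun i _ => ha i)
  have hB : 0 ≤ ∑ i, b i := Finset.sum_nonneg (fun i _ => hb i)
  have hC : 0 ≤ ∑ i, c i := Finset.sum_nonneg (fun i _ => hc i)
  rcases hB.eq_or_lt with hB0 | hBpos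
  · have hb0 : ∀ i, b i = 0 := by
      intro i
      have := (Finset.sum_eq_zero_iff_of_nonneg (fun i _ => hb i)).mp hB0.symm i
        (Finset.mem_univ i)
      exact this
    rw [← hB0, F_zero_mid hA hC]
    apply Finset.sum_nonneg
    intro i _
    rw [hb0 i, F_zero_mid (ha i) (hc i)]
  set B := ∑ i, b i with hBdef
  -- weights and points
  have hw : ∀ i, 0 ≤ b i / B := fun i => div_nonneg (hb i) hBpos.le
  have hw1 : ∑ i, b i / B = 1 := by
    rw [← Finset.sum_div, ← hBdef, div_self hBpos.ne']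
  have hu : ∀ i, 0 ≤ a i / b i := fun i => div_nonneg (ha i) (hb i)
  have hv : ∀ i, 0 ≤ c i / b i := fun i => div_nonneg (hc i) (hb i)
  have hF : ∀ i, F (a i) (b i) (c i) = B * ((b i / B) * F (a i / b i) 1 (c i / b i)) := by
    intro i
    rcases (hb i).eq_or_lt with h0 | hpos
    · rw [← h0, F_zero_mid (ha i) (hc i)]; simp
    · have := F_smul (hb i) (hu i) zero_le_one (hv i)
      rw [mul_div_cancel₀ _ hpos.ne', mul_div_cancel₀ _ hpos.ne', mul_one] at this
      rw [this]
      field_simp
  have hsumF : ∑ i, F (a i) (b i) (c i) = B * ∑ i, (b i / B) * F (a i / b i) 1 (c i / b i) := by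
    rw [Finset.mul_sum]; exact Finset.sum_congr rfl (fun i _ => hF i)
  set U := ∑ i, (b i / B) * (a i / b i) with hU
  set V := ∑ i, (b i / B) * (c i / b i) with hV
  have hU0 : 0 ≤ U := Finset.sum_nonneg (fun i _ => mul_nonneg (hw i) (hu i))
  have hV0 : 0 ≤ V := Finset.sum_nonneg (fun i _ => mul_nonneg (hw i) (hv i))
  have hUle : U ≤ (∑ i, a i) / B := by
    rw [hU, Finset.sum_div]
    apply Finset.sum_le_sum
    intro i _
    rcases (hb i).eq_or_lt with h0 | hpos
    · rw [← h0]; simp; exact div_nonneg (ha i) hBpos.le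
    · apply le_of_eq; field_simp
  have hVle : V ≤ (∑ i, c i) / B := by
    rw [hV, Finset.sum_div]
    apply Finset.sum_le_sum
    intro i _
    rcases (hb i).eq_or_lt with h0 | hpos
    · rw [← h0]; simp; exact div_nonneg (hc i) hBpos.le
    · apply le_of_eq; field_simp
  -- Jensen
  have hJ : F U 1 V ≤ ∑ i, (b i / B) * F (a i / b i) 1 (c i / b i) := by
    rw [← integral_kernF hU0 zero_le_one hV0]
    have : ∑ i, (b i / B) * F (a i / b i) 1 (c i / b i) =
        ∫ l in Ioi (0:ℝ), ∑ i, (b i / B) * kernF (a i / b i) 1 (c i / b i) l := by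
      rw [integral_finsetSum _
        (fun i _ => (kernF_integrableOn (hu i) zero_le_one (hv i)).const_mul _)]
      refine Finset.sum_congr rfl (fun i _ => ?_)
      rw [integral_const_mul, integral_kernF (hu i) zero_le_one (hv i)]
    rw [this]
    apply setIntegral_mono_on (kernF_integrableOn hU0 zero_le_one hV0)
      (integrable_finsetSum _
        (fun i _ => (kernF_integrableOn (hu i) zero_le_one (hv i)).const_mul _)) measurableSet_Ioi
    intro l hl
    have := (psi_convex (show (0:ℝ) < l from hl)).map_sum_le (t := Finset.univ)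
      (w := fun i => b i / B) (p := fun i => (a i / b i, c i / b i))
      (fun i _ => hw i) hw1 (fun i _ => ⟨hu i, hv i⟩)
    simp only [Prod.fst_sum, Prod.snd_sum, Prod.smul_fst, Prod.smul_snd, smul_eq_mul] at this
    exact this
  have hE : F (∑ i, a i) B (∑ i, c i) = B * F ((∑ i, a i) / B) 1 ((∑ i, c i) / B) := by
    have := F_smul hBpos.le (div_nonneg hA hBpos.le) zero_le_one (div_nonneg hC hBpos.le)
    rw [mul_div_cancel₀ _ hBpos.ne', mul_div_cancel₀ _ hBpos.ne', mul_one] at this
    exact this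
  rw [hE, hsumF]
  apply mul_le_mul_of_nonneg_left _ hBpos.le
  exact (F_anti hU0 zero_le_one hV0 hUle hVle).trans hJ

end Vale.Agent.P358
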