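import Vale.Agent.P358.Super

/-! # P358: from the subadditivity bound to `C = χ`. -/

open Matrix
open scoped ComplexOrder Kronecker

namespace Vale.Agent.P358

/-- the Holevo capacity of the zero-fold power vanishes -/
theorem holevoCapacity_zero {N : Matrix (Fin 2) (Fin 2) ℂ →ₗ[ℂ] Matrix (Fin 2) (Fin 2) ℂ}
    (h0 : IsCh (tensorPower N 0)) : holevoCapacity (tensorPower N 0) = 0 := by
  have hent : ∀ ρ : Matrix (Fin 0 → Fin 2) (Fin 0 → Fin 2) ℂ, IsState ρ → entropy ρ = 0 := by
    intro ρ hρ
    apply le_antisymm _ (entropy_nonneg hρ)
    have := entropy_le hρ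
    simpa using this
  have hset : holevoValues (tensorPower N 0) = {0} := by
    ext v
    constructor
    · rintro ⟨k, q, ρ, hq, hq1, hρ, rfl⟩
      rw [Set.mem_singleton_iff, hent _ (isState_sum hq hq1 (fun a => h0.isState (hρ a)))]
      have : ∀ a, entropy (tensorPower N 0 (ρ a)) = 0 := fun a => hent _ (h0.isState (hρ a))
      simp [this]
    · intro hv
      rw [Set.mem_singleton_iff] at hv
      rw [hv]
      exact zero_mem_holevoValues _
  unfold holevoCapacity
  rw [hset, csSup_singleton]

/-- additivity from the one-step subadditivity bound -/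
theorem holevoCapacity_tensorPower_of_sub
    {N : Matrix (Fin 2) (Fin 2) ℂ →ₗ[ℂ] Matrix (Fin 2) (Fin 2) ℂ}
    (hN : IsCh N) (hT : ∀ n, IsCh (tensorPower N n))
    (hsub : ∀ n, ∀ v ∈ holevoValues (tensorPower N (n + 1)),
      v ≤ holevoCapacity (tensorPower N n) + holevoCapacity N) :
    ∀ n : ℕ, holevoCapacity (tensorPower N n) = n * holevoCapacity N := by
  intro n
  induction n with
  | zero => rw [holevoCapacity_zero (hT 0)]; simp
  | succ n ih =>
    have h1 : holevoCapacity (tensorPower N (n + 1)) ≤
        holevoCapacity (tensorPower N n) + holevoCapacity N :=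
      csSup_le (holevoValues_nonempty _) (hsub n)
    have h2 : holevoCapacity (tensorPower N n) + holevoCapacity N ≤
        holevoCapacity (tensorPower N (n + 1)) := by
      have hw : ∀ w ∈ holevoValues N, w ≤ holevoCapacity (tensorPower N (n + 1)) -
          holevoCapacity (tensorPower N n) := by
        intro w hw
        have hv : ∀ v ∈ holevoValues (tensorPower N n),
            v ≤ holevoCapacity (tensorPower N (n + 1)) - w := by
          intro v hv
          have := le_csSup (holevoValues_bddAbove (hT (n + 1)))
            (holevoValues_add hN (hT n) hv hw)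
          unfold holevoCapacity
          linarith
        have := csSup_le (holevoValues_nonempty (tensorPower N n)) hv
        have h3 : holevoCapacity (tensorPower N n) ≤
            holevoCapacity (tensorPower N (n + 1)) - w := this
        linarith
      have : holevoCapacity N ≤ holevoCapacity (tensorPower N (n + 1)) -
          holevoCapacity (tensorPower N n) := csSup_le (holevoValues_nonempty N) hw
      linarith
    rw [le_antisymm h1 h2, ih]
    push_cast
    ring

/-- `C = χ` from the one-step subadditivity bound -/
theorem classicalCapacity_eq_of_sub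
    {N : Matrix (Fin 2) (Fin 2) ℂ →ₗ[ℂ] Matrix (Fin 2) (Fin 2) ℂ}
    (hN : IsCh N) (hT : ∀ n, IsCh (tensorPower N n))
    (hsub : ∀ n, ∀ v ∈ holevoValues (tensorPower N (n + 1)),
      v ≤ holevoCapacity (tensorPower N n) + holevoCapacity N) :
    classicalCapacity N = holevoCapacity N := by
  have h := holevoCapacity_tensorPower_of_sub hN hT hsub
  unfold classicalCapacity
  have : ∀ n : ℕ+, holevoCapacity (tensorPower N n) / (n : ℝ) = holevoCapacity N := by
    intro n
    rw [h n]
    have : (n : ℝ) ≠ 0 := by exact_mod_cast n.pos.ne'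
    field_simp
  have h2 : (⨆ n : ℕ+, holevoCapacity (tensorPower N n) / (n : ℝ)) =
      ⨆ _n : ℕ+, holevoCapacity N := iSup_congr this
  rw [← ciSup_const (ι := ℕ+) (a := holevoCapacity N)]
  exact h2

end Vale.Agent.P358
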