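import Mathlib

/-! # The rank-one Kraus frame of the real two-Kraus channel (real algebra) -/

namespace Vale.Agent.P358

/-- two-point majorisation for `negMulLog` -/
theorem negMulLog_two {m₁ m₂ l₁ l₂ : ℝ} (hm₁ : 0 ≤ m₁) (hm₂ : 0 ≤ m₂) (hl₁ : 0 ≤ l₁)
    (hl₂ : 0 ≤ l₂) (hsum : m₁ + m₂ = l₁ + l₂) (hmul : m₁ * m₂ ≤ l₁ * l₂) :
    Real.negMulLog m₁ + Real.negMulLog m₂ ≤ Real.negMulLog l₁ + Real.negMulLog l₂ := by
  wlog hm : m₁ ≤ m₂ generalizing m₁ m₂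
  · have := this hm₂ hm₁ (by linarith) (by linarith [mul_comm m₁ m₂]) (le_of_not_ge hm)
    linarith
  wlog hl : l₁ ≤ l₂ generalizing l₁ l₂
  · have := this hl₂ hl₁ (by linarith) (by linarith [mul_comm l₁ l₂]) (le_of_not_ge hl)
    linarith
  rcases eq_or_lt_of_le hm with hm' | hm'
  · subst hm'
    have : (l₁ - l₂) ^ 2 ≤ 0 := by nlinarith
    have h0 : l₁ - l₂ = 0 := by
      have := le_antisymm this (sq_nonneg _)
      exact pow_eq_zero_iff (two_ne_zero) |>.mp this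
    have h1 : l₁ = m₁ := by linarith
    have h2 : l₂ = m₁ := by linarith
    rw [h1, h2]
  · have h1 : m₁ ≤ l₁ := by
      by_contra hlt
      push Not at hlt
      have h2 : m₂ < l₂ := by linarith
      nlinarith
    have h2 : l₂ ≤ m₂ := by linarith
    have hd : 0 < m₂ - m₁ := by linarith
    set θ := (m₂ - l₁) / (m₂ - m₁) with hθ
    have hθ0 : 0 ≤ θ := div_nonneg (by linarith) hd.le
    have hθ1 : θ ≤ 1 := by
      rw [hθ, div_le_one hd]; linarith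
    have e1 : θ * (m₂ - m₁) = m₂ - l₁ := by rw [hθ]; field_simp
    have hc := Real.concaveOn_negMulLog
    have c1 := hc.2 (Set.mem_Ici.mpr hm₁) (Set.mem_Ici.mpr hm₂) hθ0 (sub_nonneg.mpr hθ1)
      (by ring)
    have c2 := hc.2 (Set.mem_Ici.mpr hm₁) (Set.mem_Ici.mpr hm₂) (sub_nonneg.mpr hθ1) hθ0
      (by ring)
    simp only [smul_eq_mul] at c1 c2
    have a1 : θ * m₁ + (1 - θ) * m₂ = l₁ := by linarith
    have a2 : (1 - θ) * m₁ + θ * m₂ = l₂ := by linarith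
    rw [a1] at c1
    rw [a2] at c2
    linarith

/-- For `σ = √(a f)`, `ω = √(b e)`: existence of the frame. -/
theorem exists_frame (sa sb se sf : ℝ) (ha : 0 ≤ sa) (hb : 0 ≤ sb) (he : 0 ≤ se) (hf : 0 ≤ sf) :
    ∃ q0 q1 x0 x1 y0 y1 l0 l1 : ℝ, q0 ^ 2 + q1 ^ 2 = 1 ∧
      q0 ^ 2 * sa ^ 2 + q1 ^ 2 * se ^ 2 = x0 ^ 2 + l0 ^ 2 ∧
      q0 * q1 * (sa * sf + sb * se) = x0 * x1 + l0 * l1 ∧
      q0 ^ 2 * sb ^ 2 + q1 ^ 2 * sf ^ 2 = x1 ^ 2 + l1 ^ 2 ∧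
      q0 * q1 * (se ^ 2 - sa ^ 2) = x0 * y0 ∧
      q0 ^ 2 * (sa * sf) - q1 ^ 2 * (sb * se) = x0 * y1 ∧
      q0 ^ 2 * (sb * se) - q1 ^ 2 * (sa * sf) = x1 * y0 ∧
      q0 * q1 * (sf ^ 2 - sb ^ 2) = x1 * y1 ∧
      q1 ^ 2 * sa ^ 2 + q0 ^ 2 * se ^ 2 = y0 ^ 2 ∧
      -(q0 * q1 * (sa * sf + sb * se)) = y0 * y1 ∧
      q1 ^ 2 * sb ^ 2 + q0 ^ 2 * sf ^ 2 = y1 ^ 2 ∧
      l0 * y1 + l1 * y0 = 0 ∧
      (l0 * y0) ^ 2 = sa ^ 2 * se ^ 2 ∧ (l1 * y1) ^ 2 = sb ^ 2 * sf ^ 2 ∧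
      (l0 * y0) * (l1 * y1) = -((sa * sf) * (sb * se)) := by
  -- choose (ξ1, ξ2)
  obtain ⟨ξ1, ξ2, hξ, hdet⟩ : ∃ ξ1 ξ2 : ℝ, ξ1 ^ 2 + ξ2 ^ 2 = 1 ∧
      ξ1 ^ 2 * (sa * sf) = ξ2 ^ 2 * (sb * se) := by
    have hσ : 0 ≤ sa * sf := mul_nonneg ha hf
    have hω : 0 ≤ sb * se := mul_nonneg hb he
    rcases (add_nonneg hσ hω).eq_or_lt with h | h
    · refine ⟨1, 0, by norm_num, ?_⟩
      have h1 : sa * sf = 0 := by linarith
      rw [h1]; ring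
    · refine ⟨√((sb * se) / (sa * sf + sb * se)), √((sa * sf) / (sa * sf + sb * se)), ?_, ?_⟩
      · rw [Real.sq_sqrt (by positivity), Real.sq_sqrt (by positivity)]
        field_simp
        ring
      · rw [Real.sq_sqrt (by positivity), Real.sq_sqrt (by positivity)]
        field_simp
  -- left kernel of ξ1 K1 + ξ2 K2
  obtain ⟨q0, q1, hq, hk1, hk2⟩ : ∃ q0 q1 : ℝ, q0 ^ 2 + q1 ^ 2 = 1 ∧
      q0 * (ξ2 * se) = q1 * (ξ1 * sa) ∧ q0 * (ξ1 * sf) = q1 * (ξ2 * sb) := by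
    -- rows: (ξ1 sa, ξ2 sb), (ξ2 se, ξ1 sf)
    by_cases h1 : ξ1 * sa = 0 ∧ ξ2 * se = 0
    · by_cases h2 : ξ2 * sb = 0 ∧ ξ1 * sf = 0
      · exact ⟨1, 0, by norm_num, by rw [h1.2]; ring, by rw [h2.2]; ring⟩
      · have hpos : 0 < (ξ2 * sb) ^ 2 + (ξ1 * sf) ^ 2 := by
          rcases not_and_or.mp h2 with h | h
          · have := pow_pos (abs_pos.mpr h) 2
            rw [sq_abs] at this
            positivity
          · have := pow_pos (abs_pos.mpr h) 2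
            rw [sq_abs] at this
            positivity
        set N := √((ξ2 * sb) ^ 2 + (ξ1 * sf) ^ 2) with hN
        have hN0 : 0 < N := Real.sqrt_pos.mpr hpos
        have hN2 : N ^ 2 = (ξ2 * sb) ^ 2 + (ξ1 * sf) ^ 2 := Real.sq_sqrt hpos.le
        refine ⟨(ξ2 * sb) / N, (ξ1 * sf) / N, ?_, ?_, ?_⟩
        · field_simp
          linarith
        · rw [h1.1, h1.2]; ring
        · field_simp
    · have hpos : 0 < (ξ1 * sa) ^ 2 + (ξ2 * se) ^ 2 := by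
        rcases not_and_or.mp h1 with h | h
        · have := pow_pos (abs_pos.mpr h) 2
          rw [sq_abs] at this
          positivity
        · have := pow_pos (abs_pos.mpr h) 2
          rw [sq_abs] at this
          positivity
      set N := √((ξ1 * sa) ^ 2 + (ξ2 * se) ^ 2) with hN
      have hN0 : 0 < N := Real.sqrt_pos.mpr hpos
      have hN2 : N ^ 2 = (ξ1 * sa) ^ 2 + (ξ2 * se) ^ 2 := Real.sq_sqrt hpos.le
      refine ⟨(ξ1 * sa) / N, (ξ2 * se) / N, ?_, ?_, ?_⟩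
      · field_simp
        linarith
      · field_simp
      · field_simp
        linarith
  have h12 : (q0 * ξ1 * sa + q1 * ξ2 * se) * (-(q1 * ξ2 * sa) - q0 * ξ1 * se) = -(sa * se) := by
    linear_combination (q0 * ξ2 * sa - q1 * ξ1 * se) * hk1 - sa * se * (q0 ^ 2 + q1 ^ 2) * hξ -
      sa * se * hq
  have h13 : (q0 * ξ2 * sb + q1 * ξ1 * sf) * (q1 * ξ1 * sb + q0 * ξ2 * sf) = sb * sf := by
    linear_combination (q1 * ξ2 * sf - q0 * ξ1 * sb) * hk2 + sb * sf * (q0 ^ 2 + q1 ^ 2) * hξ +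
      sb * sf * hq
  refine ⟨q0, q1, q0 * ξ2 * sa - q1 * ξ1 * se, -(q0 * ξ1 * sb) + q1 * ξ2 * sf,
    -(q1 * ξ2 * sa) - q0 * ξ1 * se, q1 * ξ1 * sb + q0 * ξ2 * sf,
    q0 * ξ1 * sa + q1 * ξ2 * se, q0 * ξ2 * sb + q1 * ξ1 * sf, hq, ?_, ?_, ?_, ?_, ?_, ?_, ?_, ?_,
    ?_, ?_, ?_, ?_, ?_, ?_⟩
  · linear_combination -(q0 ^ 2 * sa ^ 2 + q1 ^ 2 * se ^ 2) * hξ
  · linear_combination -(q0 * q1 * (sa * sf + sb * se)) * hξ
  · linear_combination -(q0 ^ 2 * sb ^ 2 + q1 ^ 2 * sf ^ 2) * hξ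
  · linear_combination -(q0 * q1 * (se ^ 2 - sa ^ 2)) * hξ + (q1 * ξ2 * se + q0 * ξ1 * sa) * hk1
  · linear_combination -(q0 ^ 2 * (sa * sf) - q1 ^ 2 * (sb * se)) * hξ +
      (q0 * ξ1 * sa + q1 * ξ2 * se) * hk2
  · linear_combination -(q0 ^ 2 * (sb * se) - q1 ^ 2 * (sa * sf)) * hξ +
      (q0 * ξ2 * sb + q1 * ξ1 * sf) * hk1
  · linear_combination -(q0 * q1 * (sf ^ 2 - sb ^ 2)) * hξ + (q1 * ξ1 * sf + q0 * ξ2 * sb) * hk2
  · linear_combination -(q1 ^ 2 * sa ^ 2 + q0 ^ 2 * se ^ 2) * hξ + (q0 * ξ2 * se - q1 * ξ1 * sa) * hk1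
  · linear_combination (q0 * q1 * (sa * sf + sb * se)) * hξ + (q0 * ξ1 * sf - q1 * ξ2 * sb) * hk1
  · linear_combination -(q1 ^ 2 * sb ^ 2 + q0 ^ 2 * sf ^ 2) * hξ + (q0 * ξ1 * sf - q1 * ξ2 * sb) * hk2
  · linear_combination (-(q0 * ξ1 * sb) + q1 * ξ2 * sf) * hk1 + (q0 * ξ2 * sa - q1 * ξ1 * se) * hk2
  · rw [h12]; ring
  · rw [h13]; ring
  · rw [h12, h13]; ring

end Vale.Agent.P358
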