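import Vale.Agent.P358.Scalar

/-! # P358: comparison of entropies from comparison of characteristic products. -/

open Real Set Filter Topology MeasureTheory

namespace Vale.Agent.P358

/-- If `∑ x = ∑ y` and `∏ (l + y i) ≤ ∏ (l + x i)` for all `l > 0` then the entropy of `y` is at
most the entropy of `x`. -/
theorem phi {ι : Type*} [Fintype ι] {x y : ι → ℝ} (hx : ∀ i, 0 ≤ x i) (hy : ∀ i, 0 ≤ y i)
    (hsum : ∑ i, x i = ∑ i, y i) (hprod : ∀ l : ℝ, 0 < l → ∏ i, (l + y i) ≤ ∏ i, (l + x i)) :
    ∑ i, Real.negMulLog (y i) ≤ ∑ i, Real.negMulLog (x i) := by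
  have key : ∀ z : ι → ℝ, (∀ i, 0 ≤ z i) →
      ∫ l in Ioi (0:ℝ), ∑ i, kern (z i) l = ∑ i, Real.negMulLog (z i) + ∑ i, z i := by
    intro z hz
    rw [integral_finsetSum _ (fun i _ => kern_integrableOn (hz i)), ← Finset.sum_add_distrib]
    exact Finset.sum_congr rfl (fun i _ => integral_kern (hz i))
  have hint : ∀ z : ι → ℝ, (∀ i, 0 ≤ z i) →
      IntegrableOn (fun l => ∑ i, kern (z i) l) (Ioi 0) := by
    intro z hz
    exact integrable_finsetSum _ (fun i _ => kern_integrableOn (hz i))
  have hle : ∫ l in Ioi (0:ℝ), ∑ i, kern (y i) l ≤ ∫ l in Ioi (0:ℝ), ∑ i, kern (x i) l := by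
    apply setIntegral_mono_on (hint y hy) (hint x hx) measurableSet_Ioi
    intro l hl
    have hl' : (0:ℝ) < l := hl
    have e : ∀ z : ι → ℝ, (∀ i, 0 ≤ z i) →
        ∑ i, kern (z i) l = Real.log (∏ i, (l + z i)) - Fintype.card ι * Real.log l
          - (∑ i, z i) / (1 + l) := by
      intro z hz
      rw [Real.log_prod (fun i _ => by have := hz i; positivity)]
      simp only [kern, Finset.sum_sub_distrib, Finset.sum_div]
      congr 1
      have : ∀ i, Real.log (1 + z i / l) = Real.log (l + z i) - Real.log l := by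
        intro i
        have := hz i
        have h1 : l + z i ≠ 0 := by positivity
        rw [← Real.log_div h1 hl'.ne']
        congr 1
        field_simp
      simp only [this, Finset.sum_sub_distrib, Finset.sum_const, nsmul_eq_mul]
      rfl
    rw [e x hx, e y hy, hsum]
    have hpos : 0 < ∏ i, (l + y i) := Finset.prod_pos (fun i _ => by have := hy i; positivity)
    have := Real.log_le_log hpos (hprod l hl')
    linarith
  rw [key x hx, key y hy, hsum] at hle
  linarith

end Vale.Agent.P358
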