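import Vale.Agent.P358.Ent
import Vale.Agent.P358.Phi

/-! # P358: Jensen (Schur–Horn type) inequality, concavity, pinching, scaling of the entropy. -/

open Matrix
open scoped MatrixOrder ComplexOrder

namespace Vale.Agent.P358

variable {n m : Type*} [Fintype n] [DecidableEq n] [Fintype m] [DecidableEq m]

/-- unitary diagonalisation -/
lemma exists_diag {M : Matrix n n ℂ} (hM : M.IsHermitian) :
    ∃ (V : Matrix n n ℂ) (d : n → ℝ), V * Vᴴ = 1 ∧ Vᴴ * V = 1 ∧
      M = V * diagonal (fun i => ((d i : ℝ) : ℂ)) * Vᴴ ∧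
      Vᴴ * M * V = diagonal (fun i => ((d i : ℝ) : ℂ)) ∧ d = hM.eigenvalues := by
  have hst := hM.spectral_theorem
  rw [Unitary.conjStarAlgAut_apply] at hst
  have hst' : M = (hM.eigenvectorUnitary : Matrix n n ℂ) *
      diagonal (fun i => ((hM.eigenvalues i : ℝ) : ℂ)) *
      ((hM.eigenvectorUnitary : Matrix n n ℂ))ᴴ := hst
  have hV1 : (hM.eigenvectorUnitary : Matrix n n ℂ) *
      ((hM.eigenvectorUnitary : Matrix n n ℂ))ᴴ = 1 :=
    Unitary.mul_star_self_of_mem hM.eigenvectorUnitary.2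
  have hV2 : ((hM.eigenvectorUnitary : Matrix n n ℂ))ᴴ *
      (hM.eigenvectorUnitary : Matrix n n ℂ) = 1 :=
    Unitary.star_mul_self_of_mem hM.eigenvectorUnitary.2
  obtain ⟨V, hV⟩ : ∃ V : Matrix n n ℂ, V = (hM.eigenvectorUnitary : Matrix n n ℂ) := ⟨_, rfl⟩
  obtain ⟨d, hd⟩ : ∃ d : n → ℝ, d = hM.eigenvalues := ⟨_, rfl⟩
  rw [← hV, ← hd] at hst'
  rw [← hV] at hV1 hV2
  refine ⟨V, d, hV1, hV2, hst', ?_, hd⟩
  rw [hst']
  calc Vᴴ * (V * diagonal (fun i => ((d i : ℝ) : ℂ)) * Vᴴ) * V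
      = (Vᴴ * V) * diagonal (fun i => ((d i : ℝ) : ℂ)) * (Vᴴ * V) := by
        simp only [Matrix.mul_assoc]
    _ = _ := by rw [hV2, Matrix.one_mul, Matrix.mul_one]

lemma unitary_row {Q : Matrix n n ℂ} (hQ1 : Q * Qᴴ = 1) (k : n) : ∑ i, ‖Q k i‖ ^ 2 = 1 := by
  have h := congrFun (congrFun hQ1 k) k
  rw [Matrix.mul_apply, Matrix.one_apply_eq] at h
  have h2 : ∀ i, Q k i * Qᴴ i k = ((‖Q k i‖ ^ 2 : ℝ) : ℂ) := by
    intro i
    rw [conjTranspose_apply]
    have h := Complex.mul_conj (Q k i)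
    rw [Complex.normSq_eq_norm_sq] at h
    exact h
  rw [Finset.sum_congr rfl (fun i _ => h2 i), ← Complex.ofReal_sum] at h
  exact_mod_cast h

lemma unitary_col {Q : Matrix n n ℂ} (hQ2 : Qᴴ * Q = 1) (i : n) : ∑ k, ‖Q k i‖ ^ 2 = 1 := by
  have h := congrFun (congrFun hQ2 i) i
  rw [Matrix.mul_apply, Matrix.one_apply_eq] at h
  have h2 : ∀ k, Qᴴ i k * Q k i = ((‖Q k i‖ ^ 2 : ℝ) : ℂ) := by
    intro k
    rw [conjTranspose_apply, mul_comm]
    have h := Complex.mul_conj (Q k i)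
    rw [Complex.normSq_eq_norm_sq] at h
    exact h
  rw [Finset.sum_congr rfl (fun k _ => h2 k), ← Complex.ofReal_sum] at h
  exact_mod_cast h

/-- (J1) Jensen: the entropy is at most the Shannon entropy of the diagonal in any orthonormal
basis -/
theorem vnS_le_diag {M U : Matrix n n ℂ} (hM : M.PosSemidef) (hU2 : Uᴴ * U = 1) :
    vnS M ≤ ∑ k, Real.negMulLog ((Uᴴ * M * U) k k).re := by
  obtain ⟨V, d, hV1, hV2, hMV, -, hd⟩ := exists_diag hM.1
  have hU : U * Uᴴ = 1 := mul_eq_one_comm.mp hU2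
  have hd0 : ∀ i, 0 ≤ d i := by rw [hd]; exact hM.eigenvalues_nonneg
  obtain ⟨Q, hQ⟩ : ∃ Q : Matrix n n ℂ, Q = Uᴴ * V := ⟨_, rfl⟩
  have hQ1 : Q * Qᴴ = 1 := by
    rw [hQ, conjTranspose_mul, conjTranspose_conjTranspose]
    calc Uᴴ * V * (Vᴴ * U) = Uᴴ * (V * Vᴴ) * U := by simp only [Matrix.mul_assoc]
      _ = 1 := by rw [hV1, Matrix.mul_one, hU2]
  have hQ2 : Qᴴ * Q = 1 := mul_eq_one_comm.mp hQ1
  have e1 : Uᴴ * M * U = Q * diagonal (fun i => ((d i : ℝ) : ℂ)) * Qᴴ := by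
    rw [hMV, hQ, conjTranspose_mul, conjTranspose_conjTranspose]
    simp only [Matrix.mul_assoc]
  have hentry : ∀ k, ((Uᴴ * M * U) k k).re = ∑ i, ‖Q k i‖ ^ 2 * d i := by
    intro k
    rw [e1, Matrix.mul_apply, Complex.re_sum]
    refine Finset.sum_congr rfl (fun i _ => ?_)
    rw [Matrix.mul_diagonal, conjTranspose_apply]
    have : Q k i * ((d i : ℝ) : ℂ) * star (Q k i) = ((‖Q k i‖ ^ 2 * d i : ℝ) : ℂ) := by
      have h := Complex.mul_conj (Q k i)
      rw [Complex.normSq_eq_norm_sq] at h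
      have h2 : star (Q k i) = (starRingEnd ℂ) (Q k i) := rfl
      rw [h2]
      push_cast at h ⊢
      linear_combination ((d i : ℝ) : ℂ) * h
    rw [this, Complex.ofReal_re]
  have hJ : ∀ k, ∑ i, ‖Q k i‖ ^ 2 * Real.negMulLog (d i) ≤
      Real.negMulLog ((Uᴴ * M * U) k k).re := by
    intro k
    rw [hentry k]
    have := Real.concaveOn_negMulLog.le_map_sum (t := Finset.univ) (w := fun i => ‖Q k i‖ ^ 2)
      (p := d) (fun i _ => by positivity) (unitary_row hQ1 k)
      (fun i _ => hd0 i)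
    simpa [smul_eq_mul] using this
  calc vnS M = ∑ i, Real.negMulLog (d i) := by rw [vnS_eq hM.1, hd]
    _ = ∑ i, (∑ k, ‖Q k i‖ ^ 2) * Real.negMulLog (d i) := by
        refine Finset.sum_congr rfl (fun i _ => ?_)
        rw [unitary_col hQ2 i, one_mul]
    _ = ∑ k, ∑ i, ‖Q k i‖ ^ 2 * Real.negMulLog (d i) := by
        simp only [Finset.sum_mul]
        rw [Finset.sum_comm]
    _ ≤ _ := Finset.sum_le_sum (fun k _ => hJ k)

lemma psd_diag_re_nonneg {M : Matrix n n ℂ} (hM : M.PosSemidef) (k : n) : 0 ≤ (M k k).re := by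
  have := hM.diag_nonneg (i := k)
  rw [Complex.nonneg_iff] at this
  exact this.1

lemma psd_sum {ι : Type*} [Fintype ι] {p : ι → ℝ} (hp : ∀ i, 0 ≤ p i)
    {M : ι → Matrix n n ℂ} (hM : ∀ i, (M i).PosSemidef) :
    (∑ i, (p i : ℂ) • M i).PosSemidef := by
  apply Matrix.posSemidef_sum
  intro i _
  exact (hM i).smul (by simpa using hp i)

/-- (J2) concavity of the entropy -/
theorem vnS_concave {ι : Type*} [Fintype ι] {p : ι → ℝ} (hp : ∀ i, 0 ≤ p i) (hp1 : ∑ i, p i = 1)
    {M : ι → Matrix n n ℂ} (hM : ∀ i, (M i).PosSemidef) :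
    ∑ i, p i * vnS (M i) ≤ vnS (∑ i, (p i : ℂ) • M i) := by
  have hS := psd_sum hp hM
  obtain ⟨V, d, hV1, hV2, hMV, hVM, hd⟩ := exists_diag hS.1
  have hvn : vnS (∑ i, (p i : ℂ) • M i) = ∑ k, Real.negMulLog (d k) := by
    rw [vnS_eq hS.1, hd]
  have hdk : ∀ k, d k = ∑ i, p i * ((Vᴴ * M i * V) k k).re := by
    intro k
    have h1 := congrArg Complex.re (congrFun (congrFun hVM k) k)
    rw [Matrix.diagonal_apply_eq, Complex.ofReal_re] at h1
    rw [← h1, Matrix.mul_sum, Matrix.sum_mul, Matrix.sum_apply, Complex.re_sum]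
    refine Finset.sum_congr rfl (fun i _ => ?_)
    rw [Matrix.mul_smul, Matrix.smul_mul, Matrix.smul_apply, smul_eq_mul, Complex.re_ofReal_mul]
  have hJ : ∀ k, ∑ i, p i * Real.negMulLog ((Vᴴ * M i * V) k k).re ≤ Real.negMulLog (d k) := by
    intro k
    rw [hdk k]
    have := Real.concaveOn_negMulLog.le_map_sum (t := Finset.univ) (w := p)
      (p := fun i => ((Vᴴ * M i * V) k k).re) (fun i _ => hp i) hp1
      (fun i _ => psd_diag_re_nonneg ((hM i).conjTranspose_mul_mul_same V) k)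
    simpa [smul_eq_mul] using this
  calc ∑ i, p i * vnS (M i)
      ≤ ∑ i, p i * ∑ k, Real.negMulLog ((Vᴴ * M i * V) k k).re :=
        Finset.sum_le_sum (fun i _ => mul_le_mul_of_nonneg_left (vnS_le_diag (hM i) hV2) (hp i))
    _ = ∑ k, ∑ i, p i * Real.negMulLog ((Vᴴ * M i * V) k k).re := by
        simp only [Finset.mul_sum]
        rw [Finset.sum_comm]
    _ ≤ ∑ k, Real.negMulLog (d k) := Finset.sum_le_sum (fun k _ => hJ k)
    _ = _ := hvn.symm

/-- (J3) pinching inequality -/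
theorem vnS_pinch {A : Matrix n n ℂ} {B : Matrix n m ℂ} {D : Matrix m m ℂ}
    (hM : (fromBlocks A B Bᴴ D).PosSemidef) :
    vnS (fromBlocks A B Bᴴ D) ≤ vnS A + vnS D := by
  have hA : A.PosSemidef := by
    have h1 := hM.submatrix (Sum.inl : n → n ⊕ m)
    have h2 : (fromBlocks A B Bᴴ D).submatrix (Sum.inl : n → n ⊕ m) Sum.inl = A := by
      ext i j; simp
    rwa [h2] at h1
  have hD : D.PosSemidef := by
    have h1 := hM.submatrix (Sum.inr : m → n ⊕ m)
    have h2 : (fromBlocks A B Bᴴ D).submatrix (Sum.inr : m → n ⊕ m) Sum.inr = D := by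
      ext i j; simp
    rwa [h2] at h1
  obtain ⟨V, d, hV1, hV2, -, hVA, hd⟩ := exists_diag hA.1
  obtain ⟨W, e, hW1, hW2, -, hWD, he⟩ := exists_diag hD.1
  have hU : (fromBlocks V 0 0 W)ᴴ * (fromBlocks V 0 0 W) = 1 := by
    rw [fromBlocks_conjTranspose, fromBlocks_multiply]
    simp [hV2, hW2]
  have h := vnS_le_diag hM hU
  have e1 : (fromBlocks V 0 0 W)ᴴ * (fromBlocks A B Bᴴ D) * (fromBlocks V 0 0 W) =
      fromBlocks (Vᴴ * A * V) (Vᴴ * B * W) (Wᴴ * Bᴴ * V) (Wᴴ * D * W) := by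
    rw [fromBlocks_conjTranspose, fromBlocks_multiply, fromBlocks_multiply]
    simp
  rw [e1, Fintype.sum_sum_type] at h
  simp only [fromBlocks_apply₁₁, fromBlocks_apply₂₂] at h
  rw [hVA, hWD] at h
  simp only [Matrix.diagonal_apply_eq, Complex.ofReal_re] at h
  rw [vnS_eq hA.1, vnS_eq hD.1, ← hd, ← he]
  exact h

/-- (J4) scaling -/
theorem vnS_smul {M : Matrix n n ℂ} (hM : M.IsHermitian) (t : ℝ) :
    vnS ((t : ℂ) • M) = t * vnS M + Real.negMulLog t * M.trace.re := by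
  obtain ⟨V, d, hV1, hV2, hMV, -, hd⟩ := exists_diag hM
  have htr : M.trace.re = ∑ i, d i := by
    rw [hM.trace_eq_sum_eigenvalues, hd]
    simp
  have e1 : (t : ℂ) • M = V * diagonal (fun i => ((t * d i : ℝ) : ℂ)) * Vᴴ := by
    rw [hMV, ← Matrix.smul_mul, ← Matrix.mul_smul, ← Matrix.diagonal_smul]
    congr 3
    funext i
    simp
  have hdiag : (diagonal (fun i => ((t * d i : ℝ) : ℂ))).IsHermitian := by
    unfold Matrix.IsHermitian
    rw [diagonal_conjTranspose]
    congr 1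
    ext i
    simp
  rw [e1, vnS_unitary_conj V hV2 hdiag, vnS_diagonal, vnS_eq hM, ← hd, htr, Finset.mul_sum,
    Finset.mul_sum, ← Finset.sum_add_distrib]
  refine Finset.sum_congr rfl (fun i _ => ?_)
  rw [Real.negMulLog_mul]
  ring

lemma vnS_zero : vnS (0 : Matrix n n ℂ) = 0 := by
  have := vnS_diagonal (n := n) (fun _ => 0)
  simpa using this

lemma psd_trace_re_nonneg {M : Matrix n n ℂ} (hM : M.PosSemidef) : 0 ≤ M.trace.re := by
  have := hM.trace_nonneg
  rw [Complex.nonneg_iff] at this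
  exact this.1

lemma psd_eq_zero_of_trace_re {M : Matrix n n ℂ} (hM : M.PosSemidef) (h : M.trace.re = 0) :
    M = 0 := by
  rw [← hM.trace_eq_zero_iff]
  have := hM.trace_nonneg
  rw [Complex.nonneg_iff] at this
  exact Complex.ext h this.2.symm

/-- (J5) superadditivity of the entropy with mixing term -/
theorem vnS_add_le {A D : Matrix n n ℂ} (hA : A.PosSemidef) (hD : D.PosSemidef) :
    vnS A + vnS D ≤ vnS (A + D) + Real.negMulLog A.trace.re + Real.negMulLog D.trace.re -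
      Real.negMulLog (A.trace.re + D.trace.re) := by
  have ha := psd_trace_re_nonneg hA
  have hd := psd_trace_re_nonneg hD
  rcases ha.eq_or_lt with ha0 | hapos
  · have hA0 := psd_eq_zero_of_trace_re hA ha0.symm
    subst hA0
    simp [vnS_zero]
  rcases hd.eq_or_lt with hd0 | hdpos
  · have hD0 := psd_eq_zero_of_trace_re hD hd0.symm
    subst hD0
    simp [vnS_zero]
  obtain ⟨a, haD⟩ : ∃ a, a = A.trace.re := ⟨_, rfl⟩
  obtain ⟨d, hdD⟩ : ∃ d, d = D.trace.re := ⟨_, rfl⟩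
  rw [← haD] at hapos ha
  rw [← hdD] at hdpos hd
  rw [← haD, ← hdD]
  have hpos : 0 < a + d := by positivity
  -- concavity with weights a/(a+d), d/(a+d) applied to (a+d)/a A and (a+d)/d D
  have h1 := vnS_concave (ι := Bool) (p := fun b => if b then a / (a + d) else d / (a + d))
    (by intro b; split_ifs <;> positivity)
    (by simp; field_simp)
    (M := fun b => if b then (((a + d) / a : ℝ) : ℂ) • A else (((a + d) / d : ℝ) : ℂ) • D)
    (by
      intro b
      have : ∀ r : ℝ, 0 ≤ r → (0 : ℂ) ≤ (r : ℂ) := fun r hr => by simpa using hr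
      split_ifs
      · exact hA.smul (this _ (by positivity))
      · exact hD.smul (this _ (by positivity)))
  simp only [Fintype.sum_bool, if_true, Bool.false_eq_true, if_false] at h1
  rw [vnS_smul hA.1, vnS_smul hD.1, smul_smul, smul_smul, ← Complex.ofReal_mul,
    ← Complex.ofReal_mul] at h1
  have e1 : a / (a + d) * ((a + d) / a) = 1 := by field_simp
  have e2 : d / (a + d) * ((a + d) / d) = 1 := by field_simp
  rw [e1, e2, Complex.ofReal_one, one_smul, one_smul, ← haD, ← hdD] at h1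
  have e3 : a / (a + d) * ((a + d) / a * vnS A + Real.negMulLog ((a + d) / a) * a) =
      vnS A + a ^ 2 / (a + d) * Real.negMulLog ((a + d) / a) := by
    field_simp
  have e4 : d / (a + d) * ((a + d) / d * vnS D + Real.negMulLog ((a + d) / d) * d) =
      vnS D + d ^ 2 / (a + d) * Real.negMulLog ((a + d) / d) := by
    field_simp
  rw [e3, e4] at h1
  have e5 : a ^ 2 / (a + d) * Real.negMulLog ((a + d) / a) =
      -a * (Real.log (a + d) - Real.log a) := by
    rw [Real.negMulLog, Real.log_div hpos.ne' hapos.ne']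
    field_simp
  have e6 : d ^ 2 / (a + d) * Real.negMulLog ((a + d) / d) =
      -d * (Real.log (a + d) - Real.log d) := by
    rw [Real.negMulLog, Real.log_div hpos.ne' hdpos.ne']
    field_simp
  rw [e5, e6] at h1
  simp only [Real.negMulLog]
  linarith

/-- (J6a) -/
theorem vnS_nonneg_of_trace_one {M : Matrix n n ℂ} (hM : M.PosSemidef) (htr : M.trace.re = 1) :
    0 ≤ vnS M := by
  have hs : ∑ i, hM.1.eigenvalues i = 1 := by
    rw [← htr, hM.1.trace_eq_sum_eigenvalues]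
    simp
  rw [vnS_eq hM.1]
  apply Finset.sum_nonneg
  intro i _
  have h0 := hM.eigenvalues_nonneg i
  have h1 : hM.1.eigenvalues i ≤ 1 := by
    rw [← hs]
    exact Finset.single_le_sum (fun j _ => hM.eigenvalues_nonneg j) (Finset.mem_univ i)
  exact Real.negMulLog_nonneg h0 h1

/-- (J6b) -/
theorem vnS_le_log_card {M : Matrix n n ℂ} (hM : M.PosSemidef) (htr : M.trace.re = 1) :
    vnS M ≤ Real.log (Fintype.card n) := by
  have hs : ∑ i, hM.1.eigenvalues i = 1 := by
    rw [← htr, hM.1.trace_eq_sum_eigenvalues]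
    simp
  have hne : Nonempty n := by
    by_contra h
    rw [not_nonempty_iff] at h
    simp at hs
  have hc : (0:ℝ) < Fintype.card n := by exact_mod_cast Fintype.card_pos
  rw [vnS_eq hM.1]
  have := Real.concaveOn_negMulLog.le_map_sum (t := Finset.univ)
    (w := fun _ : n => (1 / (Fintype.card n : ℝ))) (p := hM.1.eigenvalues)
    (fun i _ => by positivity) (by simp)
    (fun i _ => hM.eigenvalues_nonneg i)
  simp only [smul_eq_mul, ← Finset.mul_sum, hs, mul_one] at this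
  have e : Real.negMulLog (1 / (Fintype.card n : ℝ)) =
      (1 / (Fintype.card n : ℝ)) * Real.log (Fintype.card n) := by
    rw [Real.negMulLog, one_div, Real.log_inv]
    ring
  rw [e] at this
  have h2 : (0:ℝ) < 1 / (Fintype.card n : ℝ) := by positivity
  exact le_of_mul_le_mul_left this h2

/-- two-element sets of reals with the same sum and product agree -/
lemma negMulLog_pair {m₁ m₂ k₁ k₂ : ℝ} (hadd : m₁ + m₂ = k₁ + k₂) (hmul : m₁ * m₂ = k₁ * k₂) :
    Real.negMulLog m₁ + Real.negMulLog m₂ = Real.negMulLog k₁ + Real.negMulLog k₂ := by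
  have h3 : (m₁ - k₁) * (m₁ - k₂) = 0 := by
    have e2 : m₂ = k₁ + k₂ - m₁ := by linarith
    rw [e2] at hmul
    nlinarith
  rcases mul_eq_zero.mp h3 with h | h
  · have e1 : m₁ = k₁ := by linarith
    have e2 : m₂ = k₂ := by linarith
    rw [e1, e2]
  · have e1 : m₁ = k₂ := by linarith
    have e2 : m₂ = k₁ := by linarith
    rw [e1, e2]; ring

/-- (J7a) entropy of a `2 × 2` matrix from trace and determinant -/
theorem vnS_fin_two {M : Matrix (Fin 2) (Fin 2) ℂ} (hM : M.IsHermitian) {m₁ m₂ : ℝ}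
    (hadd : m₁ + m₂ = M.trace.re) (hmul : m₁ * m₂ = M.det.re) :
    vnS M = Real.negMulLog m₁ + Real.negMulLog m₂ := by
  rw [vnS_eq hM, Fin.sum_univ_two]
  apply negMulLog_pair
  · rw [hadd, hM.trace_eq_sum_eigenvalues]
    simp
  · rw [hmul, hM.det_eq_prod_eigenvalues]
    simp

/-- (J7b) monotonicity of the binary entropy in the determinant -/
theorem h2_mono {m₁ m₂ k₁ k₂ : ℝ} (hm₁ : 0 ≤ m₁) (hm₂ : 0 ≤ m₂) (hk₁ : 0 ≤ k₁) (hk₂ : 0 ≤ k₂)
    (hadd : m₁ + m₂ = k₁ + k₂) (hmul : m₁ * m₂ ≤ k₁ * k₂) :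
    Real.negMulLog m₁ + Real.negMulLog m₂ ≤ Real.negMulLog k₁ + Real.negMulLog k₂ := by
  have h := phi (ι := Bool) (x := fun b => if b then k₁ else k₂)
    (y := fun b => if b then m₁ else m₂)
    (by intro b; split_ifs <;> assumption)
    (by intro b; split_ifs <;> assumption)
    (by simp [hadd])
    (by
      intro l hl
      simp only [Fintype.prod_bool, if_true, Bool.false_eq_true, if_false]
      nlinarith)
  simpa using h

end Vale.Agent.P358
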