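import Vale.Agent.P358.Tensor
import Vale.Agent.P358.Jensen

/-! # The generalized amplitude-damping channel: pure state bound -/

open Matrix
open scoped ComplexOrder

namespace Vale.Agent.P358

/-- choice of phases -/
theorem exists_phases {σ ω c P : ℝ} (hσ : 0 ≤ σ) (hω : 0 ≤ ω) (hc : 0 ≤ c)
    (hcω : c ^ 2 + ω ^ 2 = σ ^ 2) (ρ : ℂ) (hρ : Complex.normSq ρ ≤ P) :
    ∃ μ₁ μ₂ l₁ l₂ : ℂ, μ₁ * star μ₁ = 1 ∧ μ₂ * star μ₂ = 1 ∧ l₁ * star l₁ = 1 ∧ l₂ * star l₂ = 1 ∧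
      (σ : ℂ) * (star l₁ * star μ₁ + star l₂ * star μ₂) = 2 * c ∧
      (ω : ℂ) * (star l₁ * μ₁ + star l₂ * μ₂) = 0 ∧
      2 * σ * ((star μ₁ * ρ).re) ^ 2 ≤ (σ - ω) * P ∧
      2 * σ * ((star μ₂ * ρ).re) ^ 2 ≤ (σ - ω) * P := by
  rcases hσ.eq_or_lt with h0 | h0
  · have hs : σ = 0 := h0.symm
    have h1 : c ^ 2 + ω ^ 2 = 0 := by rw [hcω, hs]; ring
    have hc0 : c = 0 := by nlinarith [sq_nonneg c, sq_nonneg ω]
    have hω0 : ω = 0 := by nlinarith [sq_nonneg c, sq_nonneg ω]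
    refine ⟨1, 1, 1, 1, ?_, ?_, ?_, ?_, ?_, ?_, ?_, ?_⟩ <;> simp [hs, hc0, hω0]
  · have hσω : ω ≤ σ := by nlinarith [sq_nonneg c]
    -- the unit w
    obtain ⟨w, hw, hρw⟩ : ∃ w : ℂ, w * star w = 1 ∧ ρ = (‖ρ‖ : ℂ) * w := by
      by_cases hρ0 : ρ = 0
      · exact ⟨1, by simp, by simp [hρ0]⟩
      · refine ⟨ρ / ‖ρ‖, ?_, ?_⟩
        · have hn : (‖ρ‖ : ℂ) ≠ 0 := by simpa using hρ0
          have : ρ * star ρ = (‖ρ‖ : ℂ) ^ 2 := by
            rw [Complex.star_def, Complex.mul_conj, Complex.normSq_eq_norm_sq]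
            push_cast; ring
          rw [star_div₀]
          have hs : star (‖ρ‖ : ℂ) = (‖ρ‖ : ℂ) := by simp
          rw [hs]
          field_simp
          rw [this]
        · have hn : (‖ρ‖ : ℂ) ≠ 0 := by simpa using hρ0
          field_simp
    obtain ⟨u, hu⟩ := IsAlgClosed.exists_pow_nat_eq
      (-((ω : ℂ) + c * Complex.I) / σ) (n := 2) (by norm_num)
    have hσC : (σ : ℂ) ≠ 0 := by exact_mod_cast h0.ne'
    have hnu : Complex.normSq u = 1 := by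
      have h1 : Complex.normSq (u ^ 2) = 1 := by
        rw [hu, Complex.normSq_div, Complex.normSq_neg, Complex.normSq_add_mul_I,
          Complex.normSq_ofReal]
        rw [← sq, ← hcω]
        have : c ^ 2 + ω ^ 2 ≠ 0 := by rw [hcω]; positivity
        field_simp
        ring
      rw [map_pow] at h1
      have h2 : 0 ≤ Complex.normSq u := Complex.normSq_nonneg u
      nlinarith
    have huu : u * star u = 1 := by
      rw [Complex.star_def, Complex.mul_conj, hnu]; simp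
    have hure : u.re ^ 2 = (1 - ω / σ) / 2 := by
      have h1 : (u ^ 2).re = -(ω / σ) := by
        rw [hu]
        have : -((ω : ℂ) + c * Complex.I) / σ = ((-(ω / σ) : ℝ) : ℂ) + ((-(c / σ) : ℝ) : ℂ) *
            Complex.I := by
          push_cast
          field_simp
          ring
        rw [this]
        simp
      have h2 : (u ^ 2).re = u.re ^ 2 - u.im ^ 2 := by
        rw [sq, Complex.mul_re]; ring
      have h3 : u.re ^ 2 + u.im ^ 2 = 1 := by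
        rw [Complex.normSq_apply] at hnu
        linarith
      linarith
    set ζ : ℂ := ((c : ℂ) + ω * Complex.I) / σ with hζ
    have hζζ : ζ * star ζ = 1 := by
      rw [hζ, Complex.star_def, Complex.mul_conj, Complex.normSq_div, Complex.normSq_add_mul_I,
        Complex.normSq_ofReal, hcω, ← sq, div_self (by positivity)]
      simp
    have hζsum : ζ + star ζ = 2 * c / σ := by
      rw [hζ, star_div₀, star_add, star_mul']
      simp only [Complex.star_def, Complex.conj_ofReal, Complex.conj_I]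
      field_simp
      ring
    have hζu : ζ * u ^ 2 = -Complex.I := by
      rw [hu, hζ]
      have h4 : ((c : ℂ) ^ 2 + ω ^ 2) = σ ^ 2 := by exact_mod_cast hcω
      field_simp
      linear_combination -Complex.I * h4 + (-(ω : ℂ) * c) * (Complex.I_sq)
    have hζu' : star ζ * (star u) ^ 2 = Complex.I := by
      have := congrArg star hζu
      rw [star_mul', star_pow, star_neg] at this
      simpa using this
    have habs : ∀ v : ℂ, v.re ^ 2 = (1 - ω / σ) / 2 →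
        2 * σ * (((‖ρ‖ : ℂ) * v).re) ^ 2 ≤ (σ - ω) * P := by
      intro v hv
      rw [Complex.re_ofReal_mul, mul_pow, hv]
      have h5 : ‖ρ‖ ^ 2 ≤ P := by rwa [← Complex.normSq_eq_norm_sq]
      have h6 : 2 * σ * (‖ρ‖ ^ 2 * ((1 - ω / σ) / 2)) = (σ - ω) * ‖ρ‖ ^ 2 := by
        field_simp
      rw [h6]
      exact mul_le_mul_of_nonneg_left h5 (by linarith)
    refine ⟨w * u, w * star u, star ζ * star (w * u), ζ * star (w * star u), ?_, ?_, ?_, ?_, ?_, ?_,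
      ?_, ?_⟩
    · rw [star_mul']
      linear_combination (u * star u) * hw + huu
    · rw [star_mul', star_star]
      linear_combination (u * star u) * hw + huu
    · simp only [star_mul', star_star]
      linear_combination (w * star w * (u * star u)) * hζζ + (u * star u) * hw + huu
    · simp only [star_mul', star_star]
      linear_combination (w * star w * (u * star u)) * hζζ + (u * star u) * hw + huu
    · simp only [star_mul', star_star]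
      have h7 : (σ : ℂ) * (ζ + star ζ) = 2 * c := by
        rw [hζsum]; field_simp
      linear_combination h7 + σ * (ζ + star ζ) * ((u * star u) * hw + huu)
    · simp only [star_mul', star_star]
      linear_combination (ω : ℂ) * w ^ 2 * hζu + (ω : ℂ) * w ^ 2 * hζu'
    · have h8 : star (w * u) * ρ = (‖ρ‖ : ℂ) * star u := by
        conv_lhs => rw [hρw]
        rw [star_mul']
        linear_combination ((‖ρ‖ : ℂ) * star u) * hw
      rw [h8]
      exact habs _ (by rw [Complex.star_def, Complex.conj_re]; exact hure)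
    · have h8 : star (w * star u) * ρ = (‖ρ‖ : ℂ) * u := by
        conv_lhs => rw [hρw]
        rw [star_mul', star_star]
        linear_combination ((‖ρ‖ : ℂ) * u) * hw
      rw [h8]
      exact habs _ hure

variable {d : Type*} [Fintype d] [DecidableEq d]

/-- the extension `A_{γ,ν} ⊗ Ω` in block form, as a linear map -/
noncomputable def gExt (γ ν : ℝ) (Ω : Matrix d d ℂ →ₗ[ℂ] Matrix d d ℂ) :
    Matrix (d ⊕ d) (d ⊕ d) ℂ →ₗ[ℂ] Matrix (d ⊕ d) (d ⊕ d) ℂ where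
  toFun X := fromBlocks
    (((1 - γ * ν : ℝ) : ℂ) • Ω X.toBlocks₁₁ + ((γ * (1 - ν) : ℝ) : ℂ) • Ω X.toBlocks₂₂)
    (((√(1 - γ) : ℝ) : ℂ) • Ω X.toBlocks₁₂) (((√(1 - γ) : ℝ) : ℂ) • Ω X.toBlocks₂₁)
    (((γ * ν : ℝ) : ℂ) • Ω X.toBlocks₁₁ + ((1 - γ * (1 - ν) : ℝ) : ℂ) • Ω X.toBlocks₂₂)
  map_add' X Y := by
    have e11 : (X + Y).toBlocks₁₁ = X.toBlocks₁₁ + Y.toBlocks₁₁ := rfl
    have e12 : (X + Y).toBlocks₁₂ = X.toBlocks₁₂ + Y.toBlocks₁₂ := rfl
    have e21 : (X + Y).toBlocks₂₁ = X.toBlocks₂₁ + Y.toBlocks₂₁ := rfl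
    have e22 : (X + Y).toBlocks₂₂ = X.toBlocks₂₂ + Y.toBlocks₂₂ := rfl
    rw [e11, e12, e21, e22, fromBlocks_add]
    simp only [map_add, smul_add]
    congr 1 <;> abel
  map_smul' t X := by
    have e11 : (t • X).toBlocks₁₁ = t • X.toBlocks₁₁ := rfl
    have e12 : (t • X).toBlocks₁₂ = t • X.toBlocks₁₂ := rfl
    have e21 : (t • X).toBlocks₂₁ = t • X.toBlocks₂₁ := rfl
    have e22 : (t • X).toBlocks₂₂ = t • X.toBlocks₂₂ := rfl
    rw [e11, e12, e21, e22, RingHom.id_apply, fromBlocks_smul]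
    simp only [map_smul, smul_add]
    congr 1
    · rw [smul_comm t, smul_comm t]
    · rw [smul_comm t]
    · rw [smul_comm t]
    · rw [smul_comm t, smul_comm t]

theorem gExt_apply (γ ν : ℝ) (Ω : Matrix d d ℂ →ₗ[ℂ] Matrix d d ℂ) (A B C D : Matrix d d ℂ) :
    gExt γ ν Ω (fromBlocks A B C D) = fromBlocks
      (((1 - γ * ν : ℝ) : ℂ) • Ω A + ((γ * (1 - ν) : ℝ) : ℂ) • Ω D)
      (((√(1 - γ) : ℝ) : ℂ) • Ω B) (((√(1 - γ) : ℝ) : ℂ) • Ω C)
      (((γ * ν : ℝ) : ℂ) • Ω A + ((1 - γ * (1 - ν) : ℝ) : ℂ) • Ω D) := rfl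

theorem op_elim (ψ0 ψ1 : d → ℂ) : op (Sum.elim ψ0 ψ1) (Sum.elim ψ0 ψ1) =
    fromBlocks (op ψ0 ψ0) (op ψ0 ψ1) (op ψ1 ψ0) (op ψ1 ψ1) := by
  ext i j
  rcases i with i | i <;> rcases j with j | j <;> simp [op, vecMulVec_apply]

theorem op_smul_right (v w : d → ℂ) (t : ℂ) : op v (t • w) = star t • op v w := by
  ext i j
  simp [op, vecMulVec_apply]
  ring

theorem op_smul_left (v w : d → ℂ) (t : ℂ) : op (t • v) w = t • op v w := by
  ext i j
  simp [op, vecMulVec_apply]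
  ring

theorem op_trace (v w : d → ℂ) : (op v w).trace = ∑ z, v z * star (w z) := by
  simp [op, trace, vecMulVec_apply]

theorem op_cauchy (v w : d → ℂ) :
    Complex.normSq (op v w).trace ≤ (op v v).trace.re * (op w w).trace.re := by
  have h1 : ∀ u : d → ℂ, (op u u).trace.re = ∑ z, ‖u z‖ ^ 2 := by
    intro u
    rw [op_trace, Complex.re_sum]
    refine Finset.sum_congr rfl fun z _ => ?_
    rw [Complex.star_def, Complex.mul_conj, Complex.normSq_eq_norm_sq, Complex.ofReal_re]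
  rw [h1, h1, Complex.normSq_eq_norm_sq, op_trace]
  have h2 : ‖∑ z, v z * star (w z)‖ ≤ ∑ z, ‖v z‖ * ‖w z‖ := by
    refine (norm_sum_le _ _).trans (le_of_eq ?_)
    refine Finset.sum_congr rfl fun z _ => ?_
    rw [norm_mul, norm_star]
  calc ‖∑ z, v z * star (w z)‖ ^ 2 ≤ (∑ z, ‖v z‖ * ‖w z‖) ^ 2 := by gcongr
    _ ≤ _ := Finset.sum_mul_sq_le_sq_mul_sq _ _ _

theorem twoKraus_posSemidef {Ω : Matrix d d ℂ →ₗ[ℂ] Matrix d d ℂ} (h : IsCh Ω)
    (sa sb se sf : ℝ) (ψ0 ψ1 : d → ℂ) : (twoKraus sa sb se sf Ω ψ0 ψ1).PosSemidef := by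
  have h1 := h.block_posSemidef ((sa : ℂ) • ψ0) ((sf : ℂ) • ψ1)
  have h2 := h.block_posSemidef ((sb : ℂ) • ψ1) ((se : ℂ) • ψ0)
  have h3 := h1.add h2
  rw [fromBlocks_add] at h3
  convert h3 using 1
  unfold twoKraus
  rw [← h.map_conjTranspose, ← h.map_conjTranspose, op_conjTranspose, op_conjTranspose]
  simp only [op_smul_left, op_smul_right, map_smul, smul_smul]
  congr 1
  · simp [sq]
  · simp [mul_comm]
  · simp [mul_comm]
  · simp [sq, add_comm]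

theorem conj_phase (l : ℂ) (A B C D : Matrix d d ℂ) :
    fromBlocks (1 : Matrix d d ℂ) 0 0 (l • (1 : Matrix d d ℂ)) * fromBlocks A B C D *
      (fromBlocks (1 : Matrix d d ℂ) 0 0 (l • (1 : Matrix d d ℂ)))ᴴ =
    fromBlocks A (star l • B) (l • C) ((l * star l) • D) := by
  rw [fromBlocks_conjTranspose, fromBlocks_multiply, fromBlocks_multiply]
  simp [smul_smul]
  rw [mul_comm]

/-- **Pure state bound for the generalized amplitude-damping channel**: for a (unnormalised) pure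
input `ψ = (ψ0, ψ1)` of `A_{γ,ν} ⊗ Ω`. -/
theorem gExt_pure (hK : LemKStatement d) {Ω : Matrix d d ℂ →ₗ[ℂ] Matrix d d ℂ} (h : IsCh Ω)
    {γ ν : ℝ} (hγ : 0 ≤ γ) (hγ1 : γ ≤ 1) (hν : 0 ≤ ν) (hν1 : ν ≤ 1) (ψ0 ψ1 : d → ℂ) {m₁ m₂ : ℝ}
    (hm₁ : 0 ≤ m₁) (hm₂ : 0 ≤ m₂)
    (hsum : m₁ + m₂ = (op ψ0 ψ0).trace.re + (op ψ1 ψ1).trace.re)
    (hmul : m₁ * m₂ = (1 - γ * ν) * (γ * ν) * (op ψ0 ψ0).trace.re ^ 2 +
      (γ * (1 - ν)) * (1 - γ * (1 - ν)) * (op ψ1 ψ1).trace.re ^ 2 +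
      2 * ((γ * (1 - ν)) * (γ * ν)) * ((op ψ0 ψ0).trace.re * (op ψ1 ψ1).trace.re)) :
    ∃ φ : Bool × Fin 3 → (d → ℂ), ∑ k, op (φ k) (φ k) = op ψ0 ψ0 + op ψ1 ψ1 ∧
      ∑ k, (vnS (Ω (op (φ k) (φ k))) - Real.negMulLog (op (φ k) (φ k)).trace.re) +
        (Real.negMulLog m₁ + Real.negMulLog m₂) ≤
      vnS (gExt γ ν Ω (op (Sum.elim ψ0 ψ1) (Sum.elim ψ0 ψ1))) := by
  have pa : 0 ≤ 1 - γ * ν := by nlinarith
  have pb : 0 ≤ γ * (1 - ν) := mul_nonneg hγ (by linarith)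
  have pe : 0 ≤ γ * ν := mul_nonneg hγ hν
  have pf : 0 ≤ 1 - γ * (1 - ν) := by nlinarith
  obtain ⟨sa, hsa, hsa2⟩ : ∃ s : ℝ, 0 ≤ s ∧ s ^ 2 = 1 - γ * ν :=
    ⟨√(1 - γ * ν), Real.sqrt_nonneg _, Real.sq_sqrt pa⟩
  obtain ⟨sb, hsb, hsb2⟩ : ∃ s : ℝ, 0 ≤ s ∧ s ^ 2 = γ * (1 - ν) :=
    ⟨√(γ * (1 - ν)), Real.sqrt_nonneg _, Real.sq_sqrt pb⟩
  obtain ⟨se, hse, hse2⟩ : ∃ s : ℝ, 0 ≤ s ∧ s ^ 2 = γ * ν :=
    ⟨√(γ * ν), Real.sqrt_nonneg _, Real.sq_sqrt pe⟩
  obtain ⟨sf, hsf, hsf2⟩ : ∃ s : ℝ, 0 ≤ s ∧ s ^ 2 = 1 - γ * (1 - ν) :=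
    ⟨√(1 - γ * (1 - ν)), Real.sqrt_nonneg _, Real.sq_sqrt pf⟩
  obtain ⟨c, hc, hc2, hcdef⟩ : ∃ c : ℝ, 0 ≤ c ∧ c ^ 2 = 1 - γ ∧ √(1 - γ) = c :=
    ⟨√(1 - γ), Real.sqrt_nonneg _, Real.sq_sqrt (by linarith), rfl⟩
  set P0 := (op ψ0 ψ0).trace.re with hP0
  set P1 := (op ψ1 ψ1).trace.re with hP1
  have hP0n : 0 ≤ P0 := op_trace_nonneg ψ0
  have hP1n : 0 ≤ P1 := op_trace_nonneg ψ1
  have hσω : c ^ 2 + (sb * se) ^ 2 = (sa * sf) ^ 2 := by
    rw [mul_pow, mul_pow, hsa2, hsb2, hse2, hsf2, hc2]; ring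
  obtain ⟨μ₁, μ₂, l₁, l₂, hμ₁, hμ₂, hl₁, hl₂, hcσ, hω0, ht₁, ht₂⟩ :=
    exists_phases (mul_nonneg hsa hsf) (mul_nonneg hsb hse) hc hσω (op ψ0 ψ1).trace
      (P := P0 * P1) (op_cauchy ψ0 ψ1)
  -- the bound for each of the two channels
  have hbound : ∀ μ : ℂ, μ * star μ = 1 →
      2 * (sa * sf) * ((star μ * (op ψ0 ψ1).trace).re) ^ 2 ≤ (sa * sf - sb * se) * (P0 * P1) →
      ∃ φ : Fin 3 → (d → ℂ), ∑ k, op (φ k) (φ k) = op ψ0 ψ0 + op ψ1 ψ1 ∧
      ∑ k, (vnS (Ω (op (φ k) (φ k))) - Real.negMulLog (op (φ k) (φ k)).trace.re) +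
        (Real.negMulLog m₁ + Real.negMulLog m₂) ≤
        vnS (twoKraus sa sb se sf Ω ψ0 (μ • ψ1)) := by
    intro μ hμ ht
    have hμ' : star μ * μ = 1 := by rw [mul_comm]; exact hμ
    have e1 : op (μ • ψ1) (μ • ψ1) = op ψ1 ψ1 := by
      rw [op_smul_left, op_smul_right, smul_smul, hμ, one_smul]
    have e2 : (op ψ0 (μ • ψ1)).trace.re = (star μ * (op ψ0 ψ1).trace).re := by
      rw [op_smul_right, trace_smul, smul_eq_mul]
    have := twoKraus_bound hK h hsa hsb hse hsf (by rw [hsa2, hse2]; ring)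
      (by rw [hsb2, hsf2]; ring) ψ0 (μ • ψ1) hm₁ hm₂ (by rw [e1]; exact hsum) (by
        rw [e1, e2, ← hP0, ← hP1, hmul, ← hsa2, ← hsf2, ← hsb2, ← hse2]
        have hω : 0 ≤ sb * se := mul_nonneg hsb hse
        nlinarith [mul_le_mul_of_nonneg_left ht (mul_nonneg (zero_le_two (α := ℝ)) hω)])
    rw [e1] at this
    exact this
  obtain ⟨φ₁, hφ₁, hb₁⟩ := hbound μ₁ hμ₁ ht₁
  obtain ⟨φ₂, hφ₂, hb₂⟩ := hbound μ₂ hμ₂ ht₂
  -- the average decomposition
  let L : ℂ → Matrix (d ⊕ d) (d ⊕ d) ℂ := fun l =>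
    fromBlocks (1 : Matrix d d ℂ) 0 0 (l • (1 : Matrix d d ℂ))
  have hL : ∀ l : ℂ, l * star l = 1 → (L l)ᴴ * L l = 1 := by
    intro l hl
    have hl' : star l * l = 1 := by rw [mul_comm]; exact hl
    simp only [L]
    rw [fromBlocks_conjTranspose, fromBlocks_multiply, ← fromBlocks_one]
    congr 1 <;> simp
    rw [smul_smul]
    simp [mul_comm] at hl' ⊢
    simp [hl']
  have hexp : ∀ μ l : ℂ, μ * star μ = 1 → l * star l = 1 →
      L l * twoKraus sa sb se sf Ω ψ0 (μ • ψ1) * (L l)ᴴ =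
      fromBlocks ((sa : ℂ) ^ 2 • Ω (op ψ0 ψ0) + (sb : ℂ) ^ 2 • Ω (op ψ1 ψ1))
        ((((sa : ℂ) * sf) * (star l * star μ)) • Ω (op ψ0 ψ1) +
          (((sb : ℂ) * se) * (star l * μ)) • Ω (op ψ1 ψ0))
        ((((sa : ℂ) * sf) * (l * μ)) • Ω (op ψ1 ψ0) +
          (((sb : ℂ) * se) * (l * star μ)) • Ω (op ψ0 ψ1))
        ((se : ℂ) ^ 2 • Ω (op ψ0 ψ0) + (sf : ℂ) ^ 2 • Ω (op ψ1 ψ1)) := by
    intro μ l hμ hl
    simp only [L]
    unfold twoKraus
    rw [conj_phase, hl, one_smul]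
    have e1 : op (μ • ψ1) (μ • ψ1) = op ψ1 ψ1 := by
      rw [op_smul_left, op_smul_right, smul_smul, hμ, one_smul]
    rw [e1, op_smul_right, op_smul_left, map_smul, map_smul]
    congr 1
    · rw [smul_add, smul_smul, smul_smul, smul_smul, smul_smul]
      congr 2 <;> ring
    · rw [smul_add, smul_smul, smul_smul, smul_smul, smul_smul]
      congr 2 <;> ring
  have havg : gExt γ ν Ω (op (Sum.elim ψ0 ψ1) (Sum.elim ψ0 ψ1)) =
      ∑ i : Bool, (((fun _ => 1 / 2 : Bool → ℝ) i : ℝ) : ℂ) •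
        (fun i : Bool => if i then L l₁ * twoKraus sa sb se sf Ω ψ0 (μ₁ • ψ1) * (L l₁)ᴴ
          else L l₂ * twoKraus sa sb se sf Ω ψ0 (μ₂ • ψ1) * (L l₂)ᴴ) i := by
    have hcσ' : ((sa : ℂ) * sf) * (star l₁ * star μ₁ + star l₂ * star μ₂) = 2 * c := by
      exact_mod_cast hcσ
    have hω0' : ((sb : ℂ) * se) * (star l₁ * μ₁ + star l₂ * μ₂) = 0 := by
      exact_mod_cast hω0
    have hcσ'' : ((sa : ℂ) * sf) * (l₁ * μ₁ + l₂ * μ₂) = 2 * c := by
      have := congrArg star hcσ'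
      simpa using this
    have hω0'' : ((sb : ℂ) * se) * (l₁ * star μ₁ + l₂ * star μ₂) = 0 := by
      have := congrArg star hω0'
      simpa using this
    have ga : ((1 - γ * ν : ℝ) : ℂ) = (sa : ℂ) ^ 2 := by rw [← hsa2]; push_cast; ring
    have gb : ((γ * (1 - ν) : ℝ) : ℂ) = (sb : ℂ) ^ 2 := by rw [← hsb2]; push_cast; ring
    have ge' : ((γ * ν : ℝ) : ℂ) = (se : ℂ) ^ 2 := by rw [← hse2]; push_cast; ring
    have gf : ((1 - γ * (1 - ν) : ℝ) : ℂ) = (sf : ℂ) ^ 2 := by rw [← hsf2]; push_cast; ring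
    rw [op_elim, gExt_apply, hcdef, ga, gb, ge', gf]
    simp only [Fintype.sum_bool, if_true, Bool.false_eq_true, if_false]
    rw [hexp μ₁ l₁ hμ₁ hl₁, hexp μ₂ l₂ hμ₂ hl₂, fromBlocks_smul, fromBlocks_smul, fromBlocks_add]
    generalize Ω (op ψ0 ψ0) = A00
    generalize Ω (op ψ0 ψ1) = A01
    generalize Ω (op ψ1 ψ0) = A10
    generalize Ω (op ψ1 ψ1) = A11
    congr 1
    · ext i j
      simp
      ring
    · ext i j
      simp only [Matrix.smul_apply, Matrix.add_apply, smul_eq_mul]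
      push_cast
      linear_combination (-(1 / 2) * A01 i j) * hcσ' - (1 / 2) * A10 i j * hω0'
    · ext i j
      simp only [Matrix.smul_apply, Matrix.add_apply, smul_eq_mul]
      push_cast
      linear_combination (-(1 / 2) * A10 i j) * hcσ'' - (1 / 2) * A01 i j * hω0''
    · ext i j
      simp
      ring
  have hconc := vnS_concave (p := (fun _ => 1 / 2 : Bool → ℝ))
    (M := (fun i : Bool => if i then L l₁ * twoKraus sa sb se sf Ω ψ0 (μ₁ • ψ1) * (L l₁)ᴴ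
          else L l₂ * twoKraus sa sb se sf Ω ψ0 (μ₂ • ψ1) * (L l₂)ᴴ))
    (fun _ => by norm_num) (by norm_num) (by
      intro i
      rcases i with _ | _
      · simpa using (twoKraus_posSemidef h sa sb se sf ψ0 (μ₂ • ψ1)).mul_mul_conjTranspose_same
          (L l₂)
      · simpa using (twoKraus_posSemidef h sa sb se sf ψ0 (μ₁ • ψ1)).mul_mul_conjTranspose_same
          (L l₁))
  rw [← havg] at hconc
  simp only [Fintype.sum_bool, if_true, Bool.false_eq_true, if_false] at hconc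
  rw [vnS_unitary_conj _ (hL l₁ hl₁) (twoKraus_isHermitian h _ _ _ _ _ _),
    vnS_unitary_conj _ (hL l₂ hl₂) (twoKraus_isHermitian h _ _ _ _ _ _)] at hconc
  -- the combined ensemble
  obtain ⟨s, hs, hs2⟩ : ∃ s : ℝ, 0 ≤ s ∧ s ^ 2 = 1 / 2 :=
    ⟨√(1 / 2), Real.sqrt_nonneg _, Real.sq_sqrt (by norm_num)⟩
  have hop : ∀ φ : d → ℂ, op ((s : ℂ) • φ) ((s : ℂ) • φ) = ((1 / 2 : ℝ) : ℂ) • op φ φ := by
    intro φ
    rw [op_smul_left, op_smul_right, smul_smul, ← hs2]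
    congr 1
    simp
    ring
  refine ⟨fun k => (s : ℂ) • (if k.1 then φ₁ k.2 else φ₂ k.2), ?_, ?_⟩
  · simp only [hop]
    rw [Fintype.sum_prod_type]
    simp only [Fintype.sum_bool, if_true, Bool.false_eq_true, if_false]
    rw [← Finset.smul_sum, ← Finset.smul_sum, hφ₁, hφ₂, ← add_smul]
    norm_num
  · have hterm : ∀ φ : d → ℂ, vnS (Ω (op ((s : ℂ) • φ) ((s : ℂ) • φ))) -
        Real.negMulLog (op ((s : ℂ) • φ) ((s : ℂ) • φ)).trace.re =
        (1 / 2) * (vnS (Ω (op φ φ)) - Real.negMulLog (op φ φ).trace.re) := by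
      intro φ
      rw [hop, map_smul, vnS_smul (isHermitian_of_posSemidef_map h φ), h.tp, trace_smul,
        smul_eq_mul, Complex.re_ofReal_mul, Real.negMulLog_mul]
      ring
    simp only [hterm]
    rw [Fintype.sum_prod_type]
    simp only [Fintype.sum_bool, if_true, Bool.false_eq_true, if_false]
    rw [← Finset.mul_sum, ← Finset.mul_sum]
    linarith

end Vale.Agent.P358
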