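import Vale.Agent.P358.Reduction

/-! # Induction over the number of channel uses: upper bound -/

open Matrix
open scoped ComplexOrder

namespace Vale.Agent.P358

/-- refinement of an ensemble to pure states does not decrease the Holevo information -/
theorem hInfo_refine {d : Type*} [Fintype d] [DecidableEq d] {Φ : Matrix d d ℂ →ₗ[ℂ] Matrix d d ℂ}
    (h : IsCh Φ) {ι : Type*} [Fintype ι] (σ : ι → Matrix d d ℂ) (hσ : ∀ k, (σ k).PosSemidef) :
    ∃ ψ : ι × d → (d → ℂ), ∑ k, (op (ψ k) (ψ k)).trace.re = ∑ k, (σ k).trace.re ∧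
      hInfo Φ σ ≤ hInfo Φ (fun k => op (ψ k) (ψ k)) := by
  choose ψ hψ using fun k => exists_pure (hσ k)
  refine ⟨fun k => ψ k.1 k.2, ?_, ?_⟩
  · rw [Fintype.sum_prod_type]
    refine Finset.sum_congr rfl fun k _ => ?_
    conv_rhs => rw [hψ k]
    rw [trace_sum, Complex.re_sum]
  · unfold hInfo
    rw [Fintype.sum_prod_type, Fintype.sum_prod_type]
    have h1 : ∑ k, ∑ j, Φ (op (ψ k j) (ψ k j)) = ∑ k, Φ (σ k) := by
      refine Finset.sum_congr rfl fun k _ => ?_
      rw [← map_sum, ← hψ k]
    simp only [h1]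
    have h2 : ∀ k, ∑ j, (vnS (Φ (op (ψ k j) (ψ k j))) -
        Real.negMulLog (op (ψ k j) (ψ k j)).trace.re) ≤
        vnS (Φ (σ k)) - Real.negMulLog (σ k).trace.re := by
      intro k
      have := vnS_sum_le Finset.univ (fun j => Φ (op (ψ k j) (ψ k j)))
        (fun j _ => h.map_posSemidef (op_posSemidef _))
      rw [← map_sum, ← hψ k, h.tp] at this
      simpa only [h.tp] using this
    have h3 := Finset.sum_le_sum (fun k (_ : k ∈ (Finset.univ : Finset ι)) => h2 k)
    linarith

/-- splitting off the first qubit -/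
noncomputable def splitSum (n : ℕ) :
    (Fin n → Fin 2) ⊕ (Fin n → Fin 2) ≃ (Fin (n + 1) → Fin 2) :=
  Equiv.ofBijective
    (Sum.elim (fun x => (Fin.cons 0 x : Fin (n + 1) → Fin 2)) (fun x => Fin.cons 1 x)) (by
    constructor
    · rintro (x | x) (y | y) hxy
      · simp only [Sum.elim_inl] at hxy
        rw [(Fin.cons_injective2 hxy).2]
      · simp only [Sum.elim_inl, Sum.elim_inr] at hxy
        exact absurd (Fin.cons_injective2 hxy).1 (by decide)
      · simp only [Sum.elim_inl, Sum.elim_inr] at hxy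
        exact absurd (Fin.cons_injective2 hxy).1 (by decide)
      · simp only [Sum.elim_inr] at hxy
        rw [(Fin.cons_injective2 hxy).2]
    · intro x
      have h0 : x 0 = 0 ∨ x 0 = 1 := by
        rcases x 0 with ⟨v, hv⟩
        interval_cases v
        · left; rfl
        · right; rfl
      rcases h0 with h0 | h0
      · exact ⟨Sum.inl (Fin.tail x), by simp only [Sum.elim_inl]; rw [← h0, Fin.cons_self_tail]⟩
      · exact ⟨Sum.inr (Fin.tail x), by simp only [Sum.elim_inr]; rw [← h0, Fin.cons_self_tail]⟩)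

@[simp] theorem splitSum_inl (n : ℕ) (x : Fin n → Fin 2) :
    splitSum n (Sum.inl x) = Fin.cons 0 x := rfl

@[simp] theorem splitSum_inr (n : ℕ) (x : Fin n → Fin 2) :
    splitSum n (Sum.inr x) = Fin.cons 1 x := rfl

theorem tensorPower_succ_split (γ ν : ℝ) (n : ℕ)
    (M : Matrix (Fin (n + 1) → Fin 2) (Fin (n + 1) → Fin 2) ℂ) :
    (tensorPower (gadc γ ν) (n + 1) M).submatrix (splitSum n) (splitSum n) =
      gExt γ ν (tensorPower (gadc γ ν) n) (M.submatrix (splitSum n) (splitSum n)) := by
  have hM : M.submatrix (splitSum n) (splitSum n) = fromBlocks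
      (Matrix.of fun x' y' => M (Fin.cons 0 x') (Fin.cons 0 y'))
      (Matrix.of fun x' y' => M (Fin.cons 0 x') (Fin.cons 1 y'))
      (Matrix.of fun x' y' => M (Fin.cons 1 x') (Fin.cons 0 y'))
      (Matrix.of fun x' y' => M (Fin.cons 1 x') (Fin.cons 1 y')) := by
    ext i j
    rcases i with i | i <;> rcases j with j | j <;> rfl
  rw [hM, gExt_apply]
  ext i j
  rcases i with i | i <;> rcases j with j | j
  · rw [submatrix_apply, splitSum_inl, splitSum_inl, tensorPower_succ_apply]
    simp only [Fin.sum_univ_two, fromBlocks_apply₁₁, Matrix.add_apply, Matrix.smul_apply,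
      smul_eq_mul]
    generalize tensorPower (gadc γ ν) n = T
    simp [gadc, trace_fin_two]
    left
    ring
  · rw [submatrix_apply, splitSum_inl, splitSum_inr, tensorPower_succ_apply]
    simp only [Fin.sum_univ_two, fromBlocks_apply₁₂, Matrix.add_apply, Matrix.smul_apply,
      smul_eq_mul]
    generalize tensorPower (gadc γ ν) n = T
    simp [gadc, trace_fin_two]
  · rw [submatrix_apply, splitSum_inl, splitSum_inr, tensorPower_succ_apply]
    simp only [Fin.sum_univ_two, fromBlocks_apply₂₁, Matrix.add_apply, Matrix.smul_apply,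
      smul_eq_mul]
    generalize tensorPower (gadc γ ν) n = T
    simp [gadc, trace_fin_two]
  · rw [submatrix_apply, splitSum_inr, splitSum_inr, tensorPower_succ_apply]
    simp only [Fin.sum_univ_two, fromBlocks_apply₂₂, Matrix.add_apply, Matrix.smul_apply,
      smul_eq_mul]
    generalize tensorPower (gadc γ ν) n = T
    simp [gadc, trace_fin_two]
    left
    ring

end Vale.Agent.P358
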