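import Vale.Agent.P358.DetLower

/-! # P358: Lemma K. -/

open Matrix
open scoped MatrixOrder ComplexOrder

namespace Vale.Agent.P358

/-- reindexing -/
lemma lemK_equiv {α β : Type*} [Fintype α] [DecidableEq α] [Fintype β] [DecidableEq β]
    (e : α ≃ β) (h : LemKStatement α) : LemKStatement β := by
  intro G D hG hD
  have h1 := h (G.submatrix e e) (D.submatrix e e) (hG.submatrix e.injective)
    (hD.submatrix e.injective)
  rw [det_submatrix_equiv_self, inv_submatrix_equiv] at h1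
  have h2 : G.submatrix e e + D.submatrix e e = (G + D).submatrix e e := by
    ext i j; simp
  rw [h2, det_submatrix_equiv_self] at h1
  have h3 : ∏ k, (1 + 1 / (((D⁻¹.submatrix e e) k k).re * ((G.submatrix e e) k k).re)) =
      ∏ k, (1 + 1 / ((D⁻¹ k k).re * (G k k).re)) := by
    rw [← Equiv.prod_comp e]
    simp
  rwa [h3] at h1

lemma lemK_empty {α : Type*} [Fintype α] [DecidableEq α] [IsEmpty α] : LemKStatement α := by
  intro G D _ _
  simp

section step

variable {α : Type*} [Fintype α] [DecidableEq α]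

/-- the data of a positive definite matrix on `Unit ⊕ α` -/
lemma posDef_unit_sum {G : Matrix (Unit ⊕ α) (Unit ⊕ α) ℂ} (hG : G.PosDef) :
    ∃ (g : ℝ) (u : α → ℂ) (G' : Matrix α α ℂ), 0 < g ∧ G'.PosDef ∧
      G = fromBlocks ((g : ℂ) • (1 : Matrix Unit Unit ℂ)) (replicateRow Unit (star u))
        (replicateCol Unit u) G' ∧
      (G' - (g⁻¹ : ℂ) • vecMulVec u (star u)).PosDef ∧
      G.det.re = g * (G' - (g⁻¹ : ℂ) • vecMulVec u (star u)).det.re := by
  obtain ⟨g, hg⟩ : ∃ g : ℝ, g = (G (Sum.inl ()) (Sum.inl ())).re := ⟨_, rfl⟩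
  have hgpos : 0 < G (Sum.inl ()) (Sum.inl ()) := hG.diag_pos
  rw [Complex.pos_iff] at hgpos
  have hgC : G (Sum.inl ()) (Sum.inl ()) = (g : ℂ) := by
    apply Complex.ext
    · simp [hg]
    · simp [← hgpos.2]
  have hg0 : 0 < g := by rw [hg]; exact hgpos.1
  set u : α → ℂ := fun i => G (Sum.inr i) (Sum.inl ()) with hu
  set G' : Matrix α α ℂ := G.submatrix Sum.inr Sum.inr with hG'
  have hG'pd : G'.PosDef := hG.submatrix Sum.inr_injective
  have hGe : G = fromBlocks ((g : ℂ) • (1 : Matrix Unit Unit ℂ)) (replicateRow Unit (star u))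
        (replicateCol Unit u) G' := by
    ext i j
    rcases i with i | i <;> rcases j with j | j
    · simp [hgC]
    · simp only [fromBlocks_apply₁₂, replicateRow_apply, Pi.star_apply, hu]
      have := congrFun (congrFun hG.1 (Sum.inl i)) (Sum.inr j)
      rw [conjTranspose_apply] at this
      exact this.symm
    · simp [hu]
    · simp [hG']
  have hgpd : ((g : ℂ) • (1 : Matrix Unit Unit ℂ)).PosDef :=
    Matrix.PosDef.one.smul (by simpa using hg0)
  have hinv : Invertible ((g : ℂ) • (1 : Matrix Unit Unit ℂ)) := hgpd.isUnit.invertible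
  have hginv : ((g : ℂ) • (1 : Matrix Unit Unit ℂ))⁻¹ = (g⁻¹ : ℂ) • (1 : Matrix Unit Unit ℂ) := by
    apply Matrix.inv_eq_left_inv
    rw [Matrix.smul_mul, Matrix.mul_smul, smul_smul, Matrix.one_mul,
      inv_mul_cancel₀ (by exact_mod_cast hg0.ne'), one_smul]
  have hsch : G' - replicateCol Unit u * ((g : ℂ) • (1 : Matrix Unit Unit ℂ))⁻¹ *
      replicateRow Unit (star u) = G' - (g⁻¹ : ℂ) • vecMulVec u (star u) := by
    rw [hginv, Matrix.mul_smul, Matrix.mul_one, Matrix.smul_mul, ← vecMulVec_eq Unit]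
  have hdet : G.det = (g : ℂ) * (G' - (g⁻¹ : ℂ) • vecMulVec u (star u)).det := by
    conv_lhs => rw [hGe]
    rw [det_fromBlocks₁₁, invOf_eq_nonsing_inv, hsch, det_smul]
    simp
  have hpsd : (G' - (g⁻¹ : ℂ) • vecMulVec u (star u)).PosSemidef := by
    have h1 := hG.posSemidef
    rw [hGe] at h1
    have h2 : replicateCol Unit u = (replicateRow Unit (star u))ᴴ := by
      rw [conjTranspose_replicateRow, star_star]
    rw [h2, Matrix.PosDef.fromBlocks₁₁ _ _ hgpd, ← h2, hsch] at h1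
    exact h1
  have hpd : (G' - (g⁻¹ : ℂ) • vecMulVec u (star u)).PosDef := by
    rw [hpsd.posDef_iff_det_ne_zero]
    intro h0
    rw [h0, mul_zero] at hdet
    exact hG.det_pos.ne' hdet
  refine ⟨g, u, G', hg0, hG'pd, hGe, hpd, ?_⟩
  rw [hdet, Complex.re_ofReal_mul]

omit [Fintype α] [DecidableEq α] in
lemma psd_re_diag {M : Matrix α α ℂ} (hM : M.PosSemidef) {k : α} : 0 ≤ (M k k).re := by
  have := hM.diag_nonneg (i := k)
  rw [Complex.nonneg_iff] at this
  exact this.1

lemma outer_psd (u s : α → ℂ) {g d : ℝ} (hg : 0 < g) (hd : 0 < d) :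
    ((g⁻¹ : ℂ) • vecMulVec u (star u) + (d⁻¹ : ℂ) • vecMulVec s (star s) -
      (((g + d : ℝ) : ℂ)⁻¹) • vecMulVec (u + s) (star (u + s))).PosSemidef := by
  have e : (g⁻¹ : ℂ) • vecMulVec u (star u) + (d⁻¹ : ℂ) • vecMulVec s (star s) -
      (((g + d : ℝ) : ℂ)⁻¹) • vecMulVec (u + s) (star (u + s)) =
      ((g * d / (g + d) : ℝ) : ℂ) • vecMulVec ((g⁻¹ : ℂ) • u - (d⁻¹ : ℂ) • s)
        (star ((g⁻¹ : ℂ) • u - (d⁻¹ : ℂ) • s)) := by
    ext i j
    simp only [Matrix.add_apply, Matrix.sub_apply, Matrix.smul_apply, vecMulVec_apply,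
      Pi.star_apply, Pi.add_apply, Pi.sub_apply, Pi.smul_apply, smul_eq_mul, star_add, star_sub,
      star_mul']
    have hg' : (g : ℂ) ≠ 0 := by exact_mod_cast hg.ne'
    have hd' : (d : ℂ) ≠ 0 := by exact_mod_cast hd.ne'
    have hgd' : (g : ℂ) + (d : ℂ) ≠ 0 := by
      have : (g + d : ℝ) ≠ 0 := by positivity
      exact_mod_cast this
    have s1 : star ((g : ℂ)⁻¹) = (g : ℂ)⁻¹ := by
      rw [← Complex.ofReal_inv]; exact Complex.conj_ofReal _
    have s2 : star ((d : ℂ)⁻¹) = (d : ℂ)⁻¹ := by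
      rw [← Complex.ofReal_inv]; exact Complex.conj_ofReal _
    rw [s1, s2]
    push_cast
    field_simp
    ring
  rw [e]
  apply (posSemidef_vecMulVec_self_star _).smul
  have : (0:ℝ) ≤ g * d / (g + d) := by positivity
  exact_mod_cast this

lemma lemK_step (h : LemKStatement α) : LemKStatement (Unit ⊕ α) := by
  intro G D hG hD
  obtain ⟨g, u, G', hg, hG'pd, hGe, hA, hGdet⟩ := posDef_unit_sum hG
  obtain ⟨d, s, D', hd, hD'pd, hDe, hT, hDdet⟩ := posDef_unit_sum hD
  obtain ⟨A, hAdef⟩ : ∃ A, A = G' - (g⁻¹ : ℂ) • vecMulVec u (star u) := ⟨_, rfl⟩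
  obtain ⟨T, hTdef⟩ : ∃ T, T = D' - (d⁻¹ : ℂ) • vecMulVec s (star s) := ⟨_, rfl⟩
  rw [← hAdef] at hA hGdet
  rw [← hTdef] at hT hDdet
  -- the determinant of the sum
  have hsum : G + D = fromBlocks (((g + d : ℝ) : ℂ) • (1 : Matrix Unit Unit ℂ))
      (replicateRow Unit (star (u + s))) (replicateCol Unit (u + s)) (G' + D') := by
    rw [hGe, hDe, fromBlocks_add]
    congr 1
    · rw [← add_smul]; push_cast; rfl
    · ext i j; simp
  have hgd : 0 < g + d := by positivity
  have hgdpd : (((g + d : ℝ) : ℂ) • (1 : Matrix Unit Unit ℂ)).PosDef :=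
    Matrix.PosDef.one.smul (by exact_mod_cast hgd)
  have hinv : Invertible (((g + d : ℝ) : ℂ) • (1 : Matrix Unit Unit ℂ)) :=
    hgdpd.isUnit.invertible
  have hgdinv : (((g + d : ℝ) : ℂ) • (1 : Matrix Unit Unit ℂ))⁻¹ =
      (((g + d : ℝ) : ℂ)⁻¹) • (1 : Matrix Unit Unit ℂ) := by
    apply Matrix.inv_eq_left_inv
    rw [Matrix.smul_mul, Matrix.mul_smul, smul_smul, Matrix.one_mul,
      inv_mul_cancel₀ (by exact_mod_cast hgd.ne'), one_smul]
  have hsch : G' + D' - replicateCol Unit (u + s) *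
      (((g + d : ℝ) : ℂ) • (1 : Matrix Unit Unit ℂ))⁻¹ *
      replicateRow Unit (star (u + s)) = (A + T) +
      ((g⁻¹ : ℂ) • vecMulVec u (star u) + (d⁻¹ : ℂ) • vecMulVec s (star s) -
      (((g + d : ℝ) : ℂ)⁻¹) • vecMulVec (u + s) (star (u + s))) := by
    rw [hgdinv, Matrix.mul_smul, Matrix.mul_one, Matrix.smul_mul, hAdef, hTdef]
    have : replicateCol Unit (u + s) * replicateRow Unit (star (u + s)) =
        vecMulVec (u + s) (star (u + s)) := (vecMulVec_eq Unit _ _).symm
    rw [this]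
    abel
  have hdetsum : (G + D).det.re = (g + d) * ((A + T) +
      ((g⁻¹ : ℂ) • vecMulVec u (star u) + (d⁻¹ : ℂ) • vecMulVec s (star s) -
      (((g + d : ℝ) : ℂ)⁻¹) • vecMulVec (u + s) (star (u + s)))).det.re := by
    rw [hsum, det_fromBlocks₁₁, invOf_eq_nonsing_inv, hsch, det_smul]
    simp only [Fintype.card_unit, pow_one, det_one, mul_one]
    rw [Complex.re_ofReal_mul]
  have hmono := det_le_det_add (hA.add hT) (outer_psd u s hg hd)
  have hIH := h A T hA hT
  -- inverse of D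
  have hDinv : D * D⁻¹ = 1 := Matrix.mul_nonsing_inv _
    ((Matrix.isUnit_iff_isUnit_det D).mp hD.isUnit)
  obtain ⟨E, hE⟩ : ∃ E, E = D⁻¹ := ⟨_, rfl⟩
  have hEpd : E.PosDef := by rw [hE]; exact hD.inv
  have hEpsd22 : (E.toBlocks₂₂).PosSemidef := by
    have := hEpd.posSemidef.submatrix (Sum.inr : α → Unit ⊕ α)
    exact this
  have hEdec : E = fromBlocks E.toBlocks₁₁ E.toBlocks₁₂ E.toBlocks₂₁ E.toBlocks₂₂ :=
    (fromBlocks_toBlocks E).symm
  have hE21 : E.toBlocks₂₁ = E.toBlocks₁₂ᴴ := by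
    ext i j
    have := congrFun (congrFun hEpd.1 (Sum.inr i)) (Sum.inl j)
    rw [conjTranspose_apply] at this
    simp only [toBlocks₂₁, toBlocks₁₂, of_apply, conjTranspose_apply]
    exact this.symm
  rw [← hE, hEdec, hDe, fromBlocks_multiply, ← fromBlocks_one, fromBlocks_inj] at hDinv
  obtain ⟨q11, q12, q21, q22⟩ := hDinv
  have hd' : (d : ℂ) ≠ 0 := by exact_mod_cast hd.ne'
  -- Q = -(1/d) s^* S
  have hQ : E.toBlocks₁₂ = -((d : ℂ)⁻¹ • (replicateRow Unit (star s) * E.toBlocks₂₂)) := by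
    have h1 : (d : ℂ) • E.toBlocks₁₂ = -(replicateRow Unit (star s) * E.toBlocks₂₂) := by
      rw [Matrix.smul_mul, Matrix.one_mul] at q12
      exact eq_neg_of_add_eq_zero_left q12
    rw [← smul_neg, ← h1, smul_smul, inv_mul_cancel₀ hd', one_smul]
  have hTS : T * E.toBlocks₂₂ = 1 := by
    rw [hTdef, Matrix.sub_mul, Matrix.smul_mul]
    rw [hQ, Matrix.mul_neg, Matrix.mul_smul, ← Matrix.mul_assoc] at q22
    have : replicateCol Unit s * replicateRow Unit (star s) = vecMulVec s (star s) :=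
      (vecMulVec_eq Unit _ _).symm
    rw [this] at q22
    rw [← q22]
    abel
  have hTinv : T⁻¹ = E.toBlocks₂₂ := Matrix.inv_eq_right_inv hTS
  -- E_11 ≥ 1/d
  have hE11 : 1 / d ≤ (E (Sum.inl ()) (Sum.inl ())).re := by
    have h1 : (d : ℂ) • E.toBlocks₁₁ = 1 - replicateRow Unit (star s) * E.toBlocks₂₁ := by
      rw [Matrix.smul_mul, Matrix.one_mul] at q11
      exact eq_sub_of_add_eq q11
    rw [hE21, hQ, conjTranspose_neg, conjTranspose_smul, conjTranspose_mul,
      Matrix.mul_neg, Matrix.mul_smul, sub_neg_eq_add, hEpsd22.1.eq] at h1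
    have h2 : (replicateRow Unit (star s) * (E.toBlocks₂₂ *
        (replicateRow Unit (star s))ᴴ)).PosSemidef := by
      have := hEpsd22.mul_mul_conjTranspose_same (replicateRow Unit (star s))
      rwa [Matrix.mul_assoc] at this
    have h3 := psd_re_diag (k := ()) h2
    have h4 := congrArg Complex.re (congrFun (congrFun h1 ()) ())
    have s2 : star ((d : ℂ)⁻¹) = ((d⁻¹ : ℝ) : ℂ) := by
      rw [← Complex.ofReal_inv]; exact Complex.conj_ofReal _
    rw [s2, Matrix.smul_apply, Matrix.add_apply, Matrix.smul_apply, Matrix.one_apply_eq,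
      smul_eq_mul, smul_eq_mul, Complex.re_ofReal_mul, Complex.add_re, Complex.one_re,
      Complex.re_ofReal_mul] at h4
    have h5 : (E.toBlocks₁₁ () ()).re = (E (Sum.inl ()) (Sum.inl ())).re := rfl
    rw [h5] at h4
    rw [div_le_iff₀ hd]
    have h6 : 0 ≤ d⁻¹ * ((replicateRow Unit (star s) * (E.toBlocks₂₂ *
        (replicateRow Unit (star s))ᴴ)) () ()).re := mul_nonneg (by positivity) h3
    linarith
  -- assemble
  rw [Fintype.prod_sum_type]
  simp only [Finset.univ_unique, PUnit.default_eq_unit, Finset.prod_singleton]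
  rw [← hE]
  have hG11 : (G (Sum.inl ()) (Sum.inl ())).re = g := by
    rw [hGe]; simp
  have hfac1 : 1 + 1 / ((E (Sum.inl ()) (Sum.inl ())).re * (G (Sum.inl ()) (Sum.inl ())).re) ≤
      1 + d / g := by
    rw [hG11]
    have h1 : 1 / ((E (Sum.inl ()) (Sum.inl ())).re * g) ≤ 1 / (1 / d * g) := by
      apply one_div_le_one_div_of_le (by positivity)
      exact mul_le_mul_of_nonneg_right hE11 hg.le
    have h2 : 1 / (1 / d * g) = d / g := by field_simp
    linarith
  have hfac2 : ∏ k : α, (1 + 1 / ((E (Sum.inr k) (Sum.inr k)).re *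
      (G (Sum.inr k) (Sum.inr k)).re)) ≤ ∏ k, (1 + 1 / ((T⁻¹ k k).re * (A k k).re)) := by
    apply Finset.prod_le_prod
    · intro k _
      have h1 := (hEpd.diag_pos (i := Sum.inr k))
      have h2 := (hG.diag_pos (i := Sum.inr k))
      rw [Complex.pos_iff] at h1 h2
      have := h1.1
      have := h2.1
      positivity
    · intro k _
      have h1 : (T⁻¹ k k).re = (E (Sum.inr k) (Sum.inr k)).re := by rw [hTinv]; rfl
      have h2 : (A k k).re ≤ (G (Sum.inr k) (Sum.inr k)).re := by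
        rw [hAdef, hGe]
        simp only [Matrix.sub_apply, Matrix.smul_apply, vecMulVec_apply, Pi.star_apply,
          fromBlocks_apply₂₂, smul_eq_mul, Complex.sub_re]
        have h3 : (u k * star (u k)) = ((‖u k‖ ^ 2 : ℝ) : ℂ) := by
          have h := Complex.mul_conj (u k)
          rw [Complex.normSq_eq_norm_sq] at h
          exact h
        rw [h3, ← Complex.ofReal_inv, Complex.re_ofReal_mul, Complex.ofReal_re]
        have : 0 ≤ g⁻¹ * ‖u k‖ ^ 2 := by positivity
        linarith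
      have h3 : 0 < (A k k).re := by
        have := (hA.diag_pos (i := k))
        rw [Complex.pos_iff] at this
        exact this.1
      have h4 : 0 < (E (Sum.inr k) (Sum.inr k)).re := by
        have := (hEpd.diag_pos (i := Sum.inr k))
        rw [Complex.pos_iff] at this
        exact this.1
      rw [h1]
      have h5 : 1 / ((E (Sum.inr k) (Sum.inr k)).re * (G (Sum.inr k) (Sum.inr k)).re) ≤
          1 / ((E (Sum.inr k) (Sum.inr k)).re * (A k k).re) := by
        apply one_div_le_one_div_of_le (by positivity)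
        exact mul_le_mul_of_nonneg_left h2 h4.le
      linarith
  have hprodpos : 0 ≤ ∏ k : α, (1 + 1 / ((E (Sum.inr k) (Sum.inr k)).re *
      (G (Sum.inr k) (Sum.inr k)).re)) := by
    apply Finset.prod_nonneg
    intro k _
    have h1 := (hEpd.diag_pos (i := Sum.inr k))
    have h2 := (hG.diag_pos (i := Sum.inr k))
    rw [Complex.pos_iff] at h1 h2
    have := h1.1
    have := h2.1
    positivity
  have hAdetpos := posDef_det_re_pos hA
  rw [hGdet, hdetsum]
  calc g * A.det.re * ((1 + 1 / ((E (Sum.inl ()) (Sum.inl ())).re *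
        (G (Sum.inl ()) (Sum.inl ())).re)) * ∏ k : α, (1 + 1 / ((E (Sum.inr k) (Sum.inr k)).re *
      (G (Sum.inr k) (Sum.inr k)).re)))
      ≤ g * A.det.re * ((1 + d / g) * ∏ k, (1 + 1 / ((T⁻¹ k k).re * (A k k).re))) := by
        apply mul_le_mul_of_nonneg_left _ (by positivity)
        apply mul_le_mul hfac1 hfac2 hprodpos (by positivity)
    _ = (g + d) * (A.det.re * ∏ k, (1 + 1 / ((T⁻¹ k k).re * (A k k).re))) := by
        field_simp
    _ ≤ (g + d) * (A + T).det.re := mul_le_mul_of_nonneg_left hIH hgd.le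
    _ ≤ _ := mul_le_mul_of_nonneg_left hmono hgd.le

end step

theorem lemK_fin (k : ℕ) : LemKStatement (Fin k) := by
  induction k with
  | zero => exact lemK_empty
  | succ k ih =>
    have e : Unit ⊕ Fin k ≃ Fin (k + 1) :=
      (Equiv.sumComm _ _).trans ((Equiv.optionEquivSumPUnit _).symm.trans (finSuccEquiv k).symm)
    exact lemK_equiv e (lemK_step ih)

/-- **Lemma K** -/
theorem lemK17 (n : Type*) [Fintype n] [DecidableEq n] : LemKStatement n :=
  lemK_equiv (Fintype.equivFin n).symm (lemK_fin _)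

end Vale.Agent.P358
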