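import Vale.Agent.P358.Induct
import Vale.Agent.P358.Ch
import Vale.Agent.P358.Final

/-! # Subadditivity of the Holevo capacity for the generalized amplitude-damping channel -/

open Matrix
open scoped ComplexOrder

namespace Vale.Agent.P358

/-- every value of the unnormalised Holevo information is a Holevo value -/
theorem hInfo_mem {d : Type*} [Fintype d] [DecidableEq d] [Nonempty d]
    {Φ : Matrix d d ℂ →ₗ[ℂ] Matrix d d ℂ}
    (h : IsCh Φ) {ι : Type*} [Fintype ι] (σ : ι → Matrix d d ℂ) (hσ : ∀ k, (σ k).PosSemidef)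
    (htr : ∑ k, (σ k).trace.re = 1) : hInfo Φ σ / Real.log 2 ∈ holevoValues Φ := by
  obtain ⟨i₀⟩ := ‹Nonempty d›
  let e : Fin (Fintype.card ι) ≃ ι := (Fintype.equivFin ι).symm
  let q : Fin (Fintype.card ι) → ℝ := fun a => (σ (e a)).trace.re
  let ρ : Fin (Fintype.card ι) → Matrix d d ℂ := fun a =>
    if q a = 0 then Matrix.single i₀ i₀ (1 : ℂ) else (((q a)⁻¹ : ℝ) : ℂ) • σ (e a)
  have hq : ∀ a, 0 ≤ q a := fun a => psd_trace_re_nonneg (hσ _)
  have htrace : ∀ a, (σ (e a)).trace = ((q a : ℝ) : ℂ) := by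
    intro a
    have := (hσ (e a)).trace_nonneg
    rw [Complex.nonneg_iff] at this
    exact Complex.ext (by simp [q]) (by simpa using this.2.symm)
  have hqρ : ∀ a, (q a : ℂ) • Φ (ρ a) = Φ (σ (e a)) := by
    intro a
    by_cases h0 : q a = 0
    · have : σ (e a) = 0 := psd_eq_zero_of_trace_re (hσ _) h0
      rw [this, h0, map_zero]
      simp
    · have hr : ρ a = (((q a)⁻¹ : ℝ) : ℂ) • σ (e a) := by simp only [ρ]; rw [if_neg h0]
      rw [hr, map_smul, smul_smul, ← Complex.ofReal_mul, mul_inv_cancel₀ h0, Complex.ofReal_one,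
        one_smul]
  have hent : ∀ a, q a * vnS (Φ (ρ a)) = vnS (Φ (σ (e a))) - Real.negMulLog (q a) := by
    intro a
    by_cases h0 : q a = 0
    · have : σ (e a) = 0 := psd_eq_zero_of_trace_re (hσ _) h0
      rw [this, h0, map_zero, vnS_zero]
      simp
    · have hr : ρ a = (((q a)⁻¹ : ℝ) : ℂ) • σ (e a) := by simp only [ρ]; rw [if_neg h0]
      rw [hr, map_smul, vnS_smul (h.map_posSemidef (hσ _)).1, h.tp, Real.negMulLog,
        Real.negMulLog, Real.log_inv]
      have h2 : (σ (e a)).trace.re = q a := rfl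
      rw [h2]
      field_simp
      ring
  refine ⟨Fintype.card ι, q, ρ, hq, ?_, ?_, ?_⟩
  · rw [← htr]
    exact Equiv.sum_comp e (fun k => (σ k).trace.re)
  · intro a
    by_cases h0 : q a = 0
    · have hr : ρ a = Matrix.single i₀ i₀ (1 : ℂ) := by simp only [ρ]; rw [if_pos h0]
      rw [hr]
      exact isState_single i₀
    · have hr : ρ a = (((q a)⁻¹ : ℝ) : ℂ) • σ (e a) := by simp only [ρ]; rw [if_neg h0]
      rw [hr]
      refine ⟨(hσ _).smul (by exact_mod_cast inv_nonneg.mpr (hq a)), ?_⟩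
      rw [trace_smul, htrace, smul_eq_mul, ← Complex.ofReal_mul, inv_mul_cancel₀ h0,
        Complex.ofReal_one]
  · simp only [hqρ, entropy_eq_vnS, hInfo]
    rw [Equiv.sum_comp e (fun k => Φ (σ k)), sub_div, Finset.sum_div]
    congr 1
    rw [← Equiv.sum_comp e (fun k => (vnS (Φ (σ k)) - Real.negMulLog (σ k).trace.re) /
      Real.log 2)]
    refine Finset.sum_congr rfl fun a _ => ?_
    rw [← mul_div_assoc, hent]

/-- every Holevo value is a value of the unnormalised Holevo information -/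
theorem exists_hInfo {d : Type*} [Fintype d] [DecidableEq d]
    {Φ : Matrix d d ℂ →ₗ[ℂ] Matrix d d ℂ}
    (h : IsCh Φ) {v : ℝ} (hv : v ∈ holevoValues Φ) :
    ∃ (k : ℕ) (σ : Fin k → Matrix d d ℂ), (∀ a, (σ a).PosSemidef) ∧
      ∑ a, (σ a).trace.re = 1 ∧ v = hInfo Φ σ / Real.log 2 := by
  obtain ⟨k, q, ρ, hq, hq1, hρ, rfl⟩ := hv
  have htr : ∀ a, ((q a : ℂ) • ρ a).trace.re = q a := by
    intro a
    rw [trace_smul, (hρ a).2]
    simp
  refine ⟨k, fun a => (q a : ℂ) • ρ a, fun a => (hρ a).1.smul (by exact_mod_cast hq a), ?_, ?_⟩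
  · simp only [htr]
    exact hq1
  · simp only [entropy_eq_vnS, hInfo, map_smul, htr]
    rw [sub_div, Finset.sum_div]
    congr 1
    refine Finset.sum_congr rfl fun a _ => ?_
    rw [vnS_smul (h.map_posSemidef (hρ a).1).1, h.tp, (hρ a).2]
    simp only [Complex.one_re]
    ring

theorem hInfo_le_capacity {d : Type*} [Fintype d] [DecidableEq d] [Nonempty d]
    {Φ : Matrix d d ℂ →ₗ[ℂ] Matrix d d ℂ}
    (h : IsCh Φ) {ι : Type*} [Fintype ι] (σ : ι → Matrix d d ℂ) (hσ : ∀ k, (σ k).PosSemidef)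
    (htr : ∑ k, (σ k).trace.re = 1) : hInfo Φ σ / Real.log 2 ≤ holevoCapacity Φ :=
  le_csSup (holevoValues_bddAbove h) (hInfo_mem h σ hσ htr)

/-- reindexing the unnormalised Holevo information -/
theorem hInfo_reindex {γ ν : ℝ} (n : ℕ) {ι : Type*} [Fintype ι]
    (σ : ι → Matrix (Fin (n + 1) → Fin 2) (Fin (n + 1) → Fin 2) ℂ) :
    hInfo (tensorPower (gadc γ ν) (n + 1)) σ =
      hInfo (gExt γ ν (tensorPower (gadc γ ν) n))
        (fun k => (σ k).submatrix (splitSum n) (splitSum n)) := by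
  have htr : ∀ M : Matrix (Fin (n + 1) → Fin 2) (Fin (n + 1) → Fin 2) ℂ,
      (M.submatrix (splitSum n) (splitSum n)).trace = M.trace := by
    intro M
    unfold Matrix.trace
    simp only [Matrix.diag_apply, Matrix.submatrix_apply]
    exact Equiv.sum_comp (splitSum n) (fun i => M i i)
  unfold hInfo
  simp only [htr, ← tensorPower_succ_split, vnS_submatrix]
  congr 1
  rw [← vnS_submatrix (splitSum n)]
  congr 1
  ext i j
  simp [Matrix.sum_apply]

/-- **One-step subadditivity.** -/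
theorem holevo_sub {γ ν : ℝ} (hγ : 0 ≤ γ) (hγ1 : γ ≤ 1) (hν : 0 ≤ ν) (hν1 : ν ≤ 1) (n : ℕ) :
    ∀ v ∈ holevoValues (tensorPower (gadc γ ν) (n + 1)),
      v ≤ holevoCapacity (tensorPower (gadc γ ν) n) + holevoCapacity (gadc γ ν) := by
  intro v hv
  have hN := isCh_gadc hγ hγ1 hν hν1
  have hn := isCh_tensorPower hγ hγ1 hν hν1 n
  have hn1 := isCh_tensorPower hγ hγ1 hν hν1 (n + 1)
  obtain ⟨k, σ, hσ, htr, rfl⟩ := exists_hInfo hn1 hv
  obtain ⟨ψ, hψtr, hψ⟩ := hInfo_refine hn1 σ hσ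
  let ψ0 : Fin k × (Fin (n + 1) → Fin 2) → ((Fin n → Fin 2) → ℂ) :=
    fun a x => ψ a (Fin.cons 0 x)
  let ψ1 : Fin k × (Fin (n + 1) → Fin 2) → ((Fin n → Fin 2) → ℂ) :=
    fun a x => ψ a (Fin.cons 1 x)
  have hsplit : ∀ a, (op (ψ a) (ψ a)).submatrix (splitSum n) (splitSum n) =
      op (Sum.elim (ψ0 a) (ψ1 a)) (Sum.elim (ψ0 a) (ψ1 a)) := by
    intro a
    ext i j
    rcases i with i | i <;> rcases j with j | j <;>
      simp [op, vecMulVec_apply, ψ0, ψ1]
  have htrs : ∀ a, (op (ψ a) (ψ a)).trace.re =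
      (op (ψ0 a) (ψ0 a)).trace.re + (op (ψ1 a) (ψ1 a)).trace.re := by
    intro a
    have h1 : (op (ψ a) (ψ a)).trace = ((op (ψ a) (ψ a)).submatrix (splitSum n)
        (splitSum n)).trace := by
      unfold Matrix.trace
      simp only [Matrix.diag_apply, Matrix.submatrix_apply]
      exact (Equiv.sum_comp (splitSum n) (fun i => (op (ψ a) (ψ a)) i i)).symm
    have h2 : (op (Sum.elim (ψ0 a) (ψ1 a)) (Sum.elim (ψ0 a) (ψ1 a))).trace =
        (op (ψ0 a) (ψ0 a)).trace + (op (ψ1 a) (ψ1 a)).trace := by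
      rw [op_elim]; simp [trace]
    rw [h1, hsplit, h2, Complex.add_re]
  obtain ⟨φ, χ, hφ1, hχ1, hmain⟩ := hInfo_step hn hγ hγ1 hν hν1 hN ψ0 ψ1 (by
    rw [← htr, ← hψtr]
    exact Finset.sum_congr rfl fun a _ => (htrs a).symm)
  rw [hInfo_reindex] at hψ
  rw [hInfo_reindex] at hψ
  simp only [hsplit] at hψ
  have hlog : 0 < Real.log 2 := Real.log_pos (by norm_num)
  have e1 := hInfo_le_capacity hn (fun k => op (φ k) (φ k)) (fun k => op_posSemidef _) hφ1
  have e2 := hInfo_le_capacity hN (fun k => op (χ k) (χ k)) (fun k => op_posSemidef _) hχ1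
  rw [hInfo_reindex]
  calc _ ≤ (hInfo (tensorPower (gadc γ ν) n) (fun k => op (φ k) (φ k)) +
        hInfo (gadc γ ν) (fun k => op (χ k) (χ k))) / Real.log 2 := by
        gcongr
        exact hψ.trans hmain
    _ = hInfo (tensorPower (gadc γ ν) n) (fun k => op (φ k) (φ k)) / Real.log 2 +
        hInfo (gadc γ ν) (fun k => op (χ k) (χ k)) / Real.log 2 := by rw [add_div]
    _ ≤ _ := add_le_add e1 e2

end Vale.Agent.P358
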