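import Mathlib

/-! # P358: auxiliary facts on positive (semi)definite matrices. -/

open Matrix
open scoped MatrixOrder ComplexOrder

namespace Vale.Agent.P358

variable {n : Type*} [Fintype n] [DecidableEq n]

/-- `det (l + M) = ∏ (l + λ_i)` for Hermitian `M`. -/
lemma det_smul_one_add {M : Matrix n n ℂ} (hM : M.IsHermitian) (l : ℝ) :
    ((l : ℂ) • (1 : Matrix n n ℂ) + M).det = ((∏ i, (l + hM.eigenvalues i) : ℝ) : ℂ) := by
  have h1 := Matrix.eval_charpoly M (-(l : ℂ))
  rw [hM.charpoly_eq, Polynomial.eval_prod] at h1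
  simp only [Polynomial.eval_sub, Polynomial.eval_X, Polynomial.eval_C] at h1
  have h2 : (Matrix.scalar n (-(l:ℂ)) - M) = -((l : ℂ) • (1 : Matrix n n ℂ) + M) := by
    rw [Matrix.scalar_apply, ← Matrix.smul_one_eq_diagonal, neg_smul]
    abel
  rw [h2, Matrix.det_neg] at h1
  have h3 : ∏ i, (-(l:ℂ) - (hM.eigenvalues i : ℂ)) =
      (-1) ^ Fintype.card n * ∏ i, ((l:ℂ) + hM.eigenvalues i) := by
    rw [← Finset.card_univ, ← Finset.prod_const, ← Finset.prod_mul_distrib]
    exact Finset.prod_congr rfl (fun i _ => by ring)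
  have h3' : (∏ i, (-(l:ℂ) - ((RCLike.ofReal (hM.eigenvalues i) : ℂ)))) =
      (-1) ^ Fintype.card n * ∏ i, ((l:ℂ) + hM.eigenvalues i) := h3
  rw [h3'] at h1
  have h4 : ((-1:ℂ) ^ Fintype.card n) ≠ 0 := pow_ne_zero _ (by norm_num)
  have h5 := mul_left_cancel₀ h4 h1
  rw [← h5]
  push_cast
  rfl

/-- `det` of a positive definite matrix is a positive real. -/
lemma posDef_det_re_pos {M : Matrix n n ℂ} (hM : M.PosDef) : 0 < M.det.re := by
  have := hM.det_pos
  rw [Complex.pos_iff] at this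
  exact this.1

lemma posSemidef_det_im {M : Matrix n n ℂ} (hM : M.PosSemidef) : M.det.im = 0 := by
  have := hM.det_nonneg
  rw [Complex.nonneg_iff] at this
  exact this.2.symm

lemma posSemidef_det_re_nonneg {M : Matrix n n ℂ} (hM : M.PosSemidef) : 0 ≤ M.det.re := by
  have := hM.det_nonneg
  rw [Complex.nonneg_iff] at this
  exact this.1

lemma posDef_det_ofReal {M : Matrix n n ℂ} (hM : M.PosSemidef) : ((M.det.re : ℝ) : ℂ) = M.det := by
  apply Complex.ext
  · simp
  · simp [posSemidef_det_im hM]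

/-- `det (1 + Q) ≥ 1` for `Q` PSD. -/
lemma one_le_det_one_add {Q : Matrix n n ℂ} (hQ : Q.PosSemidef) : 1 ≤ (1 + Q).det.re := by
  have h := det_smul_one_add hQ.1 1
  rw [Complex.ofReal_one, one_smul] at h
  rw [h, Complex.ofReal_re]
  calc (1:ℝ) = ∏ _i : n, (1:ℝ) := by simp
    _ ≤ _ := Finset.prod_le_prod (fun _ _ => zero_le_one)
      (fun i _ => by have := hQ.eigenvalues_nonneg i; linarith)

/-- monotonicity of the determinant -/
lemma det_le_det_add {A P : Matrix n n ℂ} (hA : A.PosDef) (hP : P.PosSemidef) :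
    A.det.re ≤ (A + P).det.re := by
  obtain ⟨B, hB, rfl⟩ := CStarAlgebra.isStrictlyPositive_iff_eq_star_mul_self.mp
    hA.isStrictlyPositive
  have hBu : IsUnit B.det := (Matrix.isUnit_iff_isUnit_det B).mp hB
  have hQ : ((B⁻¹)ᴴ * P * B⁻¹).PosSemidef := hP.conjTranspose_mul_mul_same B⁻¹
  have e : star B * B + P = Bᴴ * (1 + (B⁻¹)ᴴ * P * B⁻¹) * B := by
    rw [Matrix.mul_add, Matrix.add_mul, Matrix.mul_one, star_eq_conjTranspose]
    congr 1
    have h1 : Bᴴ * (B⁻¹)ᴴ = 1 := by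
      rw [← conjTranspose_mul, Matrix.nonsing_inv_mul _ hBu, conjTranspose_one]
    calc P = (Bᴴ * (B⁻¹)ᴴ) * P * (B⁻¹ * B) := by
          rw [h1, Matrix.nonsing_inv_mul _ hBu]; simp
      _ = _ := by simp only [Matrix.mul_assoc]
  have e2 : (star B * B + P).det = (star B * B).det * (1 + (B⁻¹)ᴴ * P * B⁻¹).det := by
    rw [e, det_mul, det_mul, det_mul, star_eq_conjTranspose]
    ring
  have h1 := one_le_det_one_add hQ
  have h2 : 0 < (star B * B).det.re := posDef_det_re_pos hA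
  rw [e2, Complex.mul_re]
  have h3 : (star B * B).det.im = 0 := posSemidef_det_im hA.posSemidef
  rw [h3, zero_mul, sub_zero]
  nlinarith

/-- antitonicity of the inverse -/
lemma inv_sub_inv_posSemidef {P Q : Matrix n n ℂ} (hP : P.PosDef) (h : (Q - P).PosSemidef) :
    (P⁻¹ - Q⁻¹).PosSemidef := by
  have hQ : Q.PosDef := by
    have := hP.add_posSemidef h
    rwa [add_sub_cancel] at this
  have : Invertible P := hP.isUnit.invertible
  have : Invertible Q := hQ.isUnit.invertible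
  have : Invertible P⁻¹ := hP.inv.isUnit.invertible
  have h1 : (fromBlocks Q (1 : Matrix n n ℂ) (1 : Matrix n n ℂ)ᴴ P⁻¹).PosSemidef := by
    rw [Matrix.PosDef.fromBlocks₂₂ Q 1 hP.inv]
    rw [Matrix.one_mul, conjTranspose_one, Matrix.mul_one, Matrix.nonsing_inv_nonsing_inv _
      ((Matrix.isUnit_iff_isUnit_det P).mp hP.isUnit)]
    exact h
  rw [Matrix.PosDef.fromBlocks₁₁ 1 P⁻¹ hQ] at h1
  simpa using h1

end Vale.Agent.P358
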