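import Vale.Agent.P358.MatAux

/-! # P358: entropy through the roots of the characteristic polynomial. -/

open Matrix
open scoped MatrixOrder ComplexOrder Kronecker

namespace Vale.Agent.P358

variable {n m : Type*} [Fintype n] [DecidableEq n] [Fintype m] [DecidableEq m]

/-- unnormalised von Neumann entropy (natural logarithm) `-tr M log M` through the roots of the
characteristic polynomial -/
noncomputable def rootS (M : Matrix n n ℂ) : ℝ :=
  (M.charpoly.roots.map (fun z : ℂ => Real.negMulLog z.re)).sum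

lemma rootS_eq {M : Matrix n n ℂ} (hM : M.IsHermitian) :
    rootS M = ∑ i, Real.negMulLog (hM.eigenvalues i) := by
  unfold rootS
  rw [hM.roots_charpoly_eq_eigenvalues, Multiset.map_map]
  change _ = (Multiset.map _ Finset.univ.val).sum
  congr 1

lemma rootS_congr {M : Matrix n n ℂ} {N : Matrix n n ℂ} (h : M.charpoly = N.charpoly) :
    rootS M = rootS N := by
  unfold rootS; rw [h]

lemma trace_re_eq {M : Matrix n n ℂ} (hM : M.IsHermitian) :
    M.trace.re = ∑ i, hM.eigenvalues i := by
  rw [hM.trace_eq_sum_eigenvalues]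
  simp

/-- shift formula: entropy of `M + ε` -/
lemma rootS_add_smul {M : Matrix n n ℂ} (hM : M.IsHermitian) (ε : ℝ) :
    rootS (M + (ε : ℂ) • (1 : Matrix n n ℂ)) = ∑ i, Real.negMulLog (hM.eigenvalues i + ε) := by
  have h1 : (M + (ε : ℂ) • (1 : Matrix n n ℂ)).charpoly =
      ∏ i, (Polynomial.X - Polynomial.C ((hM.eigenvalues i + ε : ℝ) : ℂ)) := by
    have hst := hM.spectral_theorem
    conv_lhs => rw [hst]
    rw [Unitary.conjStarAlgAut_apply]
    have h2 : (hM.eigenvectorUnitary : Matrix n n ℂ) * diagonal (RCLike.ofReal ∘ hM.eigenvalues) *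
        (star hM.eigenvectorUnitary : Matrix n n ℂ) + (ε : ℂ) • (1 : Matrix n n ℂ) =
        (hM.eigenvectorUnitary : Matrix n n ℂ) *
        (diagonal (RCLike.ofReal ∘ hM.eigenvalues) + (ε : ℂ) • (1 : Matrix n n ℂ)) *
        (star hM.eigenvectorUnitary : Matrix n n ℂ) := by
      rw [Matrix.mul_add, Matrix.add_mul, Matrix.mul_smul, Matrix.smul_mul, Matrix.mul_one]
      congr 2
      exact (Unitary.mul_star_self_of_mem hM.eigenvectorUnitary.2).symm
    rw [h2, charpoly_mul_comm, ← mul_assoc]
    have h3 : (star hM.eigenvectorUnitary : Matrix n n ℂ) *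
        (hM.eigenvectorUnitary : Matrix n n ℂ) = 1 :=
      Unitary.star_mul_self_of_mem hM.eigenvectorUnitary.2
    rw [h3, one_mul, Matrix.smul_one_eq_diagonal, Matrix.diagonal_add, charpoly_diagonal]
    simp
  unfold rootS
  rw [h1, Polynomial.roots_prod _ _
    (Finset.prod_ne_zero_iff.mpr (fun i _ => Polynomial.X_sub_C_ne_zero _))]
  simp only [Polynomial.roots_X_sub_C, Multiset.bind_singleton, Multiset.map_map]
  change (Multiset.map _ Finset.univ.val).sum = (Multiset.map _ Finset.univ.val).sum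
  congr 1

lemma rootS_tendsto {M : Matrix n n ℂ} (hM : M.IsHermitian) :
    Filter.Tendsto (fun ε : ℝ => rootS (M + (ε : ℂ) • (1 : Matrix n n ℂ)))
      (nhdsWithin 0 (Set.Ioi 0)) (nhds (rootS M)) := by
  have h : (fun ε : ℝ => rootS (M + (ε : ℂ) • (1 : Matrix n n ℂ))) =
      fun ε : ℝ => ∑ i, Real.negMulLog (hM.eigenvalues i + ε) := by
    funext ε; exact rootS_add_smul hM ε
  rw [h, rootS_eq hM]
  have hc : Continuous (fun ε : ℝ => ∑ i, Real.negMulLog (hM.eigenvalues i + ε)) := by
    apply continuous_finsetSum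
    intro i _
    exact Real.continuous_negMulLog.comp (by fun_prop)
  have := (hc.tendsto 0).mono_left (nhdsWithin_le_nhds (s := Set.Ioi 0))
  simpa using this

/-- entropy from any explicit factorisation of the characteristic polynomial -/
lemma rootS_of_charpoly {ι : Type*} [Fintype ι] {M : Matrix n n ℂ} (d : ι → ℝ)
    (h : M.charpoly = ∏ i, (Polynomial.X - Polynomial.C ((d i : ℝ) : ℂ))) :
    rootS M = ∑ i, Real.negMulLog (d i) := by
  unfold rootS
  rw [h, Polynomial.roots_prod _ _
    (Finset.prod_ne_zero_iff.mpr (fun i _ => Polynomial.X_sub_C_ne_zero _))]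
  simp only [Polynomial.roots_X_sub_C, Multiset.bind_singleton, Multiset.map_map]
  change (Multiset.map _ Finset.univ.val).sum = (Multiset.map _ Finset.univ.val).sum
  congr 1

/-- characteristic polynomial of a Kronecker product of Hermitian matrices -/
lemma charpoly_kronecker {A : Matrix n n ℂ} {B : Matrix m m ℂ} (hA : A.IsHermitian)
    (hB : B.IsHermitian) : (A ⊗ₖ B).charpoly =
      ∏ p : n × m, (Polynomial.X -
        Polynomial.C ((hA.eigenvalues p.1 * hB.eigenvalues p.2 : ℝ) : ℂ)) := by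
  have hstA := hA.spectral_theorem
  have hstB := hB.spectral_theorem
  rw [Unitary.conjStarAlgAut_apply] at hstA hstB
  set U : Matrix n n ℂ := (hA.eigenvectorUnitary : Matrix n n ℂ)
  set W : Matrix m m ℂ := (hB.eigenvectorUnitary : Matrix m m ℂ)
  have hU : Uᴴ * U = 1 := Unitary.star_mul_self_of_mem hA.eigenvectorUnitary.2
  have hW : Wᴴ * W = 1 := Unitary.star_mul_self_of_mem hB.eigenvectorUnitary.2
  have hstA' : A = U * diagonal (fun i => ((hA.eigenvalues i : ℝ) : ℂ)) * Uᴴ := hstA
  have hstB' : B = W * diagonal (fun i => ((hB.eigenvalues i : ℝ) : ℂ)) * Wᴴ := hstB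
  have e : A ⊗ₖ B = (U ⊗ₖ W) * (diagonal (fun i => ((hA.eigenvalues i : ℝ) : ℂ)) ⊗ₖ
      diagonal (fun i => ((hB.eigenvalues i : ℝ) : ℂ))) * (Uᴴ ⊗ₖ Wᴴ) := by
    rw [← Matrix.mul_kronecker_mul, ← Matrix.mul_kronecker_mul, ← hstA', ← hstB']
  rw [e, charpoly_mul_comm, ← Matrix.mul_assoc, ← Matrix.mul_kronecker_mul, hU, hW,
    Matrix.one_kronecker_one, Matrix.one_mul, Matrix.diagonal_kronecker_diagonal,
    charpoly_diagonal]
  simp

/-- entropy of a Kronecker product -/
theorem rootS_kronecker {A : Matrix n n ℂ} {B : Matrix m m ℂ} (hA : A.IsHermitian)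
    (hB : B.IsHermitian) : rootS (A ⊗ₖ B) = B.trace.re * rootS A + A.trace.re * rootS B := by
  rw [rootS_of_charpoly _ (charpoly_kronecker hA hB), rootS_eq hA, rootS_eq hB, trace_re_eq hA,
    trace_re_eq hB, Fintype.sum_prod_type]
  simp only [Real.negMulLog_mul, Finset.sum_add_distrib, Finset.sum_mul, Finset.mul_sum]
  congr 1
  rw [Finset.sum_comm]

end Vale.Agent.P358
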