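import Vale.Agent.P358.DetLower
import Vale.Agent.P358.Roots
import Vale.Agent.P358.Ent
import Vale.Agent.P358.Phi
import Vale.Agent.P358.F3

/-! # P358: the matrix entropy inequality (three-edge case). -/

open Matrix
open scoped MatrixOrder ComplexOrder

namespace Vale.Agent.P358

variable {n m : Type*} [Fintype n] [DecidableEq n] [Fintype m] [DecidableEq m]

lemma continuous_F (a b c : ℝ → ℝ) (ha : Continuous a) (hb : Continuous b) (hc : Continuous c) :
    Continuous (fun t => F (a t) (b t) (c t)) := by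
  unfold F lamP lamM
  have := Real.continuous_negMulLog
  fun_prop

lemma fac_lemma {a b c l : ℝ} (ha : 0 ≤ a) (hb : 0 ≤ b) (hc : 0 ≤ c) (hl : 0 < l) :
    (l + lamP a b c) * (l + lamM a b c) = (1 + l * b / ((l + a) * (l + c))) *
      ((l + a) * (l + c)) := by
  have h1 := lam_add a b c
  have h2 := lam_mul ha hb hc
  have h5 : (l + a) * (l + c) ≠ 0 := by positivity
  rw [add_mul (1:ℝ), one_mul, div_mul_cancel₀ _ h5]
  nlinarith

section main

variable {X00 X01 X11 Z : Matrix n n ℂ}

/-- diagonal case -/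
theorem entropy_lower_diag (hK : LemKStatement n) {b : n → ℝ} (hb : ∀ k, 0 < b k)
    (hZ : Z.PosSemidef)
    (hX : (fromBlocks (diagonal (fun k => ((b k : ℝ) : ℂ))) X01 X01ᴴ X11).PosSemidef) :
    (∑ k, Real.negMulLog (b k)) + rootS X11 + rootS Z + F Z.trace.re (∑ k, b k) X11.trace.re ≤
      rootS (fromBlocks (diagonal (fun k => ((b k : ℝ) : ℂ)) + Z) X01 X01ᴴ X11) := by
  have hX11 : X11.PosSemidef := by
    have h1 := hX.submatrix (Sum.inr : n → n ⊕ n)
    have h2 : (fromBlocks (diagonal (fun k => ((b k : ℝ) : ℂ))) X01 X01ᴴ X11).submatrix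
        (Sum.inr : n → n ⊕ n) Sum.inr = X11 := by
      ext i j; simp
    rwa [h2] at h1
  set M := fromBlocks (diagonal (fun k => ((b k : ℝ) : ℂ)) + Z) X01 X01ᴴ X11 with hMdef
  have hM : M.PosSemidef := by
    have hZ' : (fromBlocks Z 0 0 (0 : Matrix n n ℂ)).PosSemidef := by
      have h1 := hZ.conjTranspose_mul_mul_same (fun (i : n) (j : n ⊕ n) =>
        Sum.elim (fun j => (1 : Matrix n n ℂ) i j) (fun _ => 0) j : Matrix n (n ⊕ n) ℂ)
      have h2 : (fun (i : n) (j : n ⊕ n) =>
        Sum.elim (fun j => (1 : Matrix n n ℂ) i j) (fun _ => 0) j : Matrix n (n ⊕ n) ℂ) =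
        fromCols 1 0 := by
        ext i j
        cases j <;> simp
      rw [h2] at h1
      have h3 : (fromCols (1 : Matrix n n ℂ) (0 : Matrix n n ℂ))ᴴ * Z *
          (fromCols (1 : Matrix n n ℂ) (0 : Matrix n n ℂ)) = fromBlocks Z 0 0 0 := by
        rw [conjTranspose_fromCols_eq_fromRows_conjTranspose, fromRows_mul, fromRows_mul_fromCols]
        simp
      rwa [h3] at h1
    have := hX.add hZ'
    rw [fromBlocks_add] at this
    simpa [hMdef] using this
  have ha : ∀ k, 0 ≤ (Z k k).re := by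
    intro k
    have := hZ.diag_nonneg (i := k)
    rw [Complex.nonneg_iff] at this
    exact this.1
  have hc : ∀ k, 0 ≤ cvec b X01 k := cvec_nonneg b X01
  have hphi := phi (ι := (n ⊕ n) ⊕ (n ⊕ n))
    (x := Sum.elim hM.1.eigenvalues (Sum.elim (fun k => (Z k k).re) (cvec b X01)))
    (y := Sum.elim (Sum.elim (fun k => lamP (Z k k).re (b k) (cvec b X01 k))
      (fun k => lamM (Z k k).re (b k) (cvec b X01 k)))
      (Sum.elim hZ.1.eigenvalues hX11.1.eigenvalues)) ?_ ?_ ?_ ?_
  · simp only [Fintype.sum_sum_type, Sum.elim_inl, Sum.elim_inr] at hphi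
    rw [rootS_eq hM.1, rootS_eq hX11.1, rootS_eq hZ.1]
    simp only [Fintype.sum_sum_type]
    have hsup := F_superadd (a := fun k => (Z k k).re) (b := b) (c := cvec b X01) ha
      (fun k => (hb k).le) hc
    have htrZ : Z.trace.re = ∑ k, (Z k k).re := by
      unfold Matrix.trace; simp
    have hanti := F_anti (a := Z.trace.re) (a' := Z.trace.re) (b := ∑ k, b k)
      (c := ∑ k, cvec b X01 k) (c' := X11.trace.re)
      (by rw [htrZ]; exact Finset.sum_nonneg (fun k _ => ha k))
      (Finset.sum_nonneg (fun k _ => (hb k).le)) (Finset.sum_nonneg (fun k _ => hc k)) le_rfl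
      (cvec_sum hb hX)
    rw [← htrZ] at hsup
    have hFsum : ∑ k, F (Z k k).re (b k) (cvec b X01 k) =
        ∑ k, Real.negMulLog (lamP (Z k k).re (b k) (cvec b X01 k)) +
        ∑ k, Real.negMulLog (lamM (Z k k).re (b k) (cvec b X01 k)) -
        ∑ k, Real.negMulLog (Z k k).re - ∑ k, Real.negMulLog (b k) -
        ∑ k, Real.negMulLog (cvec b X01 k) := by
      unfold F
      simp only [Finset.sum_sub_distrib, Finset.sum_add_distrib]
    linarith
  · rintro (i | (i | i))
    · exact hM.eigenvalues_nonneg i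
    · exact ha i
    · exact hc i
  · rintro ((i | i) | (i | i))
    · exact lamP_nonneg (ha i) (hb i).le (hc i)
    · exact lamM_nonneg (ha i) (hb i).le (hc i)
    · exact hZ.eigenvalues_nonneg i
    · exact hX11.eigenvalues_nonneg i
  · rw [Fintype.sum_sum_type, Fintype.sum_sum_type (f := fun i : (n ⊕ n) ⊕ (n ⊕ n) =>
      Sum.elim (Sum.elim (fun k => lamP (Z k k).re (b k) (cvec b X01 k))
      (fun k => lamM (Z k k).re (b k) (cvec b X01 k)))
      (Sum.elim hZ.1.eigenvalues hX11.1.eigenvalues) i)]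
    simp only [Sum.elim_inl, Sum.elim_inr]
    have e1 : ∑ i, hM.1.eigenvalues i = M.trace.re := (trace_re_eq hM.1).symm
    have e2 : ∑ i, hZ.1.eigenvalues i = Z.trace.re := (trace_re_eq hZ.1).symm
    have e3 : ∑ i, hX11.1.eigenvalues i = X11.trace.re := (trace_re_eq hX11.1).symm
    have e4 : M.trace.re = ∑ k, b k + Z.trace.re + X11.trace.re := by
      rw [hMdef]
      simp [Matrix.trace, Matrix.diag, Fintype.sum_sum_type, Finset.sum_add_distrib]
    have e5 : ∑ k, lamP (Z k k).re (b k) (cvec b X01 k) + ∑ k, lamM (Z k k).re (b k) (cvec b X01 k)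
        = ∑ k, (Z k k).re + ∑ k, b k + ∑ k, cvec b X01 k := by
      rw [← Finset.sum_add_distrib, ← Finset.sum_add_distrib, ← Finset.sum_add_distrib]
      exact Finset.sum_congr rfl (fun k _ => lam_add _ _ _)
    rw [e1, e4, Fintype.sum_sum_type, Fintype.sum_sum_type, Fintype.sum_sum_type]
    simp only [Sum.elim_inl, Sum.elim_inr]
    rw [e2, e3]
    linarith
  · intro l hl
    rw [Fintype.prod_sum_type, Fintype.prod_sum_type (f := fun i : (n ⊕ n) ⊕ (n ⊕ n) =>
      (l + Sum.elim hM.1.eigenvalues (Sum.elim (fun k => (Z k k).re) (cvec b X01)) i))]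
    simp only [Sum.elim_inl, Sum.elim_inr]
    have d1 := det_smul_one_add hM.1 l
    have d2 := det_smul_one_add hZ.1 l
    have d3 := det_smul_one_add hX11.1 l
    have hD := det_lower_diag hK hb hZ hX hl
    rw [← hMdef, d1, d2, d3, Complex.ofReal_re, Complex.ofReal_re, Complex.ofReal_re] at hD
    rw [Fintype.prod_sum_type (f := fun i : n ⊕ n => (l +
      Sum.elim (fun k => lamP (Z k k).re (b k) (cvec b X01 k))
      (fun k => lamM (Z k k).re (b k) (cvec b X01 k)) i)),
      Fintype.prod_sum_type (f := fun i : n ⊕ n => (l +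
      Sum.elim hZ.1.eigenvalues hX11.1.eigenvalues i)),
      Fintype.prod_sum_type (f := fun i : n ⊕ n => (l +
      Sum.elim (fun k => (Z k k).re) (cvec b X01) i))]
    simp only [Sum.elim_inl, Sum.elim_inr]
    rw [← Finset.prod_mul_distrib (f := fun k => l + lamP (Z k k).re (b k) (cvec b X01 k)),
      ← Finset.prod_mul_distrib (f := fun k => l + (Z k k).re)]
    have hfac : ∀ k, (l + lamP (Z k k).re (b k) (cvec b X01 k)) *
        (l + lamM (Z k k).re (b k) (cvec b X01 k)) =
        (1 + l * b k / ((l + (Z k k).re) * (l + cvec b X01 k))) *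
        ((l + (Z k k).re) * (l + cvec b X01 k)) := by
      intro k
      exact fac_lemma (ha k) (hb k).le (hc k) hl
    rw [Finset.prod_congr rfl (fun k _ => hfac k), Finset.prod_mul_distrib]
    have hpos : 0 < ∏ k, ((l + (Z k k).re) * (l + cvec b X01 k)) := by
      apply Finset.prod_pos
      intro k _
      have h3 := ha k
      have h4 := hc k
      positivity
    calc (∏ k, (1 + l * b k / ((l + (Z k k).re) * (l + cvec b X01 k)))) *
          (∏ k, ((l + (Z k k).re) * (l + cvec b X01 k))) *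
          ((∏ i, (l + hZ.1.eigenvalues i)) * ∏ i, (l + hX11.1.eigenvalues i))
        = ((∏ i, (l + hZ.1.eigenvalues i)) * (∏ i, (l + hX11.1.eigenvalues i)) *
          ∏ k, (1 + l * b k / ((l + (Z k k).re) * (l + cvec b X01 k)))) *
          ∏ k, ((l + (Z k k).re) * (l + cvec b X01 k)) := by ring
      _ ≤ _ := mul_le_mul_of_nonneg_right hD hpos.le

omit [DecidableEq n] in
private lemma conj_trace {U A : Matrix n n ℂ} [DecidableEq n] (hU : U * Uᴴ = 1) :
    (Uᴴ * A * U).trace = A.trace := by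
  rw [Matrix.trace_mul_comm, ← Matrix.mul_assoc, hU, Matrix.one_mul]

private lemma conj_rootS {U A : Matrix n n ℂ} (hU : U * Uᴴ = 1) : rootS (Uᴴ * A * U) = rootS A := by
  apply rootS_congr
  rw [charpoly_mul_comm, ← Matrix.mul_assoc, hU, Matrix.one_mul]

/-- case `X00` positive definite -/
theorem entropy_lower_pd (hK : LemKStatement n) (hX00 : X00.PosDef) (hZ : Z.PosSemidef)
    (hX : (fromBlocks X00 X01 X01ᴴ X11).PosSemidef) :
    rootS X00 + rootS X11 + rootS Z + F Z.trace.re X00.trace.re X11.trace.re ≤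
      rootS (fromBlocks (X00 + Z) X01 X01ᴴ X11) := by
  set U : Matrix n n ℂ := (hX00.1.eigenvectorUnitary : Matrix n n ℂ) with hUdef
  have hU1 : U * Uᴴ = 1 := Unitary.mul_star_self_of_mem hX00.1.eigenvectorUnitary.2
  have hU2 : Uᴴ * U = 1 := Unitary.star_mul_self_of_mem hX00.1.eigenvectorUnitary.2
  set b : n → ℝ := hX00.1.eigenvalues with hbdef
  have hb : ∀ k, 0 < b k := fun k => hX00.eigenvalues_pos k
  have hst : X00 = U * diagonal (fun k => ((b k : ℝ) : ℂ)) * Uᴴ := by
    have := hX00.1.spectral_theorem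
    rw [Unitary.conjStarAlgAut_apply] at this
    exact this
  have hdiag : Uᴴ * X00 * U = diagonal (fun k => ((b k : ℝ) : ℂ)) := by
    rw [hst]
    calc Uᴴ * (U * diagonal (fun k => ((b k : ℝ) : ℂ)) * Uᴴ) * U
        = (Uᴴ * U) * diagonal (fun k => ((b k : ℝ) : ℂ)) * (Uᴴ * U) := by
          simp only [Matrix.mul_assoc]
      _ = _ := by rw [hU2, Matrix.one_mul, Matrix.mul_one]
  set V : Matrix (n ⊕ n) (n ⊕ n) ℂ := fromBlocks U 0 0 1 with hV
  have hV1 : V * Vᴴ = 1 := by
    rw [hV, fromBlocks_conjTranspose, fromBlocks_multiply]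
    simp [hU1]
  have hconj : ∀ A B C D : Matrix n n ℂ, Vᴴ * fromBlocks A B C D * V =
      fromBlocks (Uᴴ * A * U) (Uᴴ * B) (C * U) D := by
    intro A B C D
    rw [hV, fromBlocks_conjTranspose, fromBlocks_multiply, fromBlocks_multiply]
    simp
  have hXc : (fromBlocks (diagonal (fun k => ((b k : ℝ) : ℂ))) (Uᴴ * X01) (Uᴴ * X01)ᴴ
      X11).PosSemidef := by
    have h1 := hX.conjTranspose_mul_mul_same V
    rw [hconj, hdiag] at h1
    rwa [conjTranspose_mul, conjTranspose_conjTranspose]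
  have hZc : (Uᴴ * Z * U).PosSemidef := hZ.conjTranspose_mul_mul_same U
  have hmain := entropy_lower_diag hK hb hZc hXc
  have e1 : ∑ k, Real.negMulLog (b k) = rootS X00 := (rootS_eq hX00.1).symm
  have e2 : rootS (Uᴴ * Z * U) = rootS Z := conj_rootS hU1
  have e3 : (Uᴴ * Z * U).trace = Z.trace := conj_trace hU1
  have e4 : ∑ k, b k = X00.trace.re := (trace_re_eq hX00.1).symm
  have e5 : fromBlocks (diagonal (fun k => ((b k : ℝ) : ℂ)) + Uᴴ * Z * U) (Uᴴ * X01)
      (Uᴴ * X01)ᴴ X11 = Vᴴ * fromBlocks (X00 + Z) X01 X01ᴴ X11 * V := by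
    rw [hconj, ← hdiag, conjTranspose_mul, conjTranspose_conjTranspose, Matrix.mul_add,
      Matrix.add_mul]
  rw [e1, e2, e3, e4, e5, conj_rootS hV1] at hmain
  exact hmain

/-- **The matrix entropy inequality** (three-edge case). -/
theorem entropy_lower (hK : LemKStatement n) (hZ : Z.PosSemidef)
    (hX : (fromBlocks X00 X01 X01ᴴ X11).PosSemidef) :
    rootS X00 + rootS X11 + rootS Z + F Z.trace.re X00.trace.re X11.trace.re ≤
      rootS (fromBlocks (X00 + Z) X01 X01ᴴ X11) := by
  have hX00 : X00.PosSemidef := by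
    have h1 := hX.submatrix (Sum.inl : n → n ⊕ n)
    have h2 : (fromBlocks X00 X01 X01ᴴ X11).submatrix (Sum.inl : n → n ⊕ n) Sum.inl = X00 := by
      ext i j; simp
    rwa [h2] at h1
  have hX11 : X11.PosSemidef := by
    have h1 := hX.submatrix (Sum.inr : n → n ⊕ n)
    have h2 : (fromBlocks X00 X01 X01ᴴ X11).submatrix (Sum.inr : n → n ⊕ n) Sum.inr = X11 := by
      ext i j; simp
    rwa [h2] at h1
  have hM : (fromBlocks (X00 + Z) X01 X01ᴴ X11).IsHermitian := by
    apply Matrix.IsHermitian.fromBlocks (hX00.1.add hZ.1) rfl hX11.1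
  have hlim1 := ((((rootS_tendsto hX00.1).add (rootS_tendsto hX11.1)).add
    (tendsto_const_nhds (x := rootS Z))).add
    ((continuous_F (fun _ => Z.trace.re)
      (fun ε => X00.trace.re + ε * Fintype.card n) (fun ε => X11.trace.re + ε * Fintype.card n)
      continuous_const (by fun_prop) (by fun_prop)).tendsto 0 |>.mono_left
      (nhdsWithin_le_nhds (s := Set.Ioi 0))))
  have hlim2 := rootS_tendsto hM
  simp only [zero_mul, add_zero] at hlim1
  refine le_of_tendsto_of_tendsto hlim1 hlim2 ?_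
  filter_upwards [self_mem_nhdsWithin] with ε hε
  have hε' : (0:ℝ) < ε := hε
  have h00 : (X00 + (ε : ℂ) • (1 : Matrix n n ℂ)).PosDef := by
    rw [add_comm]; exact posDef_smul_one_add hX00 hε'
  have hblock : ∀ A B C D : Matrix n n ℂ, fromBlocks A B C D +
      (ε : ℂ) • (1 : Matrix (n ⊕ n) (n ⊕ n) ℂ) =
      fromBlocks (A + (ε : ℂ) • (1 : Matrix n n ℂ)) B C (D + (ε : ℂ) • (1 : Matrix n n ℂ)) := by
    intro A B C D
    rw [← fromBlocks_one, fromBlocks_smul, fromBlocks_add]
    simp
  have hXε : (fromBlocks (X00 + (ε : ℂ) • (1 : Matrix n n ℂ)) X01 X01ᴴ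
      (X11 + (ε : ℂ) • (1 : Matrix n n ℂ))).PosSemidef := by
    rw [← hblock, add_comm]
    exact (posDef_smul_one_add hX hε').posSemidef
  have h := entropy_lower_pd hK h00 hZ hXε
  have t1 : ∀ A : Matrix n n ℂ, (A + (ε : ℂ) • (1 : Matrix n n ℂ)).trace.re =
      A.trace.re + ε * Fintype.card n := by
    intro A
    rw [Matrix.trace_add, Matrix.trace_smul, Matrix.trace_one]
    simp
  rw [t1, t1] at h
  have e : X00 + (ε : ℂ) • (1 : Matrix n n ℂ) + Z = (X00 + Z) + (ε : ℂ) • (1 : Matrix n n ℂ) := by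
    abel
  rw [e, ← hblock] at h
  exact h

lemma vnS_eq_rootS_aux {M : Matrix n n ℂ} (hM : M.IsHermitian) : vnS M = rootS M :=
  vnS_eq_roots hM

/-- **The matrix entropy inequality** (three-edge case), in terms of `vnS`. -/
theorem vnS_lower (hK : LemKStatement n) (hZ : Z.PosSemidef)
    (hX : (fromBlocks X00 X01 X01ᴴ X11).PosSemidef) :
    vnS X00 + vnS X11 + vnS Z + F Z.trace.re X00.trace.re X11.trace.re ≤
      vnS (fromBlocks (X00 + Z) X01 X01ᴴ X11) := by
  have hX00 : X00.PosSemidef := by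
    have h1 := hX.submatrix (Sum.inl : n → n ⊕ n)
    have h2 : (fromBlocks X00 X01 X01ᴴ X11).submatrix (Sum.inl : n → n ⊕ n) Sum.inl = X00 := by
      ext i j; simp
    rwa [h2] at h1
  have hX11 : X11.PosSemidef := by
    have h1 := hX.submatrix (Sum.inr : n → n ⊕ n)
    have h2 : (fromBlocks X00 X01 X01ᴴ X11).submatrix (Sum.inr : n → n ⊕ n) Sum.inr = X11 := by
      ext i j; simp
    rwa [h2] at h1
  have hM : (fromBlocks (X00 + Z) X01 X01ᴴ X11).IsHermitian :=
    Matrix.IsHermitian.fromBlocks (hX00.1.add hZ.1) rfl hX11.1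
  rw [vnS_eq_rootS_aux hX00.1, vnS_eq_rootS_aux hX11.1, vnS_eq_rootS_aux hZ.1, vnS_eq_rootS_aux hM]
  exact entropy_lower hK hZ hX

end main

end Vale.Agent.P358
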