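import Vale.Agent.P358.Frame
import Vale.Agent.P358.MatLower
import Vale.Agent.P358.Ent

/-! # The pure state bound for the real two-Kraus channel -/

open Matrix
open scoped ComplexOrder

namespace Vale.Agent.P358

variable {d : Type*} [Fintype d] [DecidableEq d]

/-- `op v w = |v⟩⟨w|` -/
def op (v w : d → ℂ) : Matrix d d ℂ := vecMulVec v (star w)

theorem op_conjTranspose (v w : d → ℂ) : (op v w)ᴴ = op w v := by
  unfold op
  rw [conjTranspose_vecMulVec, star_star]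

theorem op_posSemidef (v : d → ℂ) : (op v v).PosSemidef := posSemidef_vecMulVec_self_star v

theorem op_comb (x0 x1 y0 y1 : ℝ) (v w : d → ℂ) :
    op ((x0 : ℂ) • v + (x1 : ℂ) • w) ((y0 : ℂ) • v + (y1 : ℂ) • w) =
      ((x0 * y0 : ℝ) : ℂ) • op v v + ((x0 * y1 : ℝ) : ℂ) • op v w +
      ((x1 * y0 : ℝ) : ℂ) • op w v + ((x1 * y1 : ℝ) : ℂ) • op w w := by
  ext i j
  simp [op, vecMulVec_apply]
  ring

/-- A quantum channel given by Kraus operators. -/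
structure IsCh (Ω : Matrix d d ℂ →ₗ[ℂ] Matrix d d ℂ) : Prop where
  kraus : ∃ (κ : Type) (_ : Fintype κ) (E : κ → Matrix d d ℂ), ∀ M, Ω M = ∑ k, E k * M * (E k)ᴴ
  tp : ∀ M, (Ω M).trace = M.trace

namespace IsCh

variable {Ω : Matrix d d ℂ →ₗ[ℂ] Matrix d d ℂ}

theorem map_conjTranspose (h : IsCh Ω) (M : Matrix d d ℂ) : Ω Mᴴ = (Ω M)ᴴ := by
  obtain ⟨κ, _, E, hE⟩ := h.kraus
  rw [hE, hE, conjTranspose_sum]
  refine Finset.sum_congr rfl fun k _ => ?_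
  simp [Matrix.mul_assoc]

theorem map_posSemidef (h : IsCh Ω) {M : Matrix d d ℂ} (hM : M.PosSemidef) : (Ω M).PosSemidef := by
  obtain ⟨κ, _, E, hE⟩ := h.kraus
  rw [hE]
  exact posSemidef_sum _ fun k _ => hM.mul_mul_conjTranspose_same (E k)

theorem block_posSemidef (h : IsCh Ω) (v w : d → ℂ) :
    (fromBlocks (Ω (op v v)) (Ω (op v w)) (Ω (op v w))ᴴ (Ω (op w w))).PosSemidef := by
  obtain ⟨κ, _, E, hE⟩ := h.kraus
  have key : fromBlocks (Ω (op v v)) (Ω (op v w)) (Ω (op v w))ᴴ (Ω (op w w)) =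
      ∑ k, vecMulVec (Sum.elim (E k *ᵥ v) (E k *ᵥ w)) (star (Sum.elim (E k *ᵥ v) (E k *ᵥ w))) := by
    have hop : ∀ (u u' : d → ℂ), Ω (op u u') = ∑ k, vecMulVec (E k *ᵥ u) (star (E k *ᵥ u')) := by
      intro u u'
      rw [hE]
      refine Finset.sum_congr rfl fun k _ => ?_
      unfold op
      rw [mul_vecMulVec, vecMulVec_mul, star_mulVec]
    rw [← h.map_conjTranspose, op_conjTranspose, hop, hop, hop, hop]
    ext i j
    rcases i with i | i <;> rcases j with j | j <;>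
      simp [Matrix.sum_apply, vecMulVec_apply]
  rw [key]
  exact posSemidef_sum _ fun k _ => posSemidef_vecMulVec_self_star _

end IsCh

/-- The block matrix `(T ⊗ Ω)(|ψ⟩⟨ψ|)` for the real two-Kraus channel `T`. -/
noncomputable def twoKraus (sa sb se sf : ℝ) (Ω : Matrix d d ℂ →ₗ[ℂ] Matrix d d ℂ)
    (ψ0 ψ1 : d → ℂ) : Matrix (d ⊕ d) (d ⊕ d) ℂ :=
  fromBlocks
    ((sa : ℂ) ^ 2 • Ω (op ψ0 ψ0) + (sb : ℂ) ^ 2 • Ω (op ψ1 ψ1))
    (((sa : ℂ) * sf) • Ω (op ψ0 ψ1) + ((sb : ℂ) * se) • Ω (op ψ1 ψ0))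
    (((sa : ℂ) * sf) • Ω (op ψ1 ψ0) + ((sb : ℂ) * se) • Ω (op ψ0 ψ1))
    ((se : ℂ) ^ 2 • Ω (op ψ0 ψ0) + (sf : ℂ) ^ 2 • Ω (op ψ1 ψ1))

theorem isHermitian_of_posSemidef_map {Ω : Matrix d d ℂ →ₗ[ℂ] Matrix d d ℂ} (h : IsCh Ω)
    (v : d → ℂ) : (Ω (op v v)).IsHermitian := (h.map_posSemidef (op_posSemidef v)).1

theorem twoKraus_isHermitian {Ω : Matrix d d ℂ →ₗ[ℂ] Matrix d d ℂ} (h : IsCh Ω)
    (sa sb se sf : ℝ) (ψ0 ψ1 : d → ℂ) : (twoKraus sa sb se sf Ω ψ0 ψ1).IsHermitian := by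
  unfold twoKraus
  have h00 := isHermitian_of_posSemidef_map h ψ0
  have h11 := isHermitian_of_posSemidef_map h ψ1
  have h01 : (Ω (op ψ0 ψ1))ᴴ = Ω (op ψ1 ψ0) := by
    rw [← h.map_conjTranspose, op_conjTranspose]
  have h10 : (Ω (op ψ1 ψ0))ᴴ = Ω (op ψ0 ψ1) := by
    rw [← h.map_conjTranspose, op_conjTranspose]
  refine IsHermitian.fromBlocks ?_ ?_ ?_
  · unfold Matrix.IsHermitian
    simp [h00.eq, h11.eq]
  · simp [h01, h10]
  · unfold Matrix.IsHermitian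
    simp [h00.eq, h11.eq]

/-- real rotation of the output qubit -/
theorem twoKraus_rot {Ω : Matrix d d ℂ →ₗ[ℂ] Matrix d d ℂ}
    {sa sb se sf q0 q1 x0 x1 y0 y1 l0 l1 : ℝ} (ψ0 ψ1 : d → ℂ)
    (h1 : q0 ^ 2 * sa ^ 2 + q1 ^ 2 * se ^ 2 = x0 ^ 2 + l0 ^ 2)
    (h2 : q0 * q1 * (sa * sf + sb * se) = x0 * x1 + l0 * l1)
    (h3 : q0 ^ 2 * sb ^ 2 + q1 ^ 2 * sf ^ 2 = x1 ^ 2 + l1 ^ 2)
    (h4 : q0 * q1 * (se ^ 2 - sa ^ 2) = x0 * y0)
    (h5 : q0 ^ 2 * (sa * sf) - q1 ^ 2 * (sb * se) = x0 * y1)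
    (h6 : q0 ^ 2 * (sb * se) - q1 ^ 2 * (sa * sf) = x1 * y0)
    (h7 : q0 * q1 * (sf ^ 2 - sb ^ 2) = x1 * y1)
    (h8 : q1 ^ 2 * sa ^ 2 + q0 ^ 2 * se ^ 2 = y0 ^ 2)
    (h9 : -(q0 * q1 * (sa * sf + sb * se)) = y0 * y1)
    (h10 : q1 ^ 2 * sb ^ 2 + q0 ^ 2 * sf ^ 2 = y1 ^ 2) :
    (fromBlocks ((q0 : ℂ) • (1 : Matrix d d ℂ)) (-(q1 : ℂ) • 1) ((q1 : ℂ) • 1) ((q0 : ℂ) • 1))ᴴ *
      twoKraus sa sb se sf Ω ψ0 ψ1 *
      (fromBlocks ((q0 : ℂ) • (1 : Matrix d d ℂ)) (-(q1 : ℂ) • 1) ((q1 : ℂ) • 1) ((q0 : ℂ) • 1)) =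
    fromBlocks
      (Ω (op ((x0 : ℂ) • ψ0 + (x1 : ℂ) • ψ1) ((x0 : ℂ) • ψ0 + (x1 : ℂ) • ψ1)) +
        Ω (op ((l0 : ℂ) • ψ0 + (l1 : ℂ) • ψ1) ((l0 : ℂ) • ψ0 + (l1 : ℂ) • ψ1)))
      (Ω (op ((x0 : ℂ) • ψ0 + (x1 : ℂ) • ψ1) ((y0 : ℂ) • ψ0 + (y1 : ℂ) • ψ1)))
      (Ω (op ((y0 : ℂ) • ψ0 + (y1 : ℂ) • ψ1) ((x0 : ℂ) • ψ0 + (x1 : ℂ) • ψ1)))
      (Ω (op ((y0 : ℂ) • ψ0 + (y1 : ℂ) • ψ1) ((y0 : ℂ) • ψ0 + (y1 : ℂ) • ψ1))) := by
  have g1 : (q0 : ℂ) ^ 2 * sa ^ 2 + q1 ^ 2 * se ^ 2 = x0 ^ 2 + l0 ^ 2 := by exact_mod_cast h1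
  have g2 : (q0 : ℂ) * q1 * (sa * sf + sb * se) = x0 * x1 + l0 * l1 := by exact_mod_cast h2
  have g3 : (q0 : ℂ) ^ 2 * sb ^ 2 + q1 ^ 2 * sf ^ 2 = x1 ^ 2 + l1 ^ 2 := by exact_mod_cast h3
  have g4 : (q0 : ℂ) * q1 * (se ^ 2 - sa ^ 2) = x0 * y0 := by exact_mod_cast h4
  have g5 : (q0 : ℂ) ^ 2 * (sa * sf) - q1 ^ 2 * (sb * se) = x0 * y1 := by exact_mod_cast h5
  have g6 : (q0 : ℂ) ^ 2 * (sb * se) - q1 ^ 2 * (sa * sf) = x1 * y0 := by exact_mod_cast h6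
  have g7 : (q0 : ℂ) * q1 * (sf ^ 2 - sb ^ 2) = x1 * y1 := by exact_mod_cast h7
  have g8 : (q1 : ℂ) ^ 2 * sa ^ 2 + q0 ^ 2 * se ^ 2 = y0 ^ 2 := by exact_mod_cast h8
  have g9 : -((q0 : ℂ) * q1 * (sa * sf + sb * se)) = y0 * y1 := by exact_mod_cast h9
  have g10 : (q1 : ℂ) ^ 2 * sb ^ 2 + q0 ^ 2 * sf ^ 2 = y1 ^ 2 := by exact_mod_cast h10
  rw [op_comb, op_comb, op_comb, op_comb, op_comb]
  simp only [map_add, map_smul]
  generalize e00 : Ω (op ψ0 ψ0) = A00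
  generalize e01 : Ω (op ψ0 ψ1) = A01
  generalize e10 : Ω (op ψ1 ψ0) = A10
  generalize e11 : Ω (op ψ1 ψ1) = A11
  unfold twoKraus
  rw [e00, e01, e10, e11, fromBlocks_conjTranspose, fromBlocks_multiply, fromBlocks_multiply]
  ext i j
  rcases i with i | i <;> rcases j with j | j
  · simp only [fromBlocks_apply₁₁]
    simp
    linear_combination (A00 i j) * g1 + (A01 i j + A10 i j) * g2 + (A11 i j) * g3
  · simp only [fromBlocks_apply₁₂]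
    simp
    linear_combination (A00 i j) * g4 + (A01 i j) * g5 + (A10 i j) * g6 + (A11 i j) * g7
  · simp only [fromBlocks_apply₂₁]
    simp
    linear_combination (A00 i j) * g4 + (A10 i j) * g5 + (A01 i j) * g6 + (A11 i j) * g7
  · simp only [fromBlocks_apply₂₂]
    simp
    linear_combination (A00 i j) * g8 + (A01 i j + A10 i j) * g9 + (A11 i j) * g10

theorem vnS_eq_rootS {n : Type*} [Fintype n] [DecidableEq n] {M : Matrix n n ℂ}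
    (h : M.IsHermitian) : vnS M = rootS M := by
  rw [vnS_eq h, rootS_eq h]

theorem op_trace_nonneg (v : d → ℂ) : 0 ≤ (op v v).trace.re :=
  (Complex.nonneg_iff.mp (op_posSemidef v).trace_nonneg).1

theorem op_trace_swap (v w : d → ℂ) : (op w v).trace = star (op v w).trace := by
  rw [← op_conjTranspose, trace_conjTranspose]

theorem op_trace_comb (x0 x1 : ℝ) (v w : d → ℂ) :
    (op ((x0 : ℂ) • v + (x1 : ℂ) • w) ((x0 : ℂ) • v + (x1 : ℂ) • w)).trace.re =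
      x0 ^ 2 * (op v v).trace.re + 2 * (x0 * x1) * (op v w).trace.re +
        x1 ^ 2 * (op w w).trace.re := by
  rw [op_comb]
  simp only [trace_add, trace_smul, op_trace_swap v w, Complex.add_re, smul_eq_mul,
    Complex.re_ofReal_mul]
  simp
  ring

/-- **Pure state bound** for the real two-Kraus channel. -/
theorem twoKraus_bound (hK : LemKStatement d) {Ω : Matrix d d ℂ →ₗ[ℂ] Matrix d d ℂ} (h : IsCh Ω)
    {sa sb se sf : ℝ} (ha : 0 ≤ sa) (hb : 0 ≤ sb) (he : 0 ≤ se) (hf : 0 ≤ sf)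
    (hae : sa ^ 2 + se ^ 2 = 1) (hbf : sb ^ 2 + sf ^ 2 = 1) (ψ0 ψ1 : d → ℂ) {m₁ m₂ : ℝ}
    (hm₁ : 0 ≤ m₁) (hm₂ : 0 ≤ m₂)
    (hsum : m₁ + m₂ = (op ψ0 ψ0).trace.re + (op ψ1 ψ1).trace.re)
    (hmul : m₁ * m₂ ≤ sa ^ 2 * se ^ 2 * (op ψ0 ψ0).trace.re ^ 2 +
      sb ^ 2 * sf ^ 2 * (op ψ1 ψ1).trace.re ^ 2 +
      2 * ((sa * sf) * (sb * se)) * ((op ψ0 ψ0).trace.re * (op ψ1 ψ1).trace.re) -
      4 * ((sa * sf) * (sb * se)) * (op ψ0 ψ1).trace.re ^ 2) :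
    ∃ φ : Fin 3 → (d → ℂ), ∑ k, op (φ k) (φ k) = op ψ0 ψ0 + op ψ1 ψ1 ∧
      ∑ k, (vnS (Ω (op (φ k) (φ k))) - Real.negMulLog (op (φ k) (φ k)).trace.re) +
        (Real.negMulLog m₁ + Real.negMulLog m₂) ≤ vnS (twoKraus sa sb se sf Ω ψ0 ψ1) := by
  obtain ⟨q0, q1, x0, x1, y0, y1, l0, l1, hq, h1, h2, h3, h4, h5, h6, h7, h8, h9, h10, h11, h12,
    h13, h14⟩ := exists_frame sa sb se sf ha hb he hf
  have hrot := twoKraus_rot (Ω := Ω) ψ0 ψ1 h1 h2 h3 h4 h5 h6 h7 h8 h9 h10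
  set φx := (x0 : ℂ) • ψ0 + (x1 : ℂ) • ψ1 with hφx
  set φy := (y0 : ℂ) • ψ0 + (y1 : ℂ) • ψ1 with hφy
  set φl := (l0 : ℂ) • ψ0 + (l1 : ℂ) • ψ1 with hφl
  set U : Matrix (d ⊕ d) (d ⊕ d) ℂ := fromBlocks ((q0 : ℂ) • (1 : Matrix d d ℂ))
    (-(q1 : ℂ) • 1) ((q1 : ℂ) • 1) ((q0 : ℂ) • 1) with hU
  have hUU : Uᴴ * U = 1 := by
    have hq' : (q0 : ℂ) ^ 2 + (q1 : ℂ) ^ 2 = 1 := by exact_mod_cast hq
    rw [hU, fromBlocks_conjTranspose, fromBlocks_multiply, ← fromBlocks_one]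
    congr 1
    · ext i j
      simp
      linear_combination ((1 : Matrix d d ℂ) i j) * hq'
    · ext i j
      simp
      ring
    · ext i j
      simp
      ring
    · ext i j
      simp
      linear_combination ((1 : Matrix d d ℂ) i j) * hq'
  have hS : vnS (twoKraus sa sb se sf Ω ψ0 ψ1) =
      rootS (fromBlocks (Ω (op φx φx) + Ω (op φl φl)) (Ω (op φx φy)) (Ω (op φx φy))ᴴ
        (Ω (op φy φy))) := by
    rw [← vnS_unitary_conj' U hUU (twoKraus_isHermitian h sa sb se sf ψ0 ψ1), hrot,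
      vnS_eq_rootS, ← h.map_conjTranspose, op_conjTranspose]
    refine IsHermitian.fromBlocks ?_ ?_ ?_
    · exact (isHermitian_of_posSemidef_map h φx).add (isHermitian_of_posSemidef_map h φl)
    · rw [← h.map_conjTranspose, op_conjTranspose]
    · exact isHermitian_of_posSemidef_map h φy
  have hlow := entropy_lower hK (h.map_posSemidef (op_posSemidef φl)) (h.block_posSemidef φx φy)
  rw [← hS, ← vnS_eq_rootS (isHermitian_of_posSemidef_map h φx),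
    ← vnS_eq_rootS (isHermitian_of_posSemidef_map h φy),
    ← vnS_eq_rootS (isHermitian_of_posSemidef_map h φl), h.tp, h.tp, h.tp] at hlow
  refine ⟨![φl, φx, φy], ?_, ?_⟩
  · have c1 : (l0 : ℂ) ^ 2 + x0 ^ 2 + y0 ^ 2 = 1 := by
      have : l0 ^ 2 + x0 ^ 2 + y0 ^ 2 = 1 := by
        linear_combination -h1 - h8 + (sa ^ 2 + se ^ 2) * hq + hae
      exact_mod_cast this
    have c2 : (l0 : ℂ) * l1 + x0 * x1 + y0 * y1 = 0 := by
      have : l0 * l1 + x0 * x1 + y0 * y1 = 0 := by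
        linear_combination -h2 - h9
      exact_mod_cast this
    have c3 : (l1 : ℂ) ^ 2 + x1 ^ 2 + y1 ^ 2 = 1 := by
      have : l1 ^ 2 + x1 ^ 2 + y1 ^ 2 = 1 := by
        linear_combination -h3 - h10 + (sb ^ 2 + sf ^ 2) * hq + hbf
      exact_mod_cast this
    simp only [Fin.sum_univ_three, Matrix.cons_val_zero, Matrix.cons_val_one,
      Matrix.cons_val_two, Matrix.tail_cons, Matrix.head_cons]
    rw [hφl, hφx, hφy, op_comb, op_comb, op_comb]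
    ext i j
    simp
    linear_combination (op ψ0 ψ0 i j) * c1 + (op ψ0 ψ1 i j + op ψ1 ψ0 i j) * c2 +
      (op ψ1 ψ1 i j) * c3
  · have hα := op_trace_nonneg φl
    have hβ := op_trace_nonneg φx
    have hχ := op_trace_nonneg φy
    have tα := op_trace_comb l0 l1 ψ0 ψ1
    have tβ := op_trace_comb x0 x1 ψ0 ψ1
    have tχ := op_trace_comb y0 y1 ψ0 ψ1
    rw [← hφl] at tα
    rw [← hφx] at tβ
    rw [← hφy] at tχ
    have htot : (op φl φl).trace.re + (op φx φx).trace.re + (op φy φy).trace.re =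
        (op ψ0 ψ0).trace.re + (op ψ1 ψ1).trace.re := by
      rw [tα, tβ, tχ]
      linear_combination (op ψ0 ψ0).trace.re * (-h1 - h8 + (sa ^ 2 + se ^ 2) * hq + hae) +
        2 * (op ψ0 ψ1).trace.re * (-h2 - h9) +
        (op ψ1 ψ1).trace.re * (-h3 - h10 + (sb ^ 2 + sf ^ 2) * hq + hbf)
    have hprod : (op φl φl).trace.re * (op φy φy).trace.re =
        sa ^ 2 * se ^ 2 * (op ψ0 ψ0).trace.re ^ 2 +
        sb ^ 2 * sf ^ 2 * (op ψ1 ψ1).trace.re ^ 2 +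
        2 * ((sa * sf) * (sb * se)) * ((op ψ0 ψ0).trace.re * (op ψ1 ψ1).trace.re) -
        4 * ((sa * sf) * (sb * se)) * (op ψ0 ψ1).trace.re ^ 2 := by
      rw [tα, tχ]
      generalize (op ψ0 ψ0).trace.re = P0
      generalize (op ψ1 ψ1).trace.re = P1
      generalize (op ψ0 ψ1).trace.re = t
      linear_combination P0 ^ 2 * h12 + P1 ^ 2 * h13 +
        (l0 * y1 + l1 * y0 + 0) * P0 * P1 * h11 + (-2) * P0 * P1 * h14 + 4 * t ^ 2 * h14 +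
        2 * t * P0 * (l0 * y0) * h11 + 2 * t * P1 * (l1 * y1) * h11
    simp only [Fin.sum_univ_three, Matrix.cons_val_zero, Matrix.cons_val_one,
      Matrix.cons_val_two, Matrix.tail_cons, Matrix.head_cons]
    have hF : F (op φl φl).trace.re (op φx φx).trace.re (op φy φy).trace.re =
        Real.negMulLog (lamP (op φl φl).trace.re (op φx φx).trace.re (op φy φy).trace.re) +
        Real.negMulLog (lamM (op φl φl).trace.re (op φx φx).trace.re (op φy φy).trace.re) -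
        Real.negMulLog (op φl φl).trace.re - Real.negMulLog (op φx φx).trace.re -
        Real.negMulLog (op φy φy).trace.re := rfl
    have h2p := negMulLog_two hm₁ hm₂ (lamP_nonneg hα hβ hχ) (lamM_nonneg hα hβ hχ)
      (by rw [lam_add, hsum, ← htot]) (by rw [lam_mul hα hβ hχ, hprod]; exact hmul)
    rw [hF] at hlow
    linarith

end Vale.Agent.P358
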