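import Vale.Agent.P358.Gadc
import Vale.Agent.P358.LemK17

/-! # Reduction: Holevo information of `A_{γ,ν} ⊗ Ω` is at most the sum of Holevo informations -/

open Matrix
open scoped ComplexOrder

namespace Vale.Agent.P358

variable {d : Type*} [Fintype d] [DecidableEq d]

/-- Holevo information (in nats) of a family of (unnormalised) positive semidefinite matrices. -/
noncomputable def hInfo {ι : Type*} [Fintype ι] (Φ : Matrix d d ℂ →ₗ[ℂ] Matrix d d ℂ)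
    (σ : ι → Matrix d d ℂ) : ℝ :=
  vnS (∑ k, Φ (σ k)) - ∑ k, (vnS (Φ (σ k)) - Real.negMulLog (σ k).trace.re)

/-- finite superadditivity of `S(A) - η(tr A)` -/
theorem vnS_sum_le {ι : Type*} (s : Finset ι) (A : ι → Matrix d d ℂ)
    (hA : ∀ i ∈ s, (A i).PosSemidef) :
    ∑ i ∈ s, (vnS (A i) - Real.negMulLog (A i).trace.re) ≤
      vnS (∑ i ∈ s, A i) - Real.negMulLog (∑ i ∈ s, A i).trace.re := by
  classical
  induction s using Finset.induction_on with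
  | empty => simp [vnS_zero]
  | insert a s ha ih =>
    rw [Finset.sum_insert ha, Finset.sum_insert ha]
    have h1 := ih (fun i hi => hA i (Finset.mem_insert_of_mem hi))
    have h2 := vnS_add_le (hA a (Finset.mem_insert_self a s))
      (posSemidef_sum s (fun i hi => hA i (Finset.mem_insert_of_mem hi)))
    rw [trace_add, Complex.add_re]
    linarith

/-- every positive semidefinite matrix is a sum of rank one matrices -/
theorem exists_pure {M : Matrix d d ℂ} (hM : M.PosSemidef) :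
    ∃ ψ : d → (d → ℂ), M = ∑ j, op (ψ j) (ψ j) := by
  obtain ⟨V, e, hV1, hV2, hMV, -, he⟩ := exists_diag hM.1
  have he0 : ∀ i, 0 ≤ e i := by rw [he]; exact hM.eigenvalues_nonneg
  refine ⟨fun j => ((√(e j) : ℝ) : ℂ) • (fun x => V x j), ?_⟩
  rw [hMV]
  ext x y
  rw [Matrix.sum_apply, Matrix.mul_apply]
  refine Finset.sum_congr rfl fun j _ => ?_
  rw [Matrix.mul_diagonal, conjTranspose_apply, op_smul_left, op_smul_right, smul_smul]
  have h1 : ((√(e j) : ℝ) : ℂ) * star ((√(e j) : ℝ) : ℂ) = ((e j : ℝ) : ℂ) := by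
    rw [Complex.star_def, Complex.conj_ofReal, ← Complex.ofReal_mul, Real.mul_self_sqrt (he0 j)]
  rw [h1]
  simp [op, vecMulVec_apply]
  ring

theorem gExt_pure_psd {Ω : Matrix d d ℂ →ₗ[ℂ] Matrix d d ℂ} (h : IsCh Ω)
    {γ ν : ℝ} (hγ : 0 ≤ γ) (hγ1 : γ ≤ 1) (hν : 0 ≤ ν) (hν1 : ν ≤ 1) (ψ0 ψ1 : d → ℂ) :
    (gExt γ ν Ω (op (Sum.elim ψ0 ψ1) (Sum.elim ψ0 ψ1))).PosSemidef := by
  obtain ⟨x, hx, hx2⟩ : ∃ s : ℝ, 0 ≤ s ∧ s ^ 2 = 1 - ν :=
    ⟨√(1 - ν), Real.sqrt_nonneg _, Real.sq_sqrt (by linarith)⟩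
  obtain ⟨y, hy, hy2⟩ : ∃ s : ℝ, 0 ≤ s ∧ s ^ 2 = ν :=
    ⟨√ν, Real.sqrt_nonneg _, Real.sq_sqrt hν⟩
  obtain ⟨g, hg, hg2⟩ : ∃ s : ℝ, 0 ≤ s ∧ s ^ 2 = γ :=
    ⟨√γ, Real.sqrt_nonneg _, Real.sq_sqrt hγ⟩
  obtain ⟨c, hc, hc2, hcdef⟩ : ∃ c : ℝ, 0 ≤ c ∧ c ^ 2 = 1 - γ ∧ √(1 - γ) = c :=
    ⟨√(1 - γ), Real.sqrt_nonneg _, Real.sq_sqrt (by linarith), rfl⟩
  have h1 := h.block_posSemidef ((x : ℂ) • ψ0) (((x * c : ℝ) : ℂ) • ψ1)
  have h2 := h.block_posSemidef (((g * x : ℝ) : ℂ) • ψ1) 0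
  have h3 := h.block_posSemidef (((y * c : ℝ) : ℂ) • ψ0) ((y : ℂ) • ψ1)
  have h4 := h.block_posSemidef 0 (((g * y : ℝ) : ℂ) • ψ0)
  have h5 := ((h1.add h2).add h3).add h4
  rw [fromBlocks_add, fromBlocks_add, fromBlocks_add] at h5
  convert h5 using 1
  rw [op_elim, gExt_apply, hcdef]
  simp only [← h.map_conjTranspose, op_conjTranspose]
  simp only [op_smul_left, op_smul_right, map_smul, smul_smul]
  have z1 : ∀ v : d → ℂ, op v 0 = 0 := by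
    intro v; ext i j; simp [op, vecMulVec_apply]
  have z2 : ∀ v : d → ℂ, op 0 v = 0 := by
    intro v; ext i j; simp [op, vecMulVec_apply]
  simp only [z1, z2, map_zero, smul_zero, add_zero, zero_add]
  have k1 : (x : ℂ) ^ 2 = 1 - (y : ℂ) ^ 2 := by rw [← Complex.ofReal_pow, ← Complex.ofReal_pow, hx2, hy2]; push_cast; ring
  have k2 : ((ν : ℝ) : ℂ) = (y : ℂ) ^ 2 := by rw [← Complex.ofReal_pow, hy2]
  have k3 : (c : ℂ) ^ 2 = 1 - (g : ℂ) ^ 2 := by rw [← Complex.ofReal_pow, ← Complex.ofReal_pow, hc2, hg2]; push_cast; ring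
  have k4 : ((γ : ℝ) : ℂ) = (g : ℂ) ^ 2 := by rw [← Complex.ofReal_pow, hg2]
  congr 1
  · ext i j
    simp [k2, k4]
    linear_combination (-(Ω (op ψ0 ψ0) i j) * (1 : ℂ) - (Ω (op ψ1 ψ1) i j) * g ^ 2) * k1 -
      (Ω (op ψ0 ψ0) i j) * y ^ 2 * k3
  · ext i j
    simp
    linear_combination (-(c : ℂ) * (Ω (op ψ0 ψ1) i j)) * k1
  · ext i j
    simp
    linear_combination (-(c : ℂ) * (Ω (op ψ1 ψ0) i j)) * k1
  · ext i j
    simp [k2, k4]
    linear_combination (-(Ω (op ψ1 ψ1) i j) * c ^ 2) * k1 - (Ω (op ψ1 ψ1) i j) * (1 - y ^ 2) * k3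

/-- the one-qubit test vectors -/
noncomputable def tv (P0 P1 s : ℝ) : Fin 2 → ℂ := ![((√P0 : ℝ) : ℂ), ((s * √P1 : ℝ) : ℂ)]

theorem op_tv {P0 P1 s : ℝ} (h0 : 0 ≤ P0) (h1 : 0 ≤ P1) (hs : s ^ 2 = 1) :
    op (tv P0 P1 s) (tv P0 P1 s) = !![((P0 : ℝ) : ℂ), ((s * (√P0 * √P1) : ℝ) : ℂ);
      ((s * (√P0 * √P1) : ℝ) : ℂ), ((P1 : ℝ) : ℂ)] := by
  have e0 : ((√P0 : ℝ) : ℂ) * ((√P0 : ℝ) : ℂ) = P0 := by
    rw [← Complex.ofReal_mul, Real.mul_self_sqrt h0]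
  have e1 : ((√P1 : ℝ) : ℂ) * ((√P1 : ℝ) : ℂ) = P1 := by
    rw [← Complex.ofReal_mul, Real.mul_self_sqrt h1]
  have e2 : ((s : ℝ) : ℂ) ^ 2 = 1 := by exact_mod_cast hs
  ext i j
  fin_cases i <;> fin_cases j <;> simp [op, tv, vecMulVec_apply]
  · exact e0
  · ring
  · ring
  · linear_combination (s : ℂ) ^ 2 * e1 + (P1 : ℂ) * e2

theorem gadc_diag_entries (γ ν P0 P1 r : ℝ) :
    gadc γ ν !![((P0 : ℝ) : ℂ), ((r : ℝ) : ℂ); ((r : ℝ) : ℂ), ((P1 : ℝ) : ℂ)] =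
      !![(((1 - γ * ν) * P0 + γ * (1 - ν) * P1 : ℝ) : ℂ), ((√(1 - γ) * r : ℝ) : ℂ);
        ((√(1 - γ) * r : ℝ) : ℂ), ((γ * ν * P0 + (1 - γ * (1 - ν)) * P1 : ℝ) : ℂ)] := by
  ext i j
  fin_cases i <;> fin_cases j <;> simp [gadc, trace_fin_two] <;> ring

/-- the entropy of the output of a test vector -/
theorem exists_two_dim {γ ν : ℝ} (hγ1 : γ ≤ 1) (hN : IsCh (gadc γ ν)) {P0 P1 : ℝ} (h0 : 0 ≤ P0)
    (h1 : 0 ≤ P1) :
    ∃ m₁ m₂ : ℝ, 0 ≤ m₁ ∧ 0 ≤ m₂ ∧ m₁ + m₂ = P0 + P1 ∧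
      m₁ * m₂ = (1 - γ * ν) * (γ * ν) * P0 ^ 2 + (γ * (1 - ν)) * (1 - γ * (1 - ν)) * P1 ^ 2 +
        2 * ((γ * (1 - ν)) * (γ * ν)) * (P0 * P1) ∧
      ∀ s : ℝ, s ^ 2 = 1 → vnS (gadc γ ν (op (tv P0 P1 s) (tv P0 P1 s))) =
        Real.negMulLog m₁ + Real.negMulLog m₂ := by
  have hherm : ∀ s : ℝ, (gadc γ ν (op (tv P0 P1 s) (tv P0 P1 s))).PosSemidef := fun s =>
    hN.map_posSemidef (op_posSemidef _)
  have hval : ∀ s : ℝ, s ^ 2 = 1 → (gadc γ ν (op (tv P0 P1 s) (tv P0 P1 s))).trace.re = P0 + P1 ∧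
      (gadc γ ν (op (tv P0 P1 s) (tv P0 P1 s))).det.re =
        (1 - γ * ν) * (γ * ν) * P0 ^ 2 + (γ * (1 - ν)) * (1 - γ * (1 - ν)) * P1 ^ 2 +
        2 * ((γ * (1 - ν)) * (γ * ν)) * (P0 * P1) := by
    intro s hs
    rw [op_tv h0 h1 hs, gadc_diag_entries]
    constructor
    · rw [trace_fin_two_of, ← Complex.ofReal_add, Complex.ofReal_re]; ring
    · rw [det_fin_two_of, ← Complex.ofReal_mul, ← Complex.ofReal_mul, ← Complex.ofReal_sub,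
        Complex.ofReal_re]
      have q1 : √(1 - γ) ^ 2 = 1 - γ := Real.sq_sqrt (by linarith)
      have q2 : √P0 ^ 2 = P0 := Real.sq_sqrt h0
      have q3 : √P1 ^ 2 = P1 := Real.sq_sqrt h1
      have q4 : (√(1 - γ) * (s * (√P0 * √P1))) * (√(1 - γ) * (s * (√P0 * √P1))) =
          (1 - γ) * (P0 * P1) := by
        calc _ = √(1 - γ) ^ 2 * s ^ 2 * (√P0 ^ 2 * √P1 ^ 2) := by ring
          _ = _ := by rw [q1, q2, q3, hs]; ring
      rw [q4]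
      ring
  have hev := (hherm 1).eigenvalues_nonneg
  refine ⟨(hherm 1).1.eigenvalues 0, (hherm 1).1.eigenvalues 1, hev 0, hev 1, ?_, ?_, ?_⟩
  · rw [← (hval 1 (by norm_num)).1, (hherm 1).1.trace_eq_sum_eigenvalues, Fin.sum_univ_two]
    simp
  · rw [← (hval 1 (by norm_num)).2, (hherm 1).1.det_eq_prod_eigenvalues, Fin.prod_univ_two]
    simp
  · intro s hs
    refine vnS_fin_two (hherm s).1 ?_ ?_
    · rw [(hval s hs).1, ← (hval 1 (by norm_num)).1, (hherm 1).1.trace_eq_sum_eigenvalues,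
        Fin.sum_univ_two]
      simp
    · rw [(hval s hs).2, ← (hval 1 (by norm_num)).2, (hherm 1).1.det_eq_prod_eigenvalues,
        Fin.prod_univ_two]
      simp

theorem sum_op_elim {ι : Type*} [Fintype ι] (ψ0 ψ1 : ι → (d → ℂ)) :
    ∑ k, op (Sum.elim (ψ0 k) (ψ1 k)) (Sum.elim (ψ0 k) (ψ1 k)) =
      fromBlocks (∑ k, op (ψ0 k) (ψ0 k)) (∑ k, op (ψ0 k) (ψ1 k)) (∑ k, op (ψ1 k) (ψ0 k))
        (∑ k, op (ψ1 k) (ψ1 k)) := by
  simp only [op_elim]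
  ext i j
  rcases i with i | i <;> rcases j with j | j <;> simp [Matrix.sum_apply]

/-- upper bound for the output entropy of the average -/
theorem gExt_avg {Ω : Matrix d d ℂ →ₗ[ℂ] Matrix d d ℂ} (h : IsCh Ω)
    {γ ν : ℝ} (hγ : 0 ≤ γ) (hγ1 : γ ≤ 1) (hν : 0 ≤ ν) (hν1 : ν ≤ 1) {ι : Type*} [Fintype ι]
    (ψ0 ψ1 : ι → (d → ℂ)) {P0 P1 : ℝ} (hP0 : (∑ k, op (ψ0 k) (ψ0 k)).trace.re = P0)
    (hP1 : (∑ k, op (ψ1 k) (ψ1 k)).trace.re = P1) (htot : P0 + P1 = 1) :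
    vnS (∑ k, gExt γ ν Ω (op (Sum.elim (ψ0 k) (ψ1 k)) (Sum.elim (ψ0 k) (ψ1 k)))) ≤
      vnS (Ω (∑ k, (op (ψ0 k) (ψ0 k) + op (ψ1 k) (ψ1 k)))) +
      Real.negMulLog ((1 - γ * ν) * P0 + γ * (1 - ν) * P1) +
      Real.negMulLog (γ * ν * P0 + (1 - γ * (1 - ν)) * P1) := by
  have hpsd : (∑ k, gExt γ ν Ω (op (Sum.elim (ψ0 k) (ψ1 k)) (Sum.elim (ψ0 k) (ψ1 k)))).PosSemidef :=
    posSemidef_sum _ fun k _ => gExt_pure_psd h hγ hγ1 hν hν1 (ψ0 k) (ψ1 k)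
  rw [← map_sum, sum_op_elim, gExt_apply] at hpsd ⊢
  set R00 := ∑ k, op (ψ0 k) (ψ0 k) with hR00
  set R01 := ∑ k, op (ψ0 k) (ψ1 k) with hR01
  set R10 := ∑ k, op (ψ1 k) (ψ0 k) with hR10
  set R11 := ∑ k, op (ψ1 k) (ψ1 k) with hR11
  have hR : R01ᴴ = R10 := by
    rw [hR01, hR10, conjTranspose_sum]
    exact Finset.sum_congr rfl fun k _ => op_conjTranspose _ _
  have hoff : (((√(1 - γ) : ℝ) : ℂ) • Ω R01)ᴴ = ((√(1 - γ) : ℝ) : ℂ) • Ω R10 := by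
    rw [conjTranspose_smul, ← h.map_conjTranspose, hR, Complex.star_def, Complex.conj_ofReal]
  rw [← hoff] at hpsd ⊢
  have p00 : (Ω R00).PosSemidef := h.map_posSemidef (posSemidef_sum _ fun k _ => op_posSemidef _)
  have p11 : (Ω R11).PosSemidef := h.map_posSemidef (posSemidef_sum _ fun k _ => op_posSemidef _)
  have pa : 0 ≤ 1 - γ * ν := by nlinarith
  have pb : 0 ≤ γ * (1 - ν) := mul_nonneg hγ (by linarith)
  have pe : 0 ≤ γ * ν := mul_nonneg hγ hν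
  have pf : 0 ≤ 1 - γ * (1 - ν) := by nlinarith
  have hA : (((1 - γ * ν : ℝ) : ℂ) • Ω R00 + ((γ * (1 - ν) : ℝ) : ℂ) • Ω R11).PosSemidef :=
    (p00.smul (by exact_mod_cast pa)).add (p11.smul (by exact_mod_cast pb))
  have hD : (((γ * ν : ℝ) : ℂ) • Ω R00 + ((1 - γ * (1 - ν) : ℝ) : ℂ) • Ω R11).PosSemidef :=
    (p00.smul (by exact_mod_cast pe)).add (p11.smul (by exact_mod_cast pf))
  have h1 := vnS_pinch hpsd
  have h2 := vnS_add_le hA hD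
  have hsum : (((1 - γ * ν : ℝ) : ℂ) • Ω R00 + ((γ * (1 - ν) : ℝ) : ℂ) • Ω R11) +
      (((γ * ν : ℝ) : ℂ) • Ω R00 + ((1 - γ * (1 - ν) : ℝ) : ℂ) • Ω R11) =
      Ω (∑ k, (op (ψ0 k) (ψ0 k) + op (ψ1 k) (ψ1 k))) := by
    rw [Finset.sum_add_distrib, map_add, ← hR00, ← hR11]
    push_cast
    module
  have tA : (((1 - γ * ν : ℝ) : ℂ) • Ω R00 + ((γ * (1 - ν) : ℝ) : ℂ) • Ω R11).trace.re =
      (1 - γ * ν) * P0 + γ * (1 - ν) * P1 := by
    rw [trace_add, trace_smul, trace_smul, h.tp, h.tp, smul_eq_mul, smul_eq_mul, Complex.add_re,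
      Complex.re_ofReal_mul, Complex.re_ofReal_mul, hP0, hP1]
  have tD : (((γ * ν : ℝ) : ℂ) • Ω R00 + ((1 - γ * (1 - ν) : ℝ) : ℂ) • Ω R11).trace.re =
      γ * ν * P0 + (1 - γ * (1 - ν)) * P1 := by
    rw [trace_add, trace_smul, trace_smul, h.tp, h.tp, smul_eq_mul, smul_eq_mul, Complex.add_re,
      Complex.re_ofReal_mul, Complex.re_ofReal_mul, hP0, hP1]
  rw [hsum, tA, tD] at h2
  have h3 : (1 - γ * ν) * P0 + γ * (1 - ν) * P1 + (γ * ν * P0 + (1 - γ * (1 - ν)) * P1) = 1 := by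
    linear_combination htot
  rw [h3, Real.negMulLog_one] at h2
  linarith

/-- **Main step** (strong superadditivity): the Holevo information of a pure family under
`A_{γ,ν} ⊗ Ω` is at most the sum of two Holevo informations. -/
theorem hInfo_step {Ω : Matrix d d ℂ →ₗ[ℂ] Matrix d d ℂ} (h : IsCh Ω)
    {γ ν : ℝ} (hγ : 0 ≤ γ) (hγ1 : γ ≤ 1) (hν : 0 ≤ ν) (hν1 : ν ≤ 1) (hN : IsCh (gadc γ ν))
    {ι : Type*} [Fintype ι] (ψ0 ψ1 : ι → (d → ℂ))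
    (htot : ∑ k, ((op (ψ0 k) (ψ0 k)).trace.re + (op (ψ1 k) (ψ1 k)).trace.re) = 1) :
    ∃ φ : ι × (Bool × Fin 3) → (d → ℂ), ∃ χ : ι × Bool → (Fin 2 → ℂ),
      ∑ k, (op (φ k) (φ k)).trace.re = 1 ∧ ∑ k, (op (χ k) (χ k)).trace.re = 1 ∧
      hInfo (gExt γ ν Ω) (fun k => op (Sum.elim (ψ0 k) (ψ1 k)) (Sum.elim (ψ0 k) (ψ1 k))) ≤
        hInfo Ω (fun k => op (φ k) (φ k)) + hInfo (gadc γ ν) (fun k => op (χ k) (χ k)) := by
  have hex := fun k => exists_two_dim hγ1 hN (op_trace_nonneg (ψ0 k)) (op_trace_nonneg (ψ1 k))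
  choose m₁ m₂ hm₁ hm₂ hms hmp hmS using hex
  have hpure := fun k => gExt_pure (lemK17 d) h hγ hγ1 hν hν1 (ψ0 k) (ψ1 k) (hm₁ k) (hm₂ k)
    (hms k) (hmp k)
  choose φ hφ hφb using hpure
  obtain ⟨s, hs, hs2⟩ : ∃ s : ℝ, 0 ≤ s ∧ s ^ 2 = 1 / 2 :=
    ⟨√(1 / 2), Real.sqrt_nonneg _, Real.sq_sqrt (by norm_num)⟩
  set P0 : ι → ℝ := fun k => (op (ψ0 k) (ψ0 k)).trace.re with hP0
  set P1 : ι → ℝ := fun k => (op (ψ1 k) (ψ1 k)).trace.re with hP1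
  have hP0n : ∀ k, 0 ≤ P0 k := fun k => op_trace_nonneg (ψ0 k)
  have hP1n : ∀ k, 0 ≤ P1 k := fun k => op_trace_nonneg (ψ1 k)
  let sg : Bool → ℝ := fun b => if b then 1 else -1
  have hsg : ∀ b, sg b ^ 2 = 1 := by intro b; cases b <;> simp [sg]
  let χ : ι × Bool → (Fin 2 → ℂ) := fun k => (s : ℂ) • tv (P0 k.1) (P1 k.1) (sg k.2)
  have hop : ∀ k, op (χ k) (χ k) = ((1 / 2 : ℝ) : ℂ) •
      op (tv (P0 k.1) (P1 k.1) (sg k.2)) (tv (P0 k.1) (P1 k.1) (sg k.2)) := by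
    intro k
    simp only [χ]
    rw [op_smul_left, op_smul_right, smul_smul, ← hs2]
    congr 1
    simp
    ring
  have htrtv : ∀ k b, (op (tv (P0 k) (P1 k) (sg b)) (tv (P0 k) (P1 k) (sg b))).trace.re =
      P0 k + P1 k := by
    intro k b
    rw [op_tv (hP0n k) (hP1n k) (hsg b), trace_fin_two_of, ← Complex.ofReal_add, Complex.ofReal_re]
  refine ⟨fun k => φ k.1 k.2, χ, ?_, ?_, ?_⟩
  · rw [Fintype.sum_prod_type]
    have : ∀ k, ∑ l, (op (φ k l) (φ k l)).trace.re = P0 k + P1 k := by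
      intro k
      rw [← Complex.re_sum, ← trace_sum, hφ k, trace_add, Complex.add_re]
    simp only [this]
    exact htot
  · have h1 : ∀ k, (op (χ k) (χ k)).trace.re = (1 / 2) * (P0 k.1 + P1 k.1) := by
      intro k
      rw [hop, trace_smul, smul_eq_mul, Complex.re_ofReal_mul, htrtv]
    simp only [h1]
    rw [Fintype.sum_prod_type]
    simp only [Fintype.sum_bool]
    refine Eq.trans ?_ htot
    exact Finset.sum_congr rfl fun k _ => by ring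
  · -- the three pieces
    have hP0s : (∑ k, op (ψ0 k) (ψ0 k)).trace.re = ∑ k, P0 k := by
      rw [trace_sum, Complex.re_sum]
    have hP1s : (∑ k, op (ψ1 k) (ψ1 k)).trace.re = ∑ k, P1 k := by
      rw [trace_sum, Complex.re_sum]
    have htot' : ∑ k, P0 k + ∑ k, P1 k = 1 := by
      rw [← Finset.sum_add_distrib]; exact htot
    have havg := gExt_avg h hγ hγ1 hν hν1 ψ0 ψ1 hP0s hP1s htot'
    -- the sum over the family of vectors `φ`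
    have hsumφ : ∑ k : ι × (Bool × Fin 3), Ω (op (φ k.1 k.2) (φ k.1 k.2)) =
        Ω (∑ k, (op (ψ0 k) (ψ0 k) + op (ψ1 k) (ψ1 k))) := by
      rw [← map_sum, Fintype.sum_prod_type]
      congr 1
      exact Finset.sum_congr rfl fun k _ => hφ k
    -- the one-qubit part
    have hsumχ : ∑ k, gadc γ ν (op (χ k) (χ k)) =
        diagonal (fun i => ((![(1 - γ * ν) * (∑ k, P0 k) + γ * (1 - ν) * (∑ k, P1 k),
          γ * ν * (∑ k, P0 k) + (1 - γ * (1 - ν)) * (∑ k, P1 k)] i : ℝ) : ℂ)) := by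
      rw [← map_sum]
      have e1 : ∑ k, op (χ k) (χ k) =
          !![((∑ k, P0 k : ℝ) : ℂ), ((0 : ℝ) : ℂ); ((0 : ℝ) : ℂ), ((∑ k, P1 k : ℝ) : ℂ)] := by
        simp only [hop]
        rw [Fintype.sum_prod_type]
        simp only [Fintype.sum_bool]
        have e2 : ∀ k, ((1 / 2 : ℝ) : ℂ) • op (tv (P0 k) (P1 k) (sg true)) (tv (P0 k) (P1 k)
            (sg true)) + ((1 / 2 : ℝ) : ℂ) • op (tv (P0 k) (P1 k) (sg false)) (tv (P0 k) (P1 k)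
            (sg false)) = !![((P0 k : ℝ) : ℂ), ((0 : ℝ) : ℂ); ((0 : ℝ) : ℂ), ((P1 k : ℝ) : ℂ)] := by
          intro k
          rw [op_tv (hP0n k) (hP1n k) (hsg true), op_tv (hP0n k) (hP1n k) (hsg false)]
          ext i j
          fin_cases i <;> fin_cases j <;> simp [sg] <;> ring
        simp only [e2]
        ext i j
        rw [Matrix.sum_apply]
        fin_cases i <;> fin_cases j <;> simp
      rw [e1, gadc_diag_entries]
      ext i j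
      fin_cases i <;> fin_cases j <;> simp [diagonal_apply]
    have hSχ : vnS (∑ k, gadc γ ν (op (χ k) (χ k))) =
        Real.negMulLog ((1 - γ * ν) * (∑ k, P0 k) + γ * (1 - ν) * (∑ k, P1 k)) +
        Real.negMulLog (γ * ν * (∑ k, P0 k) + (1 - γ * (1 - ν)) * (∑ k, P1 k)) := by
      rw [hsumχ, vnS_diagonal, Fin.sum_univ_two]
      simp
    have hχterm : ∀ k, vnS (gadc γ ν (op (χ k) (χ k))) - Real.negMulLog (op (χ k) (χ k)).trace.re =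
        (1 / 2) * (Real.negMulLog (m₁ k.1) + Real.negMulLog (m₂ k.1) -
          Real.negMulLog (P0 k.1 + P1 k.1)) := by
      intro k
      rw [hop, map_smul, vnS_smul (hN.map_posSemidef (op_posSemidef _)).1, hN.tp, trace_smul,
        smul_eq_mul, Complex.re_ofReal_mul, htrtv, hmS k.1 _ (hsg k.2), Real.negMulLog_mul]
      ring
    have hχsum : ∑ k, (vnS (gadc γ ν (op (χ k) (χ k))) -
        Real.negMulLog (op (χ k) (χ k)).trace.re) =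
        ∑ k, (Real.negMulLog (m₁ k) + Real.negMulLog (m₂ k) - Real.negMulLog (P0 k + P1 k)) := by
      simp only [hχterm]
      rw [Fintype.sum_prod_type]
      simp only [Fintype.sum_bool]
      exact Finset.sum_congr rfl fun k _ => by ring
    have hψterm : ∀ k, Real.negMulLog (op (Sum.elim (ψ0 k) (ψ1 k))
        (Sum.elim (ψ0 k) (ψ1 k))).trace.re = Real.negMulLog (P0 k + P1 k) := by
      intro k
      have : (op (Sum.elim (ψ0 k) (ψ1 k)) (Sum.elim (ψ0 k) (ψ1 k))).trace =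
          (op (ψ0 k) (ψ0 k)).trace + (op (ψ1 k) (ψ1 k)).trace := by
        rw [op_elim]; simp [trace]
      rw [this, Complex.add_re]
    have hall : ∑ k, (∑ l, (vnS (Ω (op (φ k l) (φ k l))) -
        Real.negMulLog (op (φ k l) (φ k l)).trace.re) +
        (Real.negMulLog (m₁ k) + Real.negMulLog (m₂ k))) ≤
        ∑ k, vnS (gExt γ ν Ω (op (Sum.elim (ψ0 k) (ψ1 k)) (Sum.elim (ψ0 k) (ψ1 k)))) :=
      Finset.sum_le_sum fun k _ => hφb k
    unfold hInfo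
    rw [hSχ, hχsum, hsumφ, Fintype.sum_prod_type (f := fun k : ι × (Bool × Fin 3) =>
      (vnS (Ω (op (φ k.1 k.2) (φ k.1 k.2))) - Real.negMulLog (op (φ k.1 k.2) (φ k.1 k.2)).trace.re))]
    simp only [hψterm]
    rw [Finset.sum_add_distrib] at hall
    rw [Finset.sum_sub_distrib, Finset.sum_sub_distrib]
    linarith

end Vale.Agent.P358
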