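import Mathlib

/-! # P358: scalar integral representation of the entropy function and the scalar
superadditivity lemma. -/

open Real Set Filter Topology MeasureTheory

namespace Vale.Agent.P358

/-- integrand of the representation `η(x) + x = ∫ (log (1+x/l) - x/(1+l))` -/
noncomputable def kern (x l : ℝ) : ℝ := Real.log (1 + x / l) - x / (1 + l)

lemma kern_zero (l : ℝ) : kern 0 l = 0 := by simp [kern]

section pos
variable {x : ℝ}

private lemma g1_nonneg (hx : 0 < x) {l : ℝ} (hl : 0 < l) :
    0 ≤ Real.log (1 + x / l) - x / (l + x) := by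
  have h1 : (0:ℝ) < 1 + x / l := by positivity
  have h2 := Real.one_sub_inv_le_log_of_pos h1
  have h3 : 1 - (1 + x / l)⁻¹ = x / (l + x) := by field_simp; ring
  linarith [h3 ▸ h2]

private lemma g1_deriv (hx : 0 < x) {l : ℝ} (hl : 0 < l) :
    HasDerivAt (fun l : ℝ => l * Real.log (l + x) + Real.negMulLog l)
      (Real.log (1 + x / l) - x / (l + x)) l := by
  have hlx : l + x ≠ 0 := by positivity
  have h1 : HasDerivAt (fun l : ℝ => Real.log (l + x)) (1 / (l + x)) l := by
    have := ((hasDerivAt_id l).add_const x).log hlx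
    simpa using this
  have h2 := (hasDerivAt_id l).mul h1
  have h3 := h2.add (Real.hasDerivAt_negMulLog hl.ne')
  refine h3.congr_deriv ?_
  rw [id]
  have : Real.log (1 + x / l) = Real.log (l + x) - Real.log l := by
    rw [← Real.log_div hlx hl.ne']
    congr 1
    field_simp
  rw [this]
  field_simp
  ring

private lemma g1_cont (hx : 0 < x) :
    ContinuousWithinAt (fun l : ℝ => l * Real.log (l + x) + Real.negMulLog l) (Ici 0) 0 := by
  have h1 : ContinuousAt (fun l : ℝ => Real.log (l + x)) 0 := by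
    apply ContinuousAt.log
    · fun_prop
    · simpa using hx.ne'
  exact ((continuousAt_id.mul h1).add Real.continuous_negMulLog.continuousAt).continuousWithinAt

private lemma g1_lim (hx : 0 < x) :
    Tendsto (fun l : ℝ => l * Real.log (l + x) + Real.negMulLog l) atTop (𝓝 x) := by
  have h := Real.tendsto_mul_log_one_add_div_atTop x
  refine h.congr' ?_
  filter_upwards [eventually_gt_atTop 0] with l hl
  have hlx : l + x ≠ 0 := by positivity
  have : Real.log (1 + x / l) = Real.log (l + x) - Real.log l := by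
    rw [← Real.log_div hlx hl.ne']
    congr 1
    field_simp
  rw [this, Real.negMulLog]
  ring

private lemma g2_deriv (hx : 0 < x) {l : ℝ} (hl : 0 ≤ l) :
    HasDerivAt (fun l : ℝ => x * (Real.log (l + x) - Real.log (1 + l)))
      (x / (l + x) - x / (1 + l)) l := by
  have hlx : l + x ≠ 0 := by positivity
  have hl1 : 1 + l ≠ 0 := by positivity
  have h1 : HasDerivAt (fun l : ℝ => Real.log (l + x)) (1 / (l + x)) l := by
    have := ((hasDerivAt_id l).add_const x).log hlx
    simpa using this
  have h2 : HasDerivAt (fun l : ℝ => Real.log (1 + l)) (1 / (1 + l)) l := by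
    have := ((hasDerivAt_id l).const_add 1).log hl1
    simpa using this
  refine ((h1.sub h2).const_mul x).congr_deriv ?_
  ring

private lemma g2_lim (hx : 0 < x) :
    Tendsto (fun l : ℝ => x * (Real.log (l + x) - Real.log (1 + l))) atTop (𝓝 0) := by
  have h : Tendsto (fun l : ℝ => 1 + (x - 1) / (1 + l)) atTop (𝓝 (1 + 0)) := by
    apply Tendsto.add tendsto_const_nhds
    apply Tendsto.div_atTop tendsto_const_nhds
    exact tendsto_atTop_add_const_left _ _ tendsto_id
  rw [add_zero] at h
  have h2 := (h.log one_ne_zero).const_mul x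
  rw [Real.log_one, mul_zero] at h2
  refine h2.congr' ?_
  filter_upwards [eventually_gt_atTop 0] with l hl
  have hlx : l + x ≠ 0 := by positivity
  have hl1 : 1 + l ≠ 0 := by positivity
  rw [← Real.log_div hlx hl1]
  congr 2
  field_simp
  ring

private lemma g2_int (hx : 0 < x) :
    IntegrableOn (fun l : ℝ => x / (l + x) - x / (1 + l)) (Ioi 0) ∧
      ∫ l in Ioi (0:ℝ), (x / (l + x) - x / (1 + l)) = Real.negMulLog x := by
  have hval : (0:ℝ) - (fun l : ℝ => x * (Real.log (l + x) - Real.log (1 + l))) 0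
      = Real.negMulLog x := by
    simp [Real.negMulLog]
  rcases le_total x 1 with h | h
  · have hs : ∀ l ∈ Ioi (0:ℝ), 0 ≤ x / (l + x) - x / (1 + l) := by
      intro l hl
      have hl' : (0:ℝ) < l := hl
      rw [sub_nonneg]
      apply div_le_div_of_nonneg_left hx.le (by positivity) (by linarith)
    refine ⟨integrableOn_Ioi_deriv_of_nonneg' (fun l hl => g2_deriv hx hl) hs (g2_lim hx), ?_⟩
    rw [integral_Ioi_of_hasDerivAt_of_nonneg' (fun l hl => g2_deriv hx hl) hs (g2_lim hx)]
    exact hval
  · have hs : ∀ l ∈ Ioi (0:ℝ), x / (l + x) - x / (1 + l) ≤ 0 := by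
      intro l hl
      have hl' : (0:ℝ) < l := hl
      rw [sub_nonpos]
      apply div_le_div_of_nonneg_left hx.le (by positivity) (by linarith)
    refine ⟨integrableOn_Ioi_deriv_of_nonpos' (fun l hl => g2_deriv hx hl) hs (g2_lim hx), ?_⟩
    rw [integral_Ioi_of_hasDerivAt_of_nonpos' (fun l hl => g2_deriv hx hl) hs (g2_lim hx)]
    exact hval

private lemma g1_int (hx : 0 < x) :
    IntegrableOn (fun l : ℝ => Real.log (1 + x / l) - x / (l + x)) (Ioi 0) ∧
      ∫ l in Ioi (0:ℝ), (Real.log (1 + x / l) - x / (l + x)) = x := by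
  have hs : ∀ l ∈ Ioi (0:ℝ), 0 ≤ Real.log (1 + x / l) - x / (l + x) :=
    fun l hl => g1_nonneg hx hl
  refine ⟨integrableOn_Ioi_deriv_of_nonneg (g1_cont hx) (fun l hl => g1_deriv hx hl) hs
    (g1_lim hx), ?_⟩
  rw [integral_Ioi_of_hasDerivAt_of_nonneg (g1_cont hx) (fun l hl => g1_deriv hx hl) hs
    (g1_lim hx)]
  simp [Real.negMulLog]

end pos

/-- integrability of the kernel -/
theorem kern_integrableOn {x : ℝ} (hx : 0 ≤ x) : IntegrableOn (kern x) (Ioi 0) := by
  rcases hx.eq_or_lt with rfl | hx
  · have : kern 0 = fun _ => 0 := by funext l; exact kern_zero l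
    rw [this]
    exact integrableOn_zero
  · have := (g1_int hx).1.add (g2_int hx).1
    refine this.congr_fun ?_ measurableSet_Ioi
    intro l _
    simp only [kern, Pi.add_apply]
    ring

/-- `η(x) + x = ∫₀^∞ (log(1+x/l) - x/(1+l)) dl` -/
theorem integral_kern {x : ℝ} (hx : 0 ≤ x) :
    ∫ l in Ioi (0:ℝ), kern x l = Real.negMulLog x + x := by
  rcases hx.eq_or_lt with rfl | hx
  · simp [kern_zero]
  · have h := integral_add (g1_int hx).1 (g2_int hx).1
    have h2 : ∫ l in Ioi (0:ℝ), kern x l =
        ∫ l in Ioi (0:ℝ), ((Real.log (1 + x / l) - x / (l + x)) +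
          (x / (l + x) - x / (1 + l))) := by
      congr 1
      funext l
      simp only [kern]
      ring
    rw [h2, h, (g1_int hx).2, (g2_int hx).2]
    ring

/-! ## the scalar function -/

/-- larger root of `t² - (a+b+c) t + a c` -/
noncomputable def lamP (a b c : ℝ) : ℝ := ((a + b + c) + √((a + b + c) ^ 2 - 4 * (a * c))) / 2
/-- smaller root of `t² - (a+b+c) t + a c` -/
noncomputable def lamM (a b c : ℝ) : ℝ := ((a + b + c) - √((a + b + c) ^ 2 - 4 * (a * c))) / 2

/-- entropy gain function -/
noncomputable def F (a b c : ℝ) : ℝ :=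
  Real.negMulLog (lamP a b c) + Real.negMulLog (lamM a b c)
    - Real.negMulLog a - Real.negMulLog b - Real.negMulLog c

section lam
variable {a b c : ℝ}

lemma disc_nonneg (ha : 0 ≤ a) (hb : 0 ≤ b) (hc : 0 ≤ c) :
    0 ≤ (a + b + c) ^ 2 - 4 * (a * c) := by
  nlinarith [sq_nonneg (a - c), mul_nonneg ha hb, mul_nonneg hb hc, sq_nonneg b]

lemma lam_add (a b c : ℝ) : lamP a b c + lamM a b c = a + b + c := by
  unfold lamP lamM; ring

lemma lam_mul (ha : 0 ≤ a) (hb : 0 ≤ b) (hc : 0 ≤ c) : lamP a b c * lamM a b c = a * c := by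
  unfold lamP lamM
  have := Real.mul_self_sqrt (disc_nonneg ha hb hc)
  nlinarith

lemma lamP_nonneg (ha : 0 ≤ a) (hb : 0 ≤ b) (hc : 0 ≤ c) : 0 ≤ lamP a b c := by
  unfold lamP; positivity

lemma lamM_nonneg (ha : 0 ≤ a) (hb : 0 ≤ b) (hc : 0 ≤ c) : 0 ≤ lamM a b c := by
  unfold lamM
  have h : √((a + b + c) ^ 2 - 4 * (a * c)) ≤ a + b + c := by
    apply Real.sqrt_le_iff.mpr
    constructor
    · positivity
    · nlinarith [mul_nonneg ha hc]
  linarith

/-- the integrand of the scalar function -/
noncomputable def kernF (a b c l : ℝ) : ℝ :=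
  Real.log (1 + l * b / ((l + a) * (l + c))) - Real.log (1 + b / l)

lemma kernF_eq (ha : 0 ≤ a) (hb : 0 ≤ b) (hc : 0 ≤ c) {l : ℝ} (hl : 0 < l) :
    kernF a b c l = kern (lamP a b c) l + kern (lamM a b c) l - kern a l - kern b l - kern c l := by
  have hP := lamP_nonneg ha hb hc
  have hM := lamM_nonneg ha hb hc
  have hadd := lam_add a b c
  have hmul := lam_mul ha hb hc
  have e1 : Real.log (1 + l * b / ((l + a) * (l + c))) =
      Real.log (1 + lamP a b c / l) + Real.log (1 + lamM a b c / l)
        - Real.log (1 + a / l) - Real.log (1 + c / l) := by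
    have h1 : (0:ℝ) < 1 + lamP a b c / l := by positivity
    have h2 : (0:ℝ) < 1 + lamM a b c / l := by positivity
    have h3 : (0:ℝ) < 1 + a / l := by positivity
    have h4 : (0:ℝ) < 1 + c / l := by positivity
    rw [← Real.log_mul h1.ne' h2.ne', ← Real.log_div (mul_pos h1 h2).ne' h3.ne',
      ← Real.log_div (div_pos (mul_pos h1 h2) h3).ne' h4.ne']
    congr 1
    have h5 : (1 + lamP a b c / l) * (1 + lamM a b c / l) =
        (l ^ 2 + (a + b + c) * l + a * c) / l ^ 2 := by
      rw [← hadd, ← hmul]; field_simp; ring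
    rw [h5]
    field_simp
    ring
  unfold kernF
  rw [e1]
  simp only [kern]
  have : lamP a b c / (1 + l) + lamM a b c / (1 + l) = a / (1 + l) + b / (1 + l) + c / (1 + l) := by
    rw [← add_div, ← add_div, ← add_div, hadd]
  linarith

theorem kernF_integrableOn (ha : 0 ≤ a) (hb : 0 ≤ b) (hc : 0 ≤ c) :
    IntegrableOn (kernF a b c) (Ioi 0) := by
  have h := ((((kern_integrableOn (lamP_nonneg ha hb hc)).add
    (kern_integrableOn (lamM_nonneg ha hb hc))).sub (kern_integrableOn ha)).sub
    (kern_integrableOn hb)).sub (kern_integrableOn hc)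
  refine h.congr_fun ?_ measurableSet_Ioi
  intro l hl
  exact (kernF_eq ha hb hc hl).symm

theorem integral_kernF (ha : 0 ≤ a) (hb : 0 ≤ b) (hc : 0 ≤ c) :
    ∫ l in Ioi (0:ℝ), kernF a b c l = F a b c := by
  have iP := kern_integrableOn (lamP_nonneg ha hb hc)
  have iM := kern_integrableOn (lamM_nonneg ha hb hc)
  have ia := kern_integrableOn ha
  have ib := kern_integrableOn hb
  have ic := kern_integrableOn hc
  rw [setIntegral_congr_fun measurableSet_Ioi (fun l hl => kernF_eq ha hb hc hl)]
  change ∫ l in Ioi (0:ℝ), ((((kern (lamP a b c) + kern (lamM a b c)) - kern a) - kern b)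
    - kern c) l = _
  rw [integral_sub' (((iP.add iM).sub ia).sub ib) ic, integral_sub' ((iP.add iM).sub ia) ib,
    integral_sub' (iP.add iM) ia, integral_add' iP iM, integral_kern (lamP_nonneg ha hb hc),
    integral_kern (lamM_nonneg ha hb hc), integral_kern ha, integral_kern hb, integral_kern hc]
  have := lam_add a b c
  unfold F
  linarith

end lam

end Vale.Agent.P358
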