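import Vale.Agent.P358.Defs
import Vale.Agent.P358.Pure
import Vale.Agent.P358.Jensen
import Vale.Agent.P358.Roots

/-! # P358: product ensembles, reindexing, boundedness of the Holevo information. -/

open Matrix
open scoped ComplexOrder Kronecker

namespace Vale.Agent.P358

variable {d d' : Type*} [Fintype d] [DecidableEq d] [Fintype d'] [DecidableEq d']

lemma entropy_eq_vnS (ρ : Matrix d d ℂ) : entropy ρ = vnS ρ / Real.log 2 := by
  unfold entropy vnS
  split_ifs with h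
  · rw [Finset.sum_div]
    refine Finset.sum_congr rfl (fun i _ => ?_)
    rw [Real.negMulLog, Real.logb]
    ring
  · simp

lemma entropy_submatrix (e : d' ≃ d) (ρ : Matrix d d ℂ) :
    entropy (ρ.submatrix e e) = entropy ρ := by
  rw [entropy_eq_vnS, entropy_eq_vnS, vnS_submatrix]

lemma vnS_kronecker {A : Matrix d d ℂ} {B : Matrix d' d' ℂ} (hA : A.IsHermitian)
    (hB : B.IsHermitian) : vnS (A ⊗ₖ B) = B.trace.re * vnS A + A.trace.re * vnS B := by
  have hAB : (A ⊗ₖ B).IsHermitian := by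
    unfold Matrix.IsHermitian
    rw [conjTranspose_kronecker, hA.eq, hB.eq]
  have h1 : vnS (A ⊗ₖ B) = rootS (A ⊗ₖ B) := vnS_eq_roots hAB
  have h2 : vnS A = rootS A := vnS_eq_roots hA
  have h3 : vnS B = rootS B := vnS_eq_roots hB
  rw [h1, h2, h3]
  exact rootS_kronecker hA hB

lemma entropy_kronecker {A : Matrix d d ℂ} {B : Matrix d' d' ℂ} (hA : IsState A)
    (hB : IsState B) : entropy (A ⊗ₖ B) = entropy A + entropy B := by
  rw [entropy_eq_vnS, entropy_eq_vnS, entropy_eq_vnS, vnS_kronecker hA.1.1 hB.1.1, hA.2, hB.2]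
  simp only [Complex.one_re, one_mul]
  ring

lemma IsState.submatrix {ρ : Matrix d d ℂ} (h : IsState ρ) (e : d' ≃ d) :
    IsState (ρ.submatrix e e) := by
  refine ⟨h.1.submatrix e, ?_⟩
  have : (ρ.submatrix e e).trace = ρ.trace := by
    unfold Matrix.trace
    simp only [Matrix.diag_apply, Matrix.submatrix_apply]
    exact Equiv.sum_comp e (fun i => ρ i i)
  rw [this]; exact h.2

lemma IsState.kronecker {A : Matrix d d ℂ} {B : Matrix d' d' ℂ} (hA : IsState A)
    (hB : IsState B) : IsState (A ⊗ₖ B) := by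
  refine ⟨hA.1.kronecker hB.1, ?_⟩
  rw [Matrix.trace_kronecker, hA.2, hB.2, one_mul]

lemma IsCh.isState {Φ : Matrix d d ℂ →ₗ[ℂ] Matrix d d ℂ} (h : IsCh Φ) {ρ : Matrix d d ℂ}
    (hρ : IsState ρ) : IsState (Φ ρ) :=
  ⟨h.map_posSemidef hρ.1, by rw [h.tp]; exact hρ.2⟩

lemma isState_sum {k : ℕ} {q : Fin k → ℝ} (hq : ∀ a, 0 ≤ q a) (hq1 : ∑ a, q a = 1)
    {ρ : Fin k → Matrix d d ℂ} (hρ : ∀ a, IsState (ρ a)) :
    IsState (∑ a, (q a : ℂ) • ρ a) := by
  refine ⟨psd_sum hq (fun a => (hρ a).1), ?_⟩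
  rw [Matrix.trace_sum]
  simp only [Matrix.trace_smul, (hρ _).2, smul_eq_mul, mul_one]
  rw [← Complex.ofReal_sum, hq1, Complex.ofReal_one]

/-- Holevo values do not change under reindexing -/
theorem holevoValues_reindex (e : d' ≃ d) {Φ : Matrix d d ℂ →ₗ[ℂ] Matrix d d ℂ}
    {Φ' : Matrix d' d' ℂ →ₗ[ℂ] Matrix d' d' ℂ}
    (h : ∀ A : Matrix d d ℂ, Φ' (A.submatrix e e) = (Φ A).submatrix e e) :
    holevoValues Φ' = holevoValues Φ := by
  have hsub : ∀ {k : ℕ} (q : Fin k → ℝ) (σ : Fin k → Matrix d d ℂ),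
      ∑ a, (q a : ℂ) • (σ a).submatrix e e = (∑ a, (q a : ℂ) • σ a).submatrix e e := by
    intro k q σ
    ext i j
    simp [Matrix.sum_apply]
  have hval : ∀ {k : ℕ} (q : Fin k → ℝ) (σ : Fin k → Matrix d d ℂ),
      entropy (∑ a, (q a : ℂ) • Φ' ((σ a).submatrix e e)) -
        ∑ a, q a * entropy (Φ' ((σ a).submatrix e e)) =
      entropy (∑ a, (q a : ℂ) • Φ (σ a)) - ∑ a, q a * entropy (Φ (σ a)) := by
    intro k q σ
    simp only [h, hsub, entropy_submatrix]
  ext v
  constructor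
  · rintro ⟨k, q, ρ, hq, hq1, hρ, rfl⟩
    refine ⟨k, q, fun a => (ρ a).submatrix e.symm e.symm, hq, hq1,
      fun a => (hρ a).submatrix e.symm, ?_⟩
    rw [← hval]
    simp only [Matrix.submatrix_submatrix, Equiv.symm_comp_self, Matrix.submatrix_id_id]
  · rintro ⟨k, q, ρ, hq, hq1, hρ, rfl⟩
    refine ⟨k, q, fun a => (ρ a).submatrix e e, hq, hq1, fun a => (hρ a).submatrix e, ?_⟩
    rw [hval]

/-- any matrix is the sum of its entries times matrix units, applied to a linear map -/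
lemma map_eq_sum (N : Matrix (Fin 2) (Fin 2) ℂ →ₗ[ℂ] Matrix (Fin 2) (Fin 2) ℂ)
    (A : Matrix (Fin 2) (Fin 2) ℂ) (i j : Fin 2) :
    N A i j = ∑ i', ∑ j', N (Matrix.single i' j' 1) i j * A i' j' := by
  conv_lhs => rw [Matrix.matrix_eq_sum_single A]
  simp only [map_sum, Matrix.sum_apply]
  refine Finset.sum_congr rfl (fun i' _ => Finset.sum_congr rfl (fun j' _ => ?_))
  have : Matrix.single i' j' (A i' j') = (A i' j') • (Matrix.single i' j' (1:ℂ)) := by
    rw [Matrix.smul_single, smul_eq_mul, mul_one]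
  rw [this, map_smul, Matrix.smul_apply, smul_eq_mul, mul_comm]

/-- `χ`-values of the one-fold power -/
theorem holevoValues_tensorPower_one
    (N : Matrix (Fin 2) (Fin 2) ℂ →ₗ[ℂ] Matrix (Fin 2) (Fin 2) ℂ) :
    holevoValues (tensorPower N 1) = holevoValues N := by
  apply holevoValues_reindex (Equiv.funUnique (Fin 1) (Fin 2))
  intro A
  ext x y
  simp only [tensorPower, LinearMap.coe_mk, AddHom.coe_mk, Matrix.of_apply,
    Matrix.submatrix_apply, Equiv.funUnique_apply, Finset.univ_unique, Fin.default_eq_zero,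
    Finset.prod_singleton]
  rw [map_eq_sum N A]
  rw [← Equiv.sum_comp (Equiv.funUnique (Fin 1) (Fin 2)).symm]
  refine Finset.sum_congr rfl (fun i' _ => ?_)
  rw [← Equiv.sum_comp (Equiv.funUnique (Fin 1) (Fin 2)).symm]
  refine Finset.sum_congr rfl (fun j' _ => ?_)
  rfl

/-- splitting off the first qubit -/
def splitEquiv (n : ℕ) : (Fin (n + 1) → Fin 2) ≃ Fin 2 × (Fin n → Fin 2) :=
  (Fin.consEquiv (fun _ => Fin 2)).symm

lemma splitEquiv_symm_apply (n : ℕ) (p : Fin 2 × (Fin n → Fin 2)) :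
    (splitEquiv n).symm p = Fin.cons p.1 p.2 := rfl

lemma splitEquiv_cons (n : ℕ) (i : Fin 2) (x : Fin n → Fin 2) :
    splitEquiv n (Fin.cons i x : Fin (n + 1) → Fin 2) = (i, x) :=
  (splitEquiv n).apply_symm_apply (i, x)

/-- the tensor power of a product -/
theorem tensorPower_kronecker (N : Matrix (Fin 2) (Fin 2) ℂ →ₗ[ℂ] Matrix (Fin 2) (Fin 2) ℂ)
    (n : ℕ) (A : Matrix (Fin 2) (Fin 2) ℂ) (B : Matrix (Fin n → Fin 2) (Fin n → Fin 2) ℂ) :
    tensorPower N (n + 1) ((A ⊗ₖ B).submatrix (splitEquiv n) (splitEquiv n)) =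
      (N A ⊗ₖ tensorPower N n B).submatrix (splitEquiv n) (splitEquiv n) := by
  ext x y
  obtain ⟨⟨i, x0⟩, rfl⟩ := (splitEquiv n).symm.surjective x
  obtain ⟨⟨j, y0⟩, rfl⟩ := (splitEquiv n).symm.surjective y
  simp only [tensorPower, LinearMap.coe_mk, AddHom.coe_mk, Matrix.of_apply,
    Matrix.submatrix_apply, Equiv.apply_symm_apply, kroneckerMap_apply]
  rw [← Equiv.sum_comp (splitEquiv n).symm]
  simp only [← Equiv.sum_comp (splitEquiv n).symm (M := ℂ),
    splitEquiv_symm_apply, Fin.prod_univ_succ, Fin.cons_zero, Fin.cons_succ,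
    Fintype.sum_prod_type, splitEquiv_cons]
  rw [map_eq_sum N A]
  simp only [Finset.sum_mul, Finset.mul_sum]
  -- reorder the right-hand side
  have hR : ∀ g : (Fin n → Fin 2) → (Fin n → Fin 2) → Fin 2 → Fin 2 → ℂ,
      ∑ x', ∑ y', ∑ i', ∑ j', g x' y' i' j' = ∑ i', ∑ x', ∑ j', ∑ y', g x' y' i' j' := by
    intro g
    calc ∑ x', ∑ y', ∑ i', ∑ j', g x' y' i' j' = ∑ x', ∑ i', ∑ y', ∑ j', g x' y' i' j' := by
          refine Finset.sum_congr rfl (fun x' _ => ?_)
          rw [Finset.sum_comm]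
      _ = ∑ x', ∑ i', ∑ j', ∑ y', g x' y' i' j' := by
          refine Finset.sum_congr rfl (fun x' _ => Finset.sum_congr rfl (fun i' _ => ?_))
          rw [Finset.sum_comm]
      _ = _ := by rw [Finset.sum_comm]
  rw [hR]
  refine Finset.sum_congr rfl (fun i' _ => Finset.sum_congr rfl (fun x' _ =>
    Finset.sum_congr rfl (fun j' _ => Finset.sum_congr rfl (fun y' _ => ?_))))
  ring

/-- superadditivity: product ensembles -/
theorem holevoValues_add {N : Matrix (Fin 2) (Fin 2) ℂ →ₗ[ℂ] Matrix (Fin 2) (Fin 2) ℂ}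
    (hN : IsCh N) {n : ℕ} (hn : IsCh (tensorPower N n)) {v w : ℝ}
    (hv : v ∈ holevoValues (tensorPower N n)) (hw : w ∈ holevoValues N) :
    v + w ∈ holevoValues (tensorPower N (n + 1)) := by
  obtain ⟨k1, q1, ρ1, hq1, hs1, hρ1, rfl⟩ := hv
  obtain ⟨k2, q2, ρ2, hq2, hs2, hρ2, rfl⟩ := hw
  set e := splitEquiv n with he
  let f : Fin (k1 * k2) ≃ Fin k1 × Fin k2 := finProdFinEquiv.symm
  refine ⟨k1 * k2, fun c => q1 (f c).1 * q2 (f c).2,
    fun c => (ρ2 (f c).2 ⊗ₖ ρ1 (f c).1).submatrix e e, ?_, ?_, ?_, ?_⟩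
  · intro c; exact mul_nonneg (hq1 _) (hq2 _)
  · rw [Equiv.sum_comp f (fun p : Fin k1 × Fin k2 => q1 p.1 * q2 p.2), Fintype.sum_prod_type]
    simp only [← Finset.mul_sum, hs2, mul_one, hs1]
  · intro c
    exact ((hρ2 _).kronecker (hρ1 _)).submatrix e
  · simp only [he, tensorPower_kronecker, entropy_submatrix]
    rw [← he]
    have hS : ∀ a b, entropy (N (ρ2 b) ⊗ₖ tensorPower N n (ρ1 a)) =
        entropy (N (ρ2 b)) + entropy (tensorPower N n (ρ1 a)) := fun a b =>
      entropy_kronecker (hN.isState (hρ2 b)) (hn.isState (hρ1 a))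
    have havg : ∑ c, ((q1 (f c).1 * q2 (f c).2 : ℝ) : ℂ) •
        (N (ρ2 (f c).2) ⊗ₖ tensorPower N n (ρ1 (f c).1)).submatrix e e =
        ((∑ b, (q2 b : ℂ) • N (ρ2 b)) ⊗ₖ (∑ a, (q1 a : ℂ) • tensorPower N n (ρ1 a))).submatrix
          e e := by
      rw [Equiv.sum_comp f (fun p : Fin k1 × Fin k2 => ((q1 p.1 * q2 p.2 : ℝ) : ℂ) •
        (N (ρ2 p.2) ⊗ₖ tensorPower N n (ρ1 p.1)).submatrix e e), Fintype.sum_prod_type]
      ext x y
      simp only [Matrix.sum_apply, Matrix.smul_apply, Matrix.submatrix_apply, kroneckerMap_apply,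
        smul_eq_mul, Finset.sum_mul, Finset.mul_sum, Complex.ofReal_mul]
      refine Finset.sum_congr rfl (fun a _ => Finset.sum_congr rfl (fun b _ => ?_))
      ring
    rw [havg, entropy_submatrix, entropy_kronecker
      (isState_sum hq2 hs2 (fun b => hN.isState (hρ2 b)))
      (isState_sum hq1 hs1 (fun a => hn.isState (hρ1 a)))]
    have hE : ∑ c, q1 (f c).1 * q2 (f c).2 *
        entropy (N (ρ2 (f c).2) ⊗ₖ tensorPower N n (ρ1 (f c).1)) =
        ∑ a, q1 a * entropy (tensorPower N n (ρ1 a)) + ∑ b, q2 b * entropy (N (ρ2 b)) := by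
      rw [Equiv.sum_comp f (fun p : Fin k1 × Fin k2 => q1 p.1 * q2 p.2 *
        entropy (N (ρ2 p.2) ⊗ₖ tensorPower N n (ρ1 p.1))), Fintype.sum_prod_type]
      simp only [hS, mul_add, Finset.sum_add_distrib]
      rw [add_comm]
      congr 1
      · refine Finset.sum_congr rfl (fun a _ => ?_)
        calc ∑ b, q1 a * q2 b * entropy (tensorPower N n (ρ1 a))
            = (∑ b, q2 b) * (q1 a * entropy (tensorPower N n (ρ1 a))) := by
              rw [Finset.sum_mul]
              exact Finset.sum_congr rfl (fun b _ => by ring)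
          _ = _ := by rw [hs2, one_mul]
      · rw [Finset.sum_comm]
        refine Finset.sum_congr rfl (fun b _ => ?_)
        calc ∑ a, q1 a * q2 b * entropy (N (ρ2 b))
            = (∑ a, q1 a) * (q2 b * entropy (N (ρ2 b))) := by
              rw [Finset.sum_mul]
              exact Finset.sum_congr rfl (fun a _ => by ring)
          _ = _ := by rw [hs1, one_mul]
    rw [hE]
    ring

lemma entropy_nonneg {ρ : Matrix d d ℂ} (hρ : IsState ρ) : 0 ≤ entropy ρ := by
  rw [entropy_eq_vnS]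
  exact div_nonneg (vnS_nonneg_of_trace_one hρ.1 (by rw [hρ.2]; simp))
    (Real.log_nonneg (by norm_num))

lemma entropy_le {ρ : Matrix d d ℂ} (hρ : IsState ρ) :
    entropy ρ ≤ Real.log (Fintype.card d) / Real.log 2 := by
  rw [entropy_eq_vnS]
  exact div_le_div_of_nonneg_right (vnS_le_log_card hρ.1 (by rw [hρ.2]; simp))
    (Real.log_nonneg (by norm_num))

/-- Holevo values are bounded above -/
theorem holevoValues_bddAbove {Φ : Matrix d d ℂ →ₗ[ℂ] Matrix d d ℂ} (h : IsCh Φ) :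
    BddAbove (holevoValues Φ) := by
  refine ⟨Real.log (Fintype.card d) / Real.log 2, ?_⟩
  rintro v ⟨k, q, ρ, hq, hq1, hρ, rfl⟩
  have h1 := entropy_le (isState_sum hq hq1 (fun a => h.isState (hρ a)))
  have h2 : 0 ≤ ∑ a, q a * entropy (Φ (ρ a)) :=
    Finset.sum_nonneg (fun a _ => mul_nonneg (hq a) (entropy_nonneg (h.isState (hρ a))))
  linarith

lemma isState_single (i : d) : IsState (Matrix.single i i (1:ℂ)) := by
  constructor
  · have : Matrix.single i i (1:ℂ) = diagonal (Pi.single i 1) := by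
      rw [Matrix.diagonal_single]
    rw [this]
    apply Matrix.PosSemidef.diagonal
    intro j
    by_cases h : j = i
    · subst h; simp
    · simp [h]
  · exact Matrix.trace_single_eq_same i 1

/-- Holevo values: zero is a value -/
theorem zero_mem_holevoValues [Nonempty d] (Φ : Matrix d d ℂ →ₗ[ℂ] Matrix d d ℂ) :
    (0:ℝ) ∈ holevoValues Φ := by
  obtain ⟨i⟩ := ‹Nonempty d›
  refine ⟨1, fun _ => 1, fun _ => Matrix.single i i (1:ℂ), fun _ => zero_le_one, by simp,
    fun _ => isState_single i, ?_⟩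
  simp

theorem holevoValues_nonempty [Nonempty d] (Φ : Matrix d d ℂ →ₗ[ℂ] Matrix d d ℂ) :
    (holevoValues Φ).Nonempty := ⟨0, zero_mem_holevoValues Φ⟩

end Vale.Agent.P358
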