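import Vale.Agent.P358.Defs
import Vale.Agent.P358.Pure

/-! # Recursion for the tensor powers, Kraus operators of tensor powers -/

open Matrix
open scoped ComplexOrder

namespace Vale.Agent.P358

variable (N : Matrix (Fin 2) (Fin 2) ℂ →ₗ[ℂ] Matrix (Fin 2) (Fin 2) ℂ)

theorem tensorPower_apply (n : ℕ) (ρ : Matrix (Fin n → Fin 2) (Fin n → Fin 2) ℂ)
    (x y : Fin n → Fin 2) :
    tensorPower N n ρ x y = ∑ x' : Fin n → Fin 2, ∑ y' : Fin n → Fin 2,
      (∏ i, N (Matrix.single (x' i) (y' i) 1) (x i) (y i)) * ρ x' y' := rfl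

theorem sum_cons {M : Type*} [AddCommMonoid M] (n : ℕ) (g : (Fin (n + 1) → Fin 2) → M) :
    ∑ x, g x = ∑ i : Fin 2, ∑ x : Fin n → Fin 2, g (Fin.cons i x) := by
  rw [← Fintype.sum_prod_type']
  exact (Fintype.sum_equiv (Fin.consEquiv (fun _ => Fin 2)) _ _ (fun p => rfl)).symm

theorem tensorPower_succ_apply (n : ℕ)
    (ρ : Matrix (Fin (n + 1) → Fin 2) (Fin (n + 1) → Fin 2) ℂ) (i j : Fin 2)
    (x y : Fin n → Fin 2) :
    tensorPower N (n + 1) ρ (Fin.cons i x) (Fin.cons j y) =
      ∑ i', ∑ j', N (Matrix.single i' j' 1) i j *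
        tensorPower N n (Matrix.of fun x' y' => ρ (Fin.cons i' x') (Fin.cons j' y')) x y := by
  rw [tensorPower_apply, sum_cons]
  refine Finset.sum_congr rfl fun i' _ => ?_
  simp only [sum_cons, tensorPower_apply, Finset.mul_sum, Fin.prod_univ_succ, Fin.cons_zero, Fin.cons_succ,
    Matrix.of_apply]
  rw [Finset.sum_comm]
  refine Finset.sum_congr rfl fun j' _ => ?_
  refine Finset.sum_congr rfl fun x' _ => Finset.sum_congr rfl fun y' _ => ?_
  ring

/-- a map on qubits given by Kraus operators has tensor powers given by Kraus operators -/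
theorem tensorPower_kraus {κ : Type} [Fintype κ] (K : κ → Matrix (Fin 2) (Fin 2) ℂ)
    (hN : ∀ M, N M = ∑ k, K k * M * (K k)ᴴ) (n : ℕ)
    (ρ : Matrix (Fin n → Fin 2) (Fin n → Fin 2) ℂ) :
    tensorPower N n ρ = ∑ k : Fin n → κ,
      (Matrix.of fun x x' : Fin n → Fin 2 => ∏ i, K (k i) (x i) (x' i)) * ρ *
        (Matrix.of fun x x' : Fin n → Fin 2 => ∏ i, K (k i) (x i) (x' i))ᴴ := by
  classical
  ext x y
  rw [tensorPower_apply, Matrix.sum_apply]
  have h1 : ∀ (a b c e : Fin 2), N (Matrix.single a b 1) c e = ∑ k, K k c a * star (K k e b) := by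
    intro a b c e
    rw [hN, Matrix.sum_apply]
    refine Finset.sum_congr rfl fun k _ => ?_
    rw [Matrix.mul_apply]
    simp only [Matrix.mul_apply, Matrix.single_apply, Matrix.conjTranspose_apply]
    rw [Finset.sum_eq_single b]
    · rw [Finset.sum_eq_single a]
      · simp
      · intro a' _ ha'
        simp [Ne.symm ha']
      · simp
    · intro b' _ hb'
      rw [Finset.sum_eq_zero, zero_mul]
      intro a' _
      simp [Ne.symm hb']
    · simp
  simp only [h1, Finset.prod_univ_sum, Matrix.mul_apply, Matrix.of_apply,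
    Matrix.conjTranspose_apply, Finset.sum_mul, Fintype.piFinset_univ, star_prod]
  rw [Finset.sum_congr rfl fun x' _ => Finset.sum_comm, Finset.sum_comm]
  refine Finset.sum_congr rfl fun k _ => ?_
  rw [Finset.sum_comm]
  refine Finset.sum_congr rfl fun y' _ => Finset.sum_congr rfl fun x' _ => ?_
  rw [Finset.prod_mul_distrib]
  ring

end Vale.Agent.P358
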